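import Vale.Agent.P132.Gauss

/-! P132: a Plancherel identity for gaussian windows. -/

namespace Vale.Agent.P132

open scoped InnerProductSpace BoundedContinuousFunction
open Filter Topology MeasureTheory Vale.Agent.P104

universe u

variable {H : Type u} [NormedAddCommGroup H] [InnerProductSpace ℂ H] [CompleteSpace H]

namespace FC
variable (F : FC H)

omit [CompleteSpace H] in
theorem pl_norm_le_one (s w : ℝ) : ‖gB s w‖ ≤ 1 := by
  refine (BoundedContinuousFunction.norm_le zero_le_one).2 fun u => ?_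
  rw [gB_apply, Complex.norm_real, Real.norm_of_nonneg (gau_pos _ _ _).le]
  exact gau_le_one _ _ _

theorem pl_norm_eB (t : ℝ) : ‖eB t‖ ≤ 1 := by
  refine (BoundedContinuousFunction.norm_le zero_le_one).2 fun u => ?_
  rw [eB_apply, mul_assoc, ← Complex.ofReal_mul, mul_comm, Complex.norm_exp_ofReal_mul_I]

theorem pl_norm_mul {w : ℝ} (hw : 0 < w) (c : ℝ) :
    ‖gB 0 1 * gB c w‖ ≤ Real.exp (-(1 / (2 * (1 + w ^ 2))) * c ^ 2) := by
  refine (BoundedContinuousFunction.norm_le (Real.exp_pos _).le).2 fun u => ?_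
  rw [BoundedContinuousFunction.mul_apply, gB_apply, gB_apply, ← Complex.ofReal_mul,
    Complex.norm_real, Real.norm_of_nonneg (mul_pos (gau_pos _ _ _) (gau_pos _ _ _)).le, gau, gau,
    ← Real.exp_add, Real.exp_le_exp, ← sub_nonneg]
  have e : -(1 / (2 * (1 + w ^ 2))) * c ^ 2 -
      (-(u - 0) ^ 2 / (2 * 1 ^ 2) + -(u - c) ^ 2 / (2 * w ^ 2)) =
      (w ^ 2 * u + (u - c)) ^ 2 / (2 * w ^ 2 * (1 + w ^ 2)) := by
    field_simp
    ring
  rw [e]
  positivity

theorem pl_gauss {w : ℝ} (hw : 0 < w) (a b u v : ℝ) :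
    ∫ s, gau (s + a) w u * gau (s + b) w v =
      √Real.pi * w * gau 0 (√2 * w) (a - b + -u + v) := by
  have e : ∀ s, gau (s + a) w u * gau (s + b) w v = gau 0 (√2 * w) (a - b + -u + v) *
      Real.exp (-(1 / w ^ 2) * (s - (u - a + (v - b)) / 2) ^ 2) := fun s => by
    rw [gau, gau, gau, ← Real.exp_add, ← Real.exp_add, mul_pow, Real.sq_sqrt zero_le_two]
    congr 1
    field_simp
    ring
  simp_rw [e]
  rw [integral_const_mul, integral_sub_right_eq_self (fun s : ℝ => Real.exp (-(1 / w ^ 2) * s ^ 2)),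
    integral_gaussian, div_div_eq_mul_div, div_one, Real.sqrt_mul Real.pi_pos.le,
    Real.sqrt_sq hw.le, mul_comm]

/-- Use `bm` for `s ↦ gB 0 1 * gB (s + a) w`, `s ↦ gB (s + b) w * gB 0 1` (the sup norm of such a
product is `exp (-(s + a)² / (2 (1 + w²)))`) and `t ↦ c t • (gB 0 1 * eB (-t))`,
`t ↦ eB t * gB 0 1`; the scalar identity is
`∫ s, gau (s + a) w u * gau (s + b) w v = √π w gau 0 (√2 w) (v - u + a - b)`. -/
theorem pl0 (A : Op H) {w : ℝ} (hw : 0 < w) (a b : ℝ) (η₀ η : H) (hη : η = F.Θ (gB 0 1) η₀) :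
    Integrable (fun s => ⟪F.Θ (gB (s + a) w) η, A (F.Θ (gB (s + b) w) η)⟫_ℂ) ∧
      ∫ s, ⟪F.Θ (gB (s + a) w) η, A (F.Θ (gB (s + b) w) η)⟫_ℂ =
        (√Real.pi * w : ℝ) * ∫ t, (kap (√2 * w) t : ℂ) * Complex.exp (Complex.I * t * (a - b : ℝ)) *
          ⟪F.Δ t η, A (F.Δ t η)⟫_ℂ := by
  have hw2 : 0 < √2 * w := by positivity
  have hsa : ∀ s w, star (F.Θ (gB s w)) = F.Θ (gB s w) := fun s w => F.Θ_sa fun u => by simp
  obtain ⟨c, hc⟩ : ∃ c : ℝ → ℂ, ∀ t, c t = (√Real.pi * w : ℝ) * ((kap (√2 * w) t : ℂ) *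
    Complex.exp (Complex.I * t * (a - b : ℝ))) := ⟨_, fun _ => rfl⟩
  have hcc : Continuous c := by
    have := continuous_kap (√2 * w)
    rw [show c = _ from funext hc]
    fun_prop
  have d1 : Dom (fun s => gB 0 1 * gB (s + a) w) (fun s => gB (s + b) w * gB 0 1) := by
    refine ⟨fun u => ?_, fun u => ?_,
      fun s => Real.exp (-(1 / (2 * (1 + w ^ 2))) * (s + a) ^ 2), ?_, fun s => ?_⟩
    · simp only [BoundedContinuousFunction.mul_apply, gB_apply, gau]
      fun_prop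
    · simp only [BoundedContinuousFunction.mul_apply, gB_apply, gau]
      fun_prop
    · exact (integrable_exp_neg_mul_sq (by positivity)).comp_add_right a
    · refine (mul_le_of_le_one_right (norm_nonneg _) ?_).trans (pl_norm_mul hw _)
      exact (norm_mul_le _ _).trans
        (mul_le_one₀ (pl_norm_le_one _ _) (norm_nonneg _) (pl_norm_le_one _ _))
  have d2 : Dom (fun t => c t • (gB 0 1 * eB (-t))) (fun t => eB t * gB 0 1) := by
    refine ⟨fun u => ?_, fun u => ?_, fun t => √Real.pi * w * kap (√2 * w) t,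
      (integrable_kap hw2).const_mul _, fun t => ?_⟩
    · simp only [BoundedContinuousFunction.smul_apply, BoundedContinuousFunction.mul_apply,
        eB_apply]
      fun_prop
    · simp only [BoundedContinuousFunction.mul_apply, eB_apply]
      fun_prop
    · refine (mul_le_of_le_one_right (norm_nonneg _) ((norm_mul_le _ _).trans
        (mul_le_one₀ (pl_norm_eB _) (norm_nonneg _) (pl_norm_le_one _ _)))).trans ?_
      rw [norm_smul]
      refine (mul_le_of_le_one_right (norm_nonneg _) ((norm_mul_le _ _).trans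
        (mul_le_one₀ (pl_norm_le_one _ _) (norm_nonneg _) (pl_norm_eB _)))).trans ?_
      rw [hc, norm_mul, norm_mul, Complex.norm_real, Complex.norm_real, mul_assoc Complex.I,
        ← Complex.ofReal_mul, mul_comm Complex.I, Complex.norm_exp_ofReal_mul_I, mul_one,
        Real.norm_of_nonneg (by positivity), Real.norm_of_nonneg (kap_pos hw2 t).le]
  have e1 : ∀ s, ⟪F.Θ (gB (s + a) w) η, A (F.Θ (gB (s + b) w) η)⟫_ℂ =
      ⟪η₀, (F.Θ (gB 0 1 * gB (s + a) w) * A * F.Θ (gB (s + b) w * gB 0 1)) η₀⟫_ℂ := fun s => by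
    rw [hη, ← inner_star_right, hsa, ← inner_star_right, hsa, map_mul, map_mul]
    rfl
  have e2 : ∀ t, c t * ⟪F.Δ t η, A (F.Δ t η)⟫_ℂ =
      ⟪η₀, (F.Θ (c t • (gB 0 1 * eB (-t))) * A * F.Θ (eB t * gB 0 1)) η₀⟫_ℂ := fun t => by
    rw [hη, ← inner_star_right, F.star_Δ, ← inner_star_right, hsa, map_smul, map_mul, map_mul,
      ← inner_smul_right]
    rfl
  simp_rw [e1]
  refine ⟨F.bm_integrable d1 A η₀ η₀, ?_⟩
  rw [F.bm d1 d2 (fun u v => ?_), ← integral_const_mul]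
  · simp_rw [← e2, hc, mul_assoc]
  · have l : ∀ s, (gB 0 1 * gB (s + a) w) u * (gB (s + b) w * gB 0 1) v =
        (gB 0 1 u * gB 0 1 v) * ((gau (s + a) w u * gau (s + b) w v : ℝ) : ℂ) := fun s => by
      simp only [BoundedContinuousFunction.mul_apply, gB_apply]
      push_cast
      ring
    have r : ∀ t, (c t • (gB 0 1 * eB (-t))) u * (eB t * gB 0 1) v =
        (gB 0 1 u * gB 0 1 v) * ((√Real.pi * w : ℝ) * ((kap (√2 * w) t : ℂ) *
          Complex.exp (Complex.I * t * (a - b + -u + v : ℝ)))) := fun t => by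
      simp only [BoundedContinuousFunction.smul_apply, BoundedContinuousFunction.mul_apply,
        eB_apply, hc, smul_eq_mul]
      push_cast
      rw [mul_add, mul_add, Complex.exp_add, Complex.exp_add, mul_neg, mul_neg, neg_mul]
      ring
    simp_rw [l, r]
    rw [integral_const_mul, integral_const_mul, integral_const_mul, integral_complex_ofReal,
      integral_kap_exp hw2, pl_gauss hw, Complex.ofReal_mul _ (gau _ _ _)]

/-- integrate the hypothesis in `s`; expand the square and use `pl0` with `A = 1` -/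
theorem pl (A : Op H) (κ : ℝ) {w : ℝ} (hw : 0 < w) (η₀ η : H) (hη : η = F.Θ (gB 0 1) η₀)
    (h : ∀ s, 0 ≤ qf A (F.Θ (gB s w) η) + κ *
      ‖F.Θ (gB s w) η - Real.exp (w ^ 2 / 8) • F.Θ (gB (s + w ^ 2 / 2) w) η‖ ^ 2) :
    0 ≤ (∫ t, kap (√2 * w) t * qf A (F.Δ t η)) + κ * eps w * ‖η‖ ^ 2 := by
  have hw2 : 0 < √2 * w := by positivity
  have one : ∀ a b : ℝ,
      Integrable (fun s => (⟪F.Θ (gB (s + a) w) η, F.Θ (gB (s + b) w) η⟫_ℂ).re) ∧
      ∫ s, (⟪F.Θ (gB (s + a) w) η, F.Θ (gB (s + b) w) η⟫_ℂ).re =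
        √Real.pi * w * (gau 0 (√2 * w) (a - b) * ‖η‖ ^ 2) := fun a b => by
    obtain ⟨h1, h2⟩ := F.pl0 1 hw a b η₀ η hη
    simp only [one_apply_eq_self, F.inner_Δ] at h1 h2
    refine ⟨h1.re, ?_⟩
    rw [integral_mul_const, integral_kap_exp hw2, inner_self_eq_norm_sq_to_K] at h2
    have h3 := integral_re h1
    rw [h2] at h3
    refine h3.trans ?_
    simp [← Complex.ofReal_pow, ← Complex.ofReal_mul]
  obtain ⟨a1, a2⟩ := F.pl0 A hw 0 0 η₀ η hη
  simp only [add_zero, sub_zero, Complex.ofReal_zero, mul_zero, Complex.exp_zero, mul_one] at a1 a2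
  have a3 : Integrable fun t => (kap (√2 * w) t : ℂ) * ⟪F.Δ t η, A (F.Δ t η)⟫_ℂ := by
    have h1 := continuous_kap (√2 * w)
    have h2 := F.continuous_Δ η
    refine ((integrable_kap hw2).mul_const (‖η‖ * (‖A‖ * ‖η‖))).mono'
      (Continuous.aestronglyMeasurable (by fun_prop)) (Eventually.of_forall fun t => ?_)
    rw [norm_mul, Complex.norm_real, Real.norm_of_nonneg (kap_pos hw2 t).le]
    refine mul_le_mul_of_nonneg_left ((norm_inner_le_norm _ _).trans ?_) (kap_pos hw2 t).le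
    rw [F.norm_Δ]
    refine mul_le_mul_of_nonneg_left ((A.le_opNorm _).trans ?_) (norm_nonneg _)
    rw [F.norm_Δ]
  have a4 : ∫ s, qf A (F.Θ (gB s w) η) =
      √Real.pi * w * ∫ t, kap (√2 * w) t * qf A (F.Δ t η) := by
    have h3 := integral_re a1
    have h4 := integral_re a3
    rw [a2] at h3
    refine h3.trans ?_
    rw [RCLike.re_to_complex, Complex.re_ofReal_mul, ← RCLike.re_to_complex, ← h4]
    simp only [RCLike.re_to_complex, Complex.re_ofReal_mul]
    rfl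
  obtain ⟨b1, b2⟩ := one 0 0
  obtain ⟨c1, c2⟩ := one 0 (w ^ 2 / 2)
  obtain ⟨d1, d2⟩ := one (w ^ 2 / 2) (w ^ 2 / 2)
  simp only [add_zero] at b1 b2 c1 c2
  have e : ∀ s, ‖F.Θ (gB s w) η - Real.exp (w ^ 2 / 8) • F.Θ (gB (s + w ^ 2 / 2) w) η‖ ^ 2 =
      (⟪F.Θ (gB s w) η, F.Θ (gB s w) η⟫_ℂ).re - 2 * Real.exp (w ^ 2 / 8) *
        (⟪F.Θ (gB s w) η, F.Θ (gB (s + w ^ 2 / 2) w) η⟫_ℂ).re + Real.exp (w ^ 2 / 8) ^ 2 *
        (⟪F.Θ (gB (s + w ^ 2 / 2) w) η, F.Θ (gB (s + w ^ 2 / 2) w) η⟫_ℂ).re := fun s => by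
    have q : ∀ x : H, (⟪x, x⟫_ℂ).re = ‖x‖ ^ 2 := fun x => inner_self_eq_norm_sq (𝕜 := ℂ) x
    rw [norm_sub_sq (𝕜 := ℂ), norm_smul, mul_pow, ← Complex.coe_smul, inner_smul_right,
      RCLike.re_to_complex, Complex.re_ofReal_mul, q, q, Real.norm_of_nonneg (Real.exp_pos _).le]
    ring
  have i1 : Integrable fun s => qf A (F.Θ (gB s w) η) := a1.re
  have h5 := integral_nonneg (μ := volume) (Pi.le_def.2 h : (0 : ℝ → ℝ) ≤ _)
  simp_rw [e] at h5
  have i2 := c1.const_mul (2 * Real.exp (w ^ 2 / 8))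
  have i3 := d1.const_mul (Real.exp (w ^ 2 / 8) ^ 2)
  have i4 := b1.sub' i2
  rw [integral_add i1 ((Integrable.fun_add i4 i3).const_mul _), integral_const_mul, integral_add i4 i3,
    integral_sub b1 i2, integral_const_mul, integral_const_mul, a4, b2, c2, d2] at h5
  have g0 : gau 0 (√2 * w) 0 = 1 := by simp [gau]
  have g1 : Real.exp (w ^ 2 / 8) * gau 0 (√2 * w) (0 - w ^ 2 / 2) = Real.exp (w ^ 2 / 16) := by
    rw [gau, ← Real.exp_add, mul_pow, Real.sq_sqrt zero_le_two]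
    congr 1
    field_simp
    ring
  have g2 : Real.exp (w ^ 2 / 8) ^ 2 = Real.exp (w ^ 2 / 4) := by
    rw [sq (Real.exp _), ← Real.exp_add]
    congr 1
    ring
  rw [sub_self, sub_self, g0, g2] at h5
  refine le_of_mul_le_mul_left ?_ (by positivity : 0 < √Real.pi * w)
  rw [mul_zero, eps, ← g1]
  linarith

end FC

end Vale.Agent.P132
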