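import Vale.Agent.P132.SFB
import Vale.Agent.P132.PL

/-! P132: strong integrals and gaussian smoothing. -/

namespace Vale.Agent.P132

open scoped InnerProductSpace BoundedContinuousFunction
open Filter Topology MeasureTheory Vale.Agent.P104

universe u

variable {H : Type u} [NormedAddCommGroup H] [InnerProductSpace ℂ H] [CompleteSpace H]

omit [CompleteSpace H] in
theorem sm_norm_le {κ : ℝ → ℂ} {V : ℝ → Op H} {C : ℝ} (hκ : Integrable κ) (hC : ∀ t, ‖V t‖ ≤ C)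
    (η : H) : ‖∫ t, κ t • V t η‖ ≤ (C * ∫ t, ‖κ t‖) * ‖η‖ := by
  refine (norm_integral_le_of_norm_le (hκ.norm.mul_const (C * ‖η‖))
    (Eventually.of_forall fun t => ?_)).trans_eq (by rw [integral_mul_const]; ring)
  rw [norm_smul]
  exact mul_le_mul_of_nonneg_left (((V t).le_opNorm η).trans
    (mul_le_mul_of_nonneg_right (hC t) (norm_nonneg η))) (norm_nonneg _)

theorem sm_norm (s : ℝ) {w : ℝ} (hw : 0 < w) (t : ℝ) :
    ‖(kap w t : ℂ) * Complex.exp (-(Complex.I * t * s))‖ = kap w t := by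
  have : -(Complex.I * t * s) = ((-(t * s) : ℝ) : ℂ) * Complex.I := by push_cast; ring
  rw [norm_mul, this, Complex.norm_exp_ofReal_mul_I, mul_one, Complex.norm_real,
    Real.norm_of_nonneg (kap_pos hw t).le]

theorem sm_int (s : ℝ) {w : ℝ} (hw : 0 < w) :
    Integrable fun t => (kap w t : ℂ) * Complex.exp (-(Complex.I * t * s)) := by
  have := continuous_kap w
  exact Integrable.mono' (integrable_kap hw) (Continuous.aestronglyMeasurable (by fun_prop))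
    (Eventually.of_forall fun t => (sm_norm s hw t).le)

theorem FC.sm_cf (F : FC H) (f : ℝ →ᵇ ℂ) (s : ℝ) {ε : ℝ} (hε : 0 < ε) : ∃ δ > 0, ∀ η ζ,
    ‖F.R η - (rr s : ℂ) • η‖ ≤ δ * ‖η‖ → ‖ζ - η‖ ≤ δ * ‖η‖ → ‖F.Θ f ζ - f s • η‖ ≤ ε * ‖η‖ := by
  obtain ⟨K, hK, h⟩ := F.cf f s (half_pos hε)
  have hf := norm_nonneg (F.Θ f)
  refine ⟨ε / 2 / (K + ‖F.Θ f‖ + 1), by positivity, fun η ζ h1 h2 => ?_⟩
  set δ := ε / 2 / (K + ‖F.Θ f‖ + 1) with hδ
  have h3 : δ * (K + ‖F.Θ f‖ + 1) = ε / 2 := div_mul_cancel₀ _ (by positivity)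
  have h4 : 0 ≤ δ * ‖η‖ := by positivity
  have e : F.Θ f ζ - f s • η = F.Θ f (ζ - η) + (F.Θ f η - f s • η) := by rw [map_sub]; abel
  rw [e]
  calc _ ≤ ‖F.Θ f‖ * (δ * ‖η‖) + (ε / 2 * ‖η‖ + K * (δ * ‖η‖)) :=
        (norm_add_le _ _).trans (add_le_add (((F.Θ f).le_opNorm _).trans (by gcongr))
          ((h η).trans (by gcongr)))
    _ = ε / 2 * ‖η‖ + δ * (K + ‖F.Θ f‖ + 1) * ‖η‖ - δ * ‖η‖ := by ring
    _ ≤ _ := by rw [h3]; linarith

section si
variable {κ : ℝ → ℂ} {V : ℝ → Op H} {C : ℝ} (hκ : Integrable κ)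
  (hV : ∀ η, Continuous fun t => V t η) (hC : ∀ t, ‖V t‖ ≤ C)
include hκ hV hC

theorem si_integrable (η : H) : Integrable fun t => κ t • V t η := by
  refine Integrable.mono' (hκ.norm.mul_const (C * ‖η‖)) (hκ.1.smul (hV η).aestronglyMeasurable)
    (Eventually.of_forall fun t => ?_)
  rw [norm_smul]
  exact mul_le_mul_of_nonneg_left (((V t).le_opNorm η).trans
    (mul_le_mul_of_nonneg_right (hC t) (norm_nonneg η))) (norm_nonneg _)

/-- `Classical.epsilon_spec` and `LinearMap.mkContinuous` -/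
theorem si_apply (η : H) : si κ V η = ∫ t, κ t • V t η := by
  have hi := si_integrable hκ hV hC
  let L : H →ₗ[ℂ] H :=
    { toFun := fun η => ∫ t, κ t • V t η
      map_add' := fun a b => by
        rw [← integral_add (hi a) (hi b)]
        simp only [map_add, smul_add]
      map_smul' := fun c a => by
        simp only [RingHom.id_apply, map_smul, smul_comm _ c, integral_smul] }
  refine Classical.epsilon_spec (p := fun Y : Op H => ∀ η, Y η = ∫ t, κ t • V t η)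
    ⟨L.mkContinuous (C * ∫ t, ‖κ t‖) (sm_norm_le hκ hC), fun _ => rfl⟩ η

theorem norm_si_le : ‖si κ V‖ ≤ C * ∫ t, ‖κ t‖ := by
  refine ContinuousLinearMap.opNorm_le_bound _ (mul_nonneg ((norm_nonneg _).trans (hC 0))
    (integral_nonneg fun _ => norm_nonneg _)) fun η => ?_
  rw [si_apply hκ hV hC]
  exact sm_norm_le hκ hC η

theorem inner_si (η ζ : H) : ⟪η, si κ V ζ⟫_ℂ = ∫ t, κ t * ⟪η, V t ζ⟫_ℂ := by
  rw [si_apply hκ hV hC, ← integral_inner (si_integrable hκ hV hC ζ)]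
  simp only [inner_smul_right]

theorem si_conj {a b c d : Op H} (h : ∀ t, a * V t * b = c * V t * d) :
    a * si κ V * b = c * si κ V * d := by
  have key : ∀ (a b : Op H) η, (a * si κ V * b) η = ∫ t, κ t • (a * V t * b) η := fun a b η => by
    simp only [mul_apply_eq_comp]
    rw [si_apply hκ hV hC, ← a.integral_comp_comm (si_integrable hκ hV hC _)]
    simp only [map_smul]
  ext η
  simp only [key, h]

theorem si_mem {N : VonNeumannAlgebra H} (h : ∀ t, V t ∈ N) : si κ V ∈ N := by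
  refine (mem_iff_comm N).2 fun s hs => ?_
  have := si_conj hκ hV hC (a := s) (b := 1) (c := 1) (d := s) fun t => by
    rw [mul_one, one_mul, comm_of_mem hs (h t)]
  rwa [mul_one, one_mul] at this

end si

namespace FC
variable (F : FC H) (s : ℝ) {w : ℝ} (hw : 0 < w) (x : Op H)
include hw

theorem G_apply (η : H) : F.G s w x η =
    ∫ t, ((kap w t : ℂ) * Complex.exp (-(Complex.I * t * s))) • F.σ t x η := by
  exact si_apply (sm_int s hw) (F.continuous_σ x) (fun t => (F.norm_σ t x).le) η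

theorem G_conj {a b c d : Op H} (h : ∀ t, a * F.σ t x * b = c * F.σ t x * d) :
    a * F.G s w x * b = c * F.G s w x * d := by
  exact si_conj (sm_int s hw) (F.continuous_σ x) (fun t => (F.norm_σ t x).le) h

theorem G_mem {N : VonNeumannAlgebra H} (h : ∀ t, F.σ t x ∈ N) : F.G s w x ∈ N := by
  exact si_mem (sm_int s hw) (F.continuous_σ x) (fun t => (F.norm_σ t x).le) h

theorem norm_G_le : ‖F.G s w x‖ ≤ ‖x‖ := by
  have := norm_si_le (sm_int s hw) (F.continuous_σ x) fun t => (F.norm_σ t x).le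
  simpa only [G, sm_norm s hw, integral_kap hw, mul_one] using this

theorem G_star : star (F.G s w x) = F.G (-s) w (star x) := by
  ext ζ
  refine ext_inner_left ℂ fun η => ?_
  rw [inner_star_right, ← inner_conj_symm, G, G,
    inner_si (sm_int s hw) (F.continuous_σ x) fun t => (F.norm_σ t x).le,
    inner_si (sm_int (-s) hw) (F.continuous_σ _) fun t => (F.norm_σ t _).le, ← integral_conj]
  refine integral_congr_ae (Eventually.of_forall fun t => ?_)
  simp only [map_mul, inner_conj_symm, Complex.conj_ofReal, ← Complex.exp_conj, map_neg,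
    Complex.conj_I, F.σ_star, inner_star_right, Complex.ofReal_neg, neg_mul, mul_neg]

/-- substitute `t ↦ -t` -/
theorem qf_G (η : H) : qf (F.G 0 w x) η = ∫ t, kap w t * qf x (F.Δ t η) := by
  have hi : Integrable fun t => ((kap w t : ℂ) * Complex.exp (-(Complex.I * t * (0 : ℝ)))) *
      ⟪η, F.σ t x η⟫_ℂ := by
    simpa only [inner_smul_right] using (si_integrable (sm_int 0 hw) (F.continuous_σ x)
      (fun t => (F.norm_σ t x).le) η).const_inner (𝕜 := ℂ) η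
  rw [qf, G, inner_si (sm_int 0 hw) (F.continuous_σ x) fun t => (F.norm_σ t x).le,
    ← integral_neg_eq_self fun t => kap w t * qf x (F.Δ t η)]
  refine (integral_re (𝕜 := ℂ) hi).symm.trans (integral_congr_ae (Eventually.of_forall fun t => ?_))
  simp only [kap_neg, qf, F.σ_apply, ← F.star_Δ t, inner_star_left]
  simp

/-- `kap_shift` -/
theorem continuous_σ_G : Continuous fun t => F.σ t (F.G 0 w x) := by
  have hb := fun t => (F.norm_σ t x).le
  have hk : ∀ s : ℝ, Integrable fun t => ((kap w (t - s) : ℝ) : ℂ) := fun s =>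
    ((integrable_kap hw).comp_sub_right s).ofReal
  have h1 : ∀ s η, F.σ s (F.G 0 w x) η = ∫ t, ((kap w (t - s) : ℝ) : ℂ) • F.σ t x η := by
    intro s η
    rw [F.σ_apply, F.G_apply 0 hw, ← (F.Δ s).integral_comp_comm
      (si_integrable (sm_int 0 hw) (F.continuous_σ x) hb _),
      ← integral_add_left_eq_self (fun t => ((kap w (t - s) : ℝ) : ℂ) • F.σ t x η) s]
    refine integral_congr_ae (Eventually.of_forall fun t => ?_)
    simp only [map_smul, ← F.σ_σ, add_sub_cancel_left, F.σ_apply s]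
    simp
  have h2 : ∀ s, ‖F.σ s (F.G 0 w x) - F.G 0 w x‖ ≤ ‖x‖ * ∫ t, |kap w (t - s) - kap w t| := by
    intro s
    refine ContinuousLinearMap.opNorm_le_bound _ (mul_nonneg (norm_nonneg _)
      (integral_nonneg fun _ => abs_nonneg _)) fun η => ?_
    have h3 := h1 0 η
    rw [F.σ_zero] at h3
    rw [sub_apply, h1, h3, ← integral_sub (si_integrable (hk s) (F.continuous_σ x) hb _)
      (si_integrable (hk 0) (F.continuous_σ x) hb _)]
    have h4 := sm_norm_le ((hk s).sub (hk 0)) hb η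
    simpa only [Pi.sub_apply, ← sub_smul, sub_zero, ← Complex.ofReal_sub, Complex.norm_real,
      Real.norm_eq_abs] using h4
  refine continuous_iff_continuousAt.2 fun t₀ => tendsto_iff_norm_sub_tendsto_zero.2 ?_
  have h3 : Tendsto (fun t => t - t₀) (𝓝 t₀) (𝓝 0) := by
    simpa using (continuous_sub_right t₀).tendsto t₀
  have h4 := ((kap_shift hw).comp h3).const_mul ‖x‖
  rw [mul_zero] at h4
  refine squeeze_zero (fun _ => norm_nonneg _) (fun t => le_trans (le_of_eq ?_) (h2 (t - t₀))) h4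
  rw [← F.norm_σ t₀ (F.σ (t - t₀) _ - _), F.σ_sub, F.σ_σ, add_sub_cancel]

end FC

namespace SF
variable (S : SF H)

theorem G_ξ (s : ℝ) {w : ℝ} (hw : 0 < w) (x : Op H) : S.G s w x S.ξ = S.Θ (gB s w) (x S.ξ) := by
  simp only [S.G_apply s hw, S.Θ_gB s hw, S.σ_ξ]

theorem ρ_G (s : ℝ) {w : ℝ} (hw : 0 < w) {x : Op H} (hx : x ∈ S.M) : S.ρ (S.G s w x) S.ξ =
    Real.exp (s / 2 + w ^ 2 / 8) • S.Θ (gB (s + w ^ 2 / 2) w) (x S.ξ) := by
  rw [S.ρ_of_Θ (S.G_mem s hw x (S.σ_M x hx)) (S.G_ξ s hw x)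
    (g := (Real.exp (s / 2 + w ^ 2 / 8) : ℂ) • gB (s + w ^ 2 / 2) w) fun u => ?_, map_smul]
  · rfl
  · rw [BoundedContinuousFunction.smul_apply, gB_apply, gB_apply, smul_eq_mul, mul_comm (gau s w u : ℂ)]
    exact_mod_cast (exp_mul_gau s hw u).symm

theorem D_G (s : ℝ) {w : ℝ} (hw : 0 < w) {x : Op H} (hx : x ∈ S.M) :
    S.D (Real.exp (-s / 2)) (S.G s w x) = S.Θ (gB s w) (x S.ξ) -
      Real.exp (w ^ 2 / 8) • S.Θ (gB (s + w ^ 2 / 2) w) (x S.ξ) := by
  rw [D, S.G_ξ s hw, S.ρ_G s hw hx, smul_smul, ← Real.exp_add,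
    show -s / 2 + (s / 2 + w ^ 2 / 8) = w ^ 2 / 8 by ring]

/-- `G 0 1 x` is analytic: `z = exp (1/8) • G (-1/2) 1 x` -/
theorem G_analytic {x : Op H} (hx : x ∈ S.M) : ∃ z ∈ S.M, S.G 0 1 x S.ξ = S.ρ z S.ξ := by
  refine ⟨Real.exp (1 / 8) • S.G (-1 / 2) 1 x,
    vn_rsmul_mem _ (S.G_mem _ one_pos x (S.σ_M x hx)), ?_⟩
  rw [S.ρ_rsmul, smul_apply, S.ρ_G _ one_pos hx, smul_smul, ← Real.exp_add, S.G_ξ 0 one_pos,
    show (1 / 8 + (-1 / 2 / 2 + 1 ^ 2 / 8) : ℝ) = 0 by norm_num, Real.exp_zero, one_smul,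
    show (-1 / 2 + 1 ^ 2 / 2 : ℝ) = 0 by norm_num]

/-- `FC.cf` for `gB s 1` and for `gB s 1 - exp (1/8) • gB (s + 1/2) 1`, which vanishes at `s` -/
theorem ae (s : ℝ) {ε : ℝ} (hε : 0 < ε) : ∃ δ > 0, ∀ (N : Set (Op H)) (η : H),
    (∀ x ∈ N, x ∈ S.M) → η ∈ closure (orb N S.ξ) → η ≠ 0 →
      ‖S.R η - (rr s : ℂ) • η‖ ≤ δ * ‖η‖ → ∃ x ∈ N, ‖S.G s 1 x S.ξ - η‖ ≤ ε * ‖η‖ ∧
        ‖S.D (Real.exp (-s / 2)) (S.G s 1 x)‖ ≤ ε * ‖η‖ := by
  obtain ⟨δ₁, h1, H1⟩ := S.sm_cf (gB s 1) s hε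
  obtain ⟨δ₂, h2, H2⟩ :=
    S.sm_cf (gB s 1 - (Real.exp (1 ^ 2 / 8) : ℂ) • gB (s + 1 ^ 2 / 2) 1) s hε
  refine ⟨min δ₁ δ₂, lt_min h1 h2, fun N η hN hη h0 hR => ?_⟩
  have hn : 0 < ‖η‖ := norm_pos_iff.2 h0
  obtain ⟨_, ⟨x, hx, rfl⟩, hd⟩ := Metric.mem_closure_iff.1 hη _ (mul_pos (lt_min h1 h2) hn)
  rw [dist_comm, dist_eq_norm] at hd
  have e1 : min δ₁ δ₂ * ‖η‖ ≤ δ₁ * ‖η‖ := mul_le_mul_of_nonneg_right (min_le_left _ _) hn.le
  have e2 : min δ₁ δ₂ * ‖η‖ ≤ δ₂ * ‖η‖ := mul_le_mul_of_nonneg_right (min_le_right _ _) hn.le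
  refine ⟨x, hx, ?_, ?_⟩
  · have := H1 η _ (hR.trans e1) (hd.le.trans e1)
    rw [S.G_ξ s one_pos]
    simpa [gau] using this
  · have := H2 η _ (hR.trans e2) (hd.le.trans e2)
    have e3 : (gB s 1 - (Real.exp (1 ^ 2 / 8) : ℂ) • gB (s + 1 ^ 2 / 2) 1) s = 0 := by
      have := exp_mul_gau s one_pos s
      rw [Real.exp_add, mul_assoc, mul_right_inj' (Real.exp_pos _).ne'] at this
      rw [BoundedContinuousFunction.sub_apply, BoundedContinuousFunction.smul_apply, gB_apply,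
        gB_apply, this, smul_eq_mul, Complex.ofReal_mul, sub_self]
    rw [e3, zero_smul, sub_zero, map_sub, map_smul] at this
    rw [S.D_G s one_pos (hN x hx)]
    exact this

/-- `D_G`, `FC.pl`, then density (`FC.dense_range` for `gB 0 1` and the projection
`projOn (orb N ξ)`, which commutes with `Δ`, hence with `Θ`) and continuity in `η` -/
theorem qineq {N : VonNeumannAlgebra H} (hN : ∀ x ∈ N, x ∈ S.M) (hσ : ∀ x ∈ N, ∀ t, S.σ t x ∈ N)
    (A : Op H) (κ : ℝ)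
    (h : ∀ x ∈ N, ∀ μ : ℝ, 0 < μ → 0 ≤ qf A (x S.ξ) + κ * ‖S.D μ x‖ ^ 2) {w : ℝ} (hw : 0 < w)
    {x : Op H} (hx : x ∈ N) :
    0 ≤ (∫ t, kap (√2 * w) t * qf A (S.Δ t (x S.ξ))) + κ * eps w * ‖x S.ξ‖ ^ 2 := by
  have hw' : 0 < √2 * w := by positivity
  have hE := projOn_proj (orb (N : Set (Op H)) S.ξ)
  have h0 : ∀ t, ∀ η ∈ orb (N : Set (Op H)) S.ξ, S.Δ t η ∈ closure (orb (N : Set (Op H)) S.ξ) := by
    rintro t _ ⟨y, hy, rfl⟩
    exact subset_closure ⟨_, hσ y hy t, (S.σ_ξ t y).symm⟩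
  have hc : ∀ g, projOn (orb (N : Set (Op H)) S.ξ) * S.Θ g = S.Θ g * projOn (orb N S.ξ) := fun g =>
    (S.comm_of_Δ (fun t => projOn_comm' (h0 t) (by rw [S.star_Δ]; exact h0 (-t))) g).symm
  have h1 : ∀ s, closure (orb (N : Set (Op H)) S.ξ) ⊆ {η | 0 ≤ qf A (S.Θ (gB s w) η) + κ *
      ‖S.Θ (gB s w) η - Real.exp (w ^ 2 / 8) • S.Θ (gB (s + w ^ 2 / 2) w) η‖ ^ 2} := by
    intro s
    have hq := continuous_qf A
    refine closure_minimal ?_ (isClosed_le continuous_const (by fun_prop))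
    rintro _ ⟨y, hy, rfl⟩
    have := h _ (S.G_mem s hw y (hσ y hy)) _ (Real.exp_pos (-s / 2))
    rwa [S.D_G s hw (hN y hy), S.G_ξ s hw] at this
  have hq := continuous_qf (S.G 0 (√2 * w) A)
  have h2 : IsClosed {η | 0 ≤ qf (S.G 0 (√2 * w) A) η + κ * eps w * ‖η‖ ^ 2} :=
    isClosed_le continuous_const (by fun_prop)
  rw [← S.qf_G hw']
  refine h2.closure_subset (Metric.mem_closure_iff.2 fun ε hε => ?_)
  obtain ⟨ζ, h3, h4⟩ := S.dense_range (f := gB 0 1)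
    (fun u => Complex.ofReal_ne_zero.2 (gau_pos 0 1 u).ne') hE hc
    (projOn_apply_of_mem (ξ := x S.ξ) ⟨x, hx, rfl⟩) (half_pos hε)
  refine ⟨S.Θ (gB 0 1) ζ, ?_, by rw [dist_eq_norm]; linarith⟩
  have h5 : S.Θ (gB 0 1) ζ ∈ closure (orb (N : Set (Op H)) S.ξ) := by
    rw [← projOn_orb_iff, ← mul_apply_eq_comp, hc, mul_apply_eq_comp, h3]
  have h6 := S.pl A κ hw ζ _ rfl fun s => h1 s h5
  rwa [← S.qf_G hw'] at h6

end SF

end Vale.Agent.P132
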