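import Vale.Agent.P132.L2
import Vale.Agent.P104.Compare

/-! P132: cutting by spectral projections, coverings by partial isometries. -/

namespace Vale.Agent.P132

open scoped InnerProductSpace BoundedContinuousFunction
open Filter Topology MeasureTheory Vale.Agent.P104

universe u

variable {H : Type u} [NormedAddCommGroup H] [InnerProductSpace ℂ H] [CompleteSpace H]

/-- Apply `P104.cut` to `b = (c + τ) q - q h q` at the level `τ / 2`. -/
theorem bot (N : VonNeumannAlgebra H) {q h : Op H} (hq : IsStarProjection q) (hqN : q ∈ N)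
    (hh : h ∈ N) (hs : IsSelfAdjoint h) {η : H} (hη : q η = η) (h0 : η ≠ 0) {c : ℝ}
    (hc : qf h η ≤ c * ‖η‖ ^ 2) {τ : ℝ} (hτ : 0 < τ) :
    ∃ e ∈ N, IsStarProjection e ∧ e ≠ 0 ∧ q * e = e ∧
      ∀ ζ, e ζ = ζ → qf h ζ ≤ (c + τ) * ‖ζ‖ ^ 2 := by
  have hb : ∀ ζ, q ζ = ζ → qf ((c + τ) • q - star q * h * q) ζ = (c + τ) * ‖ζ‖ ^ 2 - qf h ζ := by
    intro ζ hζ
    rw [qf_sub, qf_rsmul, qf_conj, polar_qf_proj hq, hζ]
  obtain ⟨e, heN, he, -, h1, h2, h3⟩ := cut N (b := (c + τ) • q - star q * h * q)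
    (sub_mem (vn_rsmul_mem _ hqN) (mul_mem (mul_mem (star_mem hqN) hh) hqN))
    (((IsSelfAdjoint.all (c + τ)).smul hq.isSelfAdjoint).sub (hs.conjugate' q)) (τ / 2)
  have hqe : q * e = e := by
    have h4 := h3 (half_pos hτ) (1 - q) (by
      rw [mul_sub, mul_smul_comm, hq.isSelfAdjoint.star_eq, ← mul_assoc, ← mul_assoc,
        hq.isIdempotentElem.one_sub_mul_self, smul_zero, zero_mul, zero_mul, sub_zero])
    rw [sub_mul, one_mul, sub_eq_zero] at h4
    exact h4.symm
  refine ⟨e, heN, he, fun h4 => ?_, hqe, fun ζ hζ => ?_⟩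
  · have h5 := h2 η
    rw [h4, zero_apply, sub_zero, hb η hη] at h5
    have h6 := mul_pos hτ (pow_pos (norm_pos_iff.2 h0) 2)
    linarith
  · have h5 := h1 ζ
    rw [hζ, hb ζ (by rw [← hζ, ← mul_apply_eq_comp, hqe])] at h5
    have h6 := mul_nonneg hτ.le (sq_nonneg ‖ζ‖)
    linarith

/-- iterate `P104.local_scalar` (applied to `p d p`) -/
theorem cut_many (N : VonNeumannAlgebra H) {p : Op H} (hp : IsStarProjection p) (hpN : p ∈ N)
    (h0 : p ≠ 0) {I : Type*} (s : Finset I) (d : I → Op H) (hd : ∀ i, d i ∈ N)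
    (hs : ∀ i, IsSelfAdjoint (d i)) {τ : ℝ} (hτ : 0 < τ) :
    ∃ e ∈ N, IsStarProjection e ∧ e ≠ 0 ∧ p * e = e ∧
      ∀ i ∈ s, ∃ c : ℝ, ‖e * d i * e - c • e‖ ≤ τ := by
  classical
  induction s using Finset.induction_on with
  | empty => exact ⟨p, hpN, hp, h0, hp.isIdempotentElem.eq, by simp⟩
  | insert i s _ ih =>
    obtain ⟨e, heN, he, he0, hpe, h1⟩ := ih
    have hee := he.isIdempotentElem.eq
    obtain ⟨f, hfN, hf, hf0, hef, t, ht⟩ := local_scalar N he heN he0
      (mul_mem (mul_mem heN (hd i)) heN) ((hs i).conjugate_self he.isSelfAdjoint)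
      (by rw [← mul_assoc, ← mul_assoc, hee, mul_assoc _ e e, hee]) hτ
    have hfe : f * e = f := by
      have h2 := compare_star_left he hef
      rwa [hf.isSelfAdjoint.star_eq] at h2
    have hff := hf.isIdempotentElem.eq
    have hl : ∀ x : Op H, ‖f * x‖ ≤ ‖x‖ := fun x =>
      (norm_mul_le _ _).trans (mul_le_of_le_one_left (norm_nonneg _) hf.norm_le)
    have hr : ∀ x : Op H, ‖x * f‖ ≤ ‖x‖ := fun x =>
      (norm_mul_le _ _).trans (mul_le_of_le_one_right (norm_nonneg _) hf.norm_le)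
    have e1 : ∀ x : Op H, f * (e * x * e * f) = f * x * f := fun x => by
      rw [mul_assoc _ e f, hef, ← mul_assoc, ← mul_assoc, hfe]
    refine ⟨f, hfN, hf, hf0, by rw [← hef, ← mul_assoc, hpe], fun j hj => ?_⟩
    rcases Finset.mem_insert.1 hj with rfl | hj
    · refine ⟨t, le_trans (le_of_eq ?_) ((hl _).trans ht)⟩
      rw [sub_mul, mul_sub, e1, smul_mul_assoc, one_mul, mul_smul_comm, hff]
    · obtain ⟨c, hc⟩ := h1 j hj
      refine ⟨c, le_trans (le_of_eq ?_) ((hl _).trans ((hr _).trans hc))⟩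
      rw [sub_mul, mul_sub, e1, smul_mul_assoc, hef, mul_smul_comm, hff]

/-- `P104.csupp` -/
theorem IsFactor.exists_ne {N : VonNeumannAlgebra H} (hN : IsFactor N) {e f : Op H}
    (he : e ∈ N) (he0 : e ≠ 0) (hf0 : f ≠ 0) : ∃ x ∈ N, f * x * e ≠ 0 := by
  obtain ⟨z, hz, hze, h⟩ := csupp N he
  by_contra hn
  push Not at hn
  obtain ⟨c, rfl⟩ := hN z hz.mem hz.cen
  have h1 := h f hn
  rw [mul_smul_comm, mul_one, smul_eq_zero] at h1
  rw [h1.resolve_right hf0, zero_smul, zero_mul] at hze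
  exact he0 hze.symm

theorem cut_orth {F : Set (Op H)} (hr : F.Pairwise fun v w => star v * w = 0) :
    Pairwise fun v w : F => (v : Op H) * star (v : Op H) * ((w : Op H) * star (w : Op H)) = 0 := by
  intro v w h
  have h1 : star (v : Op H) * w = 0 := hr v.2 w.2 fun e => h (Subtype.ext e)
  rw [mul_assoc, ← mul_assoc (star _), h1, zero_mul, mul_zero]

/-- `exists_maximal_pairwise`, `connect`, `sum_piso` for the range projections -/
theorem cover {N : VonNeumannAlgebra H} (hN : IsFactor N) {p : Op H} (hp : IsStarProjection p)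
    (hpN : p ∈ N) (h0 : p ≠ 0) : ∃ F : Set (Op H),
      (∀ v ∈ F, v ∈ N ∧ PIso v ∧ v ≠ 0 ∧ v * p = v) ∧ (F.Pairwise fun v w => star v * w = 0) ∧
      (∀ ζ, HasSum (fun v : F => ((v : Op H) * star (v : Op H)) ζ) ζ) ∧
      ∀ ζ, HasSum (fun v : F => ‖star (v : Op H) ζ‖ ^ 2) (‖ζ‖ ^ 2) := by
  obtain ⟨F, hF, hr, hm⟩ := exists_maximal_pairwise
    {v : Op H | v ∈ N ∧ PIso v ∧ v ≠ 0 ∧ v * p = v} (fun v w => star v * w = 0) fun a b h => by
      simpa using congrArg star h
  have hq : ∀ v : F, IsStarProjection ((v : Op H) * star (v : Op H)) := fun v =>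
    (hF v.2).2.1.proj_right
  have ho := cut_orth hr
  obtain ⟨V, hV, -, h1, -, h2, -, h3, h4, h5, -⟩ := sum_piso N
    (fun v : F => (v : Op H) * star (v : Op H))
    (fun v => mul_mem (hF v.2).1 (star_mem (hF v.2).1)) (fun v => PIso.of_proj (hq v))
    (fun v w h => by beta_reduce; rw [(hq v).isSelfAdjoint.star_eq, ho h])
    (fun v w h => by beta_reduce; rw [(hq w).isSelfAdjoint.star_eq, ho h])
  simp only [fun v => (hq v).isSelfAdjoint.star_eq, fun v => (hq v).isIdempotentElem.eq] at h1 h4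
  have h6 : ∀ v : F, (1 - V) * ((v : Op H) * star (v : Op H)) = 0 := fun v => by
    rw [sub_mul, one_mul, h1, sub_self]
  have hP : IsStarProjection V := by
    refine ⟨?_, ContinuousLinearMap.ext fun ζ => (h4 ζ).unique (h3 ζ)⟩
    have h7 := h2 _ h6
    rw [sub_mul, one_mul, sub_eq_zero] at h7
    exact h7.symm
  have h7 : ∀ w ∈ F, (1 - V) * w = 0 := fun w hw => by
    have e : w * star w * w = w := (hF hw).2.1
    rw [← e, ← mul_assoc, h6 ⟨w, hw⟩, zero_mul]
  have h8 : V = 1 := by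
    by_contra hne
    obtain ⟨x, hx, hx0⟩ := hN.exists_ne hpN h0 (sub_ne_zero.2 (Ne.symm hne))
    obtain ⟨v, hvN, hv, hv0, hfv, hvp⟩ := connect N hp hP.one_sub hpN (sub_mem (one_mem N) hV) hx hx0
    have h9 : v ∈ F := hm v ⟨hvN, hv, hv0, hvp⟩ fun w hw => by
      rw [← compare_star_left hP.one_sub hfv, mul_assoc, h7 w hw, mul_zero]
    exact hv0 (hfv.symm.trans (h7 v h9))
  subst h8
  refine ⟨F, hF, hr, h3, fun ζ => ?_⟩
  have e : ∀ v : F, ‖star (v : Op H) ζ‖ ^ 2 = ‖((v : Op H) * star (v : Op H)) ζ‖ ^ 2 := fun v => by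
    rw [← qf_star_mul_self, star_star, polar_qf_proj (hq v)]
  simp only [e]
  exact h5 ζ

theorem cover_countable {N : VonNeumannAlgebra H} {ξ : H} (hsep : ∀ x ∈ N, x ξ = 0 → x = 0)
    {F : Set (Op H)} (hF : ∀ v ∈ F, v ∈ N ∧ v ≠ 0)
    (h : Summable fun v : F => ‖star (v : Op H) ξ‖ ^ 2) : F.Countable := by
  refine Set.countable_coe_iff.1 (Set.countable_univ_iff.1 (h.countable_support.mono fun v _ => ?_))
  refine pow_ne_zero 2 (norm_ne_zero_iff.2 fun h1 => (hF v v.2).2 ?_)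
  exact star_eq_zero.1 (hsep _ (star_mem (hF v v.2).1) h1)

/-- a finite part of the adjoints of `cover` -/
theorem cover_fin {N : VonNeumannAlgebra H} (hN : IsFactor N) {p : Op H} (hp : IsStarProjection p)
    (hpN : p ∈ N) (h0 : p ≠ 0) (ξ : H) {ε : ℝ} (hε : 0 < ε) :
    ∃ (ι : Type) (_ : Fintype ι) (v : ι → Op H), (∀ i, v i ∈ N) ∧ (∀ i, p * v i = v i) ∧
      IsStarProjection (gram v) ∧ ‖gram v ξ - ξ‖ ≤ ε := by
  obtain ⟨F, hF, hr, h1, -⟩ := cover hN hp hpN h0
  obtain ⟨s, hs⟩ := ((h1 ξ).eventually (Metric.closedBall_mem_nhds ξ hε)).exists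
  have hq : ∀ v : F, IsStarProjection ((v : Op H) * star (v : Op H)) := fun v =>
    (hF v v.2).2.1.proj_right
  have e : gram (fun i => star ((s.equivFin.symm i : F) : Op H)) =
      ∑ v ∈ s, (v : Op H) * star (v : Op H) := by
    rw [gram, ← Finset.sum_coe_sort s, ← s.equivFin.symm.sum_comp]
    simp only [star_star]
  refine ⟨Fin s.card, inferInstance, fun i => star ((s.equivFin.symm i : F) : Op H),
    fun i => star_mem (hF _ (Subtype.property _)).1,
    fun i => compare_star_right hp (hF _ (Subtype.property _)).2.2.2, ⟨?_, gram_sa _⟩, ?_⟩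
  · have h2 := sums_star_mul_finsum (fun v : F => (v : Op H) * star (v : Op H))
      (fun v w h => by beta_reduce; rw [(hq v).isSelfAdjoint.star_eq, cut_orth hr h]) s
    simp only [fun v => (hq v).isSelfAdjoint.star_eq, fun v => (hq v).isIdempotentElem.eq] at h2
    rw [← e, (gram_sa _).star_eq] at h2
    exact h2
  · rw [e, _root_.sum_apply, ← dist_eq_norm]
    exact hs

/-- `P104.cut` at a level strictly between two values of the quadratic form -/
theorem scalar_of_proj {N : VonNeumannAlgebra H}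
    (h : ∀ p ∈ N, IsStarProjection p → p = 0 ∨ p = 1) {a : Op H} (ha : a ∈ N) :
    ∃ c : ℂ, a = c • (1 : Op H) := by
  by_cases h1 : (1 : Op H) = 0
  · exact ⟨0, by rw [← mul_one a, h1, mul_zero, smul_zero]⟩
  have key : ∀ b ∈ N, IsSelfAdjoint b → b ∈ Submodule.span ℂ {(1 : Op H)} := by
    intro b hb hs
    rw [← SetLike.mem_coe, ← (Submodule.closed_of_finiteDimensional _).closure_eq,
      Metric.mem_closure_iff]
    intro ε hε
    obtain ⟨p, hpN, hp, hp0, -, t, ht⟩ := local_scalar N (IsStarProjection.one _) (one_mem N) h1 hb hs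
      (by rw [one_mul, mul_one]) (half_pos hε)
    rw [(h p hpN hp).resolve_left hp0, mul_one] at ht
    refine ⟨(t : ℂ) • 1, Submodule.smul_mem _ _ (Submodule.mem_span_singleton_self _), ?_⟩
    rw [dist_eq_norm]
    exact ht.trans_lt (half_lt_self hε)
  have h2 : a ∈ Submodule.span ℂ {(1 : Op H)} := by
    rw [← realPart_add_I_smul_imaginaryPart a]
    refine add_mem (key _ ?_ (realPart a).2) (Submodule.smul_mem _ _ (key _ ?_ (imaginaryPart a).2))
    · rw [realPart_apply_coe]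
      exact vn_rsmul_mem _ (add_mem ha (star_mem ha))
    · rw [imaginaryPart_apply_coe]
      exact SMulMemClass.smul_mem _ (vn_rsmul_mem _ (sub_mem ha (star_mem ha)))
  obtain ⟨c, hc⟩ := Submodule.mem_span_singleton.1 h2
  exact ⟨c, hc.symm⟩

end Vale.Agent.P132
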