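import Vale.Agent.P132.JP
import Vale.Agent.P132.Sm
import Vale.Agent.P132.L2

/-! P132: the abstract symmetry argument I. -/

namespace Vale.Agent.P132

open scoped InnerProductSpace BoundedContinuousFunction
open Filter Topology MeasureTheory Vale.Agent.P104

universe u

variable {H : Type u} [NormedAddCommGroup H] [InnerProductSpace ℂ H] [CompleteSpace H]

/-- `T` is locally close to the scalar `g s` near the point `s` of the spectrum -/
structure Loc (F : FC H) (E T : Op H) (g : ℝ → ℂ) (C : ℝ) : Prop where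
  left : E * T = T
  right : T * E = T
  comm : ∀ f, F.Θ f * T = T * F.Θ f
  norm : ‖T‖ ≤ C
  loc : ∀ s, ∀ ε > 0, ∃ δ > 0, ∀ η, E η = η → ‖F.R η - (rr s : ℂ) • η‖ ≤ δ * ‖η‖ →
    ‖T η - g s • η‖ ≤ ε * ‖η‖

/-- the data of the symmetry argument -/
structure Sym (F : FC H) (E : Op H) (U : ℝ → Op H) {D : Type*} (v : D → H) (T T' : D → Op H) :
    Prop where
  proj : IsStarProjection E
  EΘ : ∀ f, E * F.Θ f = F.Θ f * E
  U0 : U 0 = E
  Uadd : ∀ s t, U (s + t) = U s * U t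
  Ustar : ∀ t, star (U t) = U (-t)
  Ucont : ∀ η, Continuous fun t => U t η
  UΘ : ∀ t f, U t * F.Θ f = F.Θ f * U t
  vE : ∀ d, E (v d) = v d
  dense : ∀ η, E η = η → η ∈ closure (Set.range v)
  loc : ∀ d, Loc F E (T d) (fun s => ⟪v d, U s (v d)⟫_ℂ) (‖v d‖ ^ 2)
  loc' : ∀ d, Loc F E (T' d) (fun s => ⟪v d, U s (v d)⟫_ℂ) (‖v d‖ ^ 2)
  symm : ∀ d d', ⟪v d, T d' (v d)⟫_ℂ = (starRingEnd ℂ) ⟪v d', T' d (v d')⟫_ℂ

theorem abs1_chiE {A : VonNeumannAlgebra H} (p : JP A) {E G : Op H} (hE : E ∈ A) (hG : G ∈ A)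
    (e : E * G = G) (n : p.χ G ≠ 0) : p.χ E = 1 := by
  have h := p.map_mul hE hG
  rw [e] at h
  exact mul_right_cancel₀ n (by rw [← h, one_mul])

theorem abs1_proj_le {E : Op H} (hE : IsStarProjection E) (η : H) : ‖E η‖ ≤ ‖η‖ :=
  (PIso.of_proj hE).norm_apply_le η

theorem abs1_small {A : VonNeumannAlgebra H} (p : JP A) {a : Op H} (ha : a ∈ A) {ε : ℝ}
    (hε : 0 < ε) : ∀ᶠ η in p.l, ‖a η - p.χ a • η‖ ≤ ε := by
  have h := (p.lim a ha).norm
  rw [norm_zero] at h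
  exact h.eventually (ge_mem_nhds hε)

/-- Let `S = (T - c E)* (T - c E)`, `f = k * sechB`. In the bicommutant of `Θ`, `E`, `S` take a
`JP` with `‖χ y‖ = ‖y‖` for `y = (Θ f)* S (Θ f)`; `exists_pt` gives `s` with `k s ≠ 0`, `χ E = 1`
and `χ S = lim ‖(T - c E) (E η)‖² ≤ γ²`. -/
theorem Loc.norm_le {F : FC H} {E T : Op H} {g : ℝ → ℂ} {C : ℝ} (h : Loc F E T g C)
    (hE : IsStarProjection E) (hΘ : ∀ f, E * F.Θ f = F.Θ f * E) (k : ℝ →ᵇ ℂ) (c : ℂ) {γ : ℝ}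
    (hγ : 0 ≤ γ) (hg : ∀ s, k s ≠ 0 → ‖g s - c‖ ≤ γ) :
    ‖(T - c • E) * F.Θ (k * sechB)‖ ≤ γ * ‖k * sechB‖ := by
  have hEE : E * E = E := hE.isIdempotentElem.eq
  have hEs : star E = E := hE.isSelfAdjoint.star_eq
  obtain ⟨W, hW⟩ : ∃ W, W = T - c • E := ⟨_, rfl⟩
  rw [← hW]
  have hWE : W * E = W := by rw [hW, sub_mul, h.right, smul_mul_assoc, hEE]
  have hWΘ : ∀ f, F.Θ f * W = W * F.Θ f := fun f => by
    rw [hW, mul_sub, sub_mul, h.comm, mul_smul_comm, smul_mul_assoc, hΘ]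
  have hWΘ' : ∀ f, F.Θ f * star W = star W * F.Θ f := fun f => by
    have h1 := congrArg star (hWΘ (star f))
    rw [star_mul, star_mul, ← map_star, star_star] at h1
    exact h1.symm
  obtain ⟨S, hS⟩ : ∃ S, S = star W * W := ⟨_, rfl⟩
  have hSs : star S = S := by rw [hS, star_mul, star_star]
  have hSE : S * E = S := by rw [hS, mul_assoc, hWE]
  have hES : E * S = S := by
    have h1 := congrArg star hSE
    rwa [star_mul, hEs, hSs] at h1
  have hSΘ : ∀ f, F.Θ f * S = S * F.Θ f := fun f => by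
    rw [hS, ← mul_assoc, hWΘ', mul_assoc, hWΘ, mul_assoc]
  obtain ⟨hX, hA⟩ := bicomm_comm (X := Set.range F.Θ ∪ {E, S}) (by
    rintro a (⟨f, rfl⟩ | rfl | rfl)
    · exact Or.inl ⟨star f, map_star _ _⟩
    · exact Or.inr (Or.inl hEs)
    · exact Or.inr (Or.inr hSs)) (by
    rintro a (⟨f, rfl⟩ | rfl | rfl) b (⟨f', rfl⟩ | rfl | rfl)
    exacts [F.Θ_comm _ _, (hΘ _).symm, hSΘ _, hΘ _, rfl, hES.trans hSE.symm, (hSΘ _).symm,
      hSE.trans hES.symm, rfl])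
  have mΘ := fun f => hX _ (Or.inl ⟨f, rfl⟩)
  have mE := hX E (Or.inr (Or.inl rfl))
  have mS := hX S (Or.inr (Or.inr rfl))
  obtain ⟨f, hf⟩ : ∃ f, f = k * sechB := ⟨_, rfl⟩
  rw [← hf]
  have hy : star (W * F.Θ f) * (W * F.Θ f) = star (F.Θ f) * S * F.Θ f := by
    rw [star_mul, hS]
    simp only [mul_assoc]
  by_cases h0 : star (F.Θ f) * S * F.Θ f = 0
  · rw [eq_zero_of_star_mul_self (hy.trans h0), norm_zero]
    positivity
  obtain ⟨p, hp⟩ := exists_jp _ hA (mul_mem (mul_mem (star_mem (mΘ f)) mS) (mΘ f)) h0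
  rw [p.map_mul (mul_mem (star_mem (mΘ f)) mS) (mΘ f), p.map_mul (star_mem (mΘ f)) mS,
    p.map_star (mΘ f), norm_mul, norm_mul, RCLike.norm_conj] at hp
  have hp0 := norm_ne_zero_iff.2 h0
  rw [← hp] at hp0
  have n1 : p.χ (F.Θ f) ≠ 0 := norm_ne_zero_iff.1 (right_ne_zero_of_mul hp0)
  have n2 : p.χ S ≠ 0 := norm_ne_zero_iff.1 (right_ne_zero_of_mul (left_ne_zero_of_mul hp0))
  have n3 : p.χ F.T ≠ 0 := by
    rw [hf, map_mul, p.map_mul (mΘ _) (mΘ _)] at n1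
    exact right_ne_zero_of_mul n1
  obtain ⟨s, hs⟩ := p.exists_pt F mΘ n3
  have n4 : k s ≠ 0 := by
    rw [hs, hf, BoundedContinuousFunction.mul_apply] at n1
    exact left_ne_zero_of_mul n1
  have hχE := abs1_chiE p mE mS hES n2
  have t1 : Tendsto (fun η => ‖W η‖) p.l (𝓝 √‖p.χ S‖) := by
    refine (p.tendsto_inner mS).norm.sqrt.congr fun η => ?_
    rw [hS, mul_apply_eq_comp, inner_star_right, inner_self_eq_norm_sq_to_K, norm_pow,
      RCLike.norm_ofReal, abs_norm, Real.sqrt_sq (norm_nonneg _)]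
  have t2 : √‖p.χ S‖ ≤ γ := by
    have := p.ne
    refine le_of_forall_pos_le_add fun ε hε => le_of_tendsto t1 ?_
    obtain ⟨δ, hδ, hl⟩ := h.loc s ε hε
    have t3 := p.tendsto_norm mE
    rw [hχE, norm_one] at t3
    filter_upwards [p.unit, abs1_small p (mΘ rB) (half_pos hδ),
      t3.eventually (le_mem_nhds (by norm_num : (1 / 2 : ℝ) < 1))] with η u1 u2 u3
    have u4 : ‖E η‖ ≤ 1 := u1 ▸ abs1_proj_le hE η
    have u5 : F.R (E η) - (rr s : ℂ) • E η = E (F.Θ rB η - p.χ (F.Θ rB) • η) := by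
      rw [map_sub, map_smul, hs, rB_apply, ← mul_apply_eq_comp E, hΘ]
      rfl
    have u6 := hl (E η) (by rw [← mul_apply_eq_comp, hEE]) (by
      rw [u5]
      refine (abs1_proj_le hE _).trans (u2.trans ?_)
      nlinarith)
    have u7 : W η = (T (E η) - g s • E η) + (g s - c) • E η := by
      rw [← hWE, mul_apply_eq_comp, hW, sub_apply,
        smul_apply, ← mul_apply_eq_comp E E, hEE, sub_smul]
      abel
    rw [u7]
    refine (norm_add_le _ _).trans ?_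
    rw [norm_smul]
    have u8 := mul_le_mul (hg s n4) u4 (norm_nonneg _) hγ
    nlinarith
  have t4 : ‖p.χ S‖ ≤ γ ^ 2 := (Real.sqrt_le_left hγ).1 t2
  have t5 : ‖p.χ (F.Θ f)‖ ≤ ‖f‖ := by
    rw [hs]
    exact f.norm_coe_le_norm s
  rw [← hy, CStarRing.norm_star_mul_self] at hp
  refine (abs_le_of_sq_le_sq' ?_ (by positivity)).2
  rw [sq, ← hp]
  calc _ ≤ ‖f‖ * γ ^ 2 * ‖f‖ := by gcongr
    _ = _ := by ring

theorem Sym.norm_U_abs1 {F : FC H} {E : Op H} {U : ℝ → Op H} {D : Type*} {v : D → H}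
    {T T' : D → Op H} (h : Sym F E U v T T') (t : ℝ) : ‖U t‖ ≤ 1 := by
  have h1 := CStarRing.norm_star_mul_self (x := U t)
  rw [h.Ustar, ← h.Uadd, neg_add_cancel, h.U0] at h1
  nlinarith [h.proj.norm_le, norm_nonneg (U t)]

/-- the operators `∫ kap w t • U t` -/
theorem Sym.exists_G {F : FC H} {E : Op H} {U : ℝ → Op H} {D : Type*} {v : D → H}
    {T T' : D → Op H} (h : Sym F E U v T T') :
    ∃ G : ℕ → Op H, (∀ n, E * G n = G n) ∧ (∀ n, ‖G n‖ ≤ 1) ∧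
      (∀ n, G n ∈ (vnComm (Set.range F.Θ ∪ Set.range U)).commutant) ∧
      (∀ n, Tendsto (fun t => ‖(U t - E) * G n‖) (𝓝 0) (𝓝 0)) ∧
      ∀ η, Tendsto (fun n => G n η) atTop (𝓝 (E η)) := by
  have hw : ∀ n : ℕ, (0 : ℝ) < n + 1 := fun n => by positivity
  have hκ : ∀ n : ℕ, Integrable fun t => (kap (n + 1) t : ℂ) := fun n =>
    (integrable_kap (hw n)).ofReal
  have hU := h.norm_U_abs1
  have hE : ∀ n : ℕ, E * si (fun t => (kap (n + 1) t : ℂ)) U =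
      si (fun t => (kap (n + 1) t : ℂ)) U := fun n => by
    have h1 := si_conj (hκ n) h.Ucont hU (a := E) (b := 1) (c := 1) (d := 1) fun t => by
      rw [← h.U0, ← h.Uadd, zero_add, one_mul]
    rwa [mul_one, mul_one, one_mul] at h1
  refine ⟨fun n => si (fun t => (kap (n + 1) t : ℂ)) U, hE, fun n => ?_, fun n => ?_,
    fun n => ?_, fun η => ?_⟩
  · refine (norm_si_le (hκ n) h.Ucont hU).trans (le_of_eq ?_)
    simp only [Complex.norm_real, Real.norm_eq_abs, abs_of_pos (kap_pos (hw n) _),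
      integral_kap (hw n), mul_one]
  · refine si_mem (hκ n) h.Ucont hU fun t => ?_
    rw [VonNeumannAlgebra.mem_commutant_iff]
    exact fun g hg => (mem_vnComm.1 hg _ (Or.inr ⟨t, rfl⟩)).1.symm
  · refine squeeze_zero (fun _ => norm_nonneg _) (fun t => ?_) (kap_shift (hw n))
    have i1 := (hκ n).comp_sub_right t
    have i2 : Integrable fun u => (kap (n + 1) (u - t) : ℂ) - kap (n + 1) u := i1.sub (hκ n)
    have e : (U t - E) * si (fun t => (kap (n + 1) t : ℂ)) U =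
        si (fun u => (kap (n + 1) (u - t) : ℂ) - kap (n + 1) u) U := by
      rw [sub_mul, hE]
      ext η
      rw [sub_apply, mul_apply_eq_comp,
        si_apply i2 h.Ucont hU, si_apply (hκ n) h.Ucont hU,
        ← (U t).integral_comp_comm (si_integrable (hκ n) h.Ucont hU η)]
      simp only [sub_smul]
      rw [integral_sub (si_integrable i1 h.Ucont hU η) (si_integrable (hκ n) h.Ucont hU η),
        ← integral_add_left_eq_self (fun u => (kap (n + 1) (u - t) : ℂ) • U u η) t]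
      simp only [add_sub_cancel_left, map_smul, h.Uadd, mul_apply_eq_comp]
    rw [e]
    refine (norm_si_le i2 h.Ucont hU).trans (le_of_eq ?_)
    simp only [← Complex.ofReal_sub, Complex.norm_real, Real.norm_eq_abs, one_mul]
  · have h1 := (kap_approx (h.Ucont η) (C := ‖η‖) fun t =>
      ((U t).le_opNorm η).trans (mul_le_of_le_one_left (norm_nonneg _) (hU t))).comp
      (tendsto_atTop_add_const_right atTop (1 : ℝ) tendsto_natCast_atTop_atTop)
    rw [h.U0] at h1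
    refine h1.congr fun n => ?_
    rw [si_apply (hκ n) h.Ucont hU]
    simp only [Function.comp_apply, Complex.coe_smul]

theorem abs1_bump (s : ℝ) {ϱ : ℝ} (hϱ : 0 < ϱ) :
    ∃ k : ℝ →ᵇ ℂ, k s = 1 ∧ (∀ u, ‖k u‖ ≤ 1) ∧ ∀ u, k u ≠ 0 → |u - s| < ϱ := by
  have h : ∀ u, |max 0 (1 - |u - s| / ϱ)| ≤ 1 := fun u => by
    rw [abs_of_nonneg (le_max_left _ _)]
    exact max_le zero_le_one (sub_le_self _ (by positivity))
  refine ⟨reB (fun u => max 0 (1 - |u - s| / ϱ)) (by fun_prop) 1 h, by simp, fun u => ?_,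
    fun u hu => ?_⟩
  · rw [reB_apply, Complex.norm_real, Real.norm_eq_abs]
    exact h u
  · by_contra hn
    refine hu ?_
    rw [reB_apply, max_eq_left, Complex.ofReal_zero]
    rw [sub_nonpos, one_le_div hϱ]
    exact not_lt.1 hn

theorem Sym.norm_chi_abs1 {F : FC H} {E : Op H} {U : ℝ → Op H} {D : Type*} {v : D → H}
    {T T' : D → Op H} (h : Sym F E U v T T') {A : VonNeumannAlgebra H} (hU : ∀ t, U t ∈ A)
    (p : JP A) (hE : p.χ E = 1) (t : ℝ) : ‖p.χ (U t)‖ = 1 := by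
  have h1 := p.map_mul (star_mem (hU t)) (hU t)
  rw [p.map_star (hU t), h.Ustar, ← h.Uadd, neg_add_cancel, h.U0, hE] at h1
  have h2 := congrArg norm h1
  rw [norm_one, norm_mul, RCLike.norm_conj] at h2
  nlinarith [norm_nonneg (p.χ (U t))]

omit [CompleteSpace H] in
theorem abs1_perturb {a : Op H} {c : ℂ} (ha : ‖a‖ ≤ 1) (hc : ‖c‖ ≤ 1) (x y : H) :
    ‖a x - c • x‖ ≤ ‖a y - c • y‖ + 2 * ‖x - y‖ := by
  have e : a x - c • x = (a y - c • y) + (a (x - y) - c • (x - y)) := by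
    rw [map_sub, smul_sub]
    abel
  rw [e]
  refine (norm_add_le _ _).trans (add_le_add le_rfl ((norm_sub_le _ _).trans ?_))
  rw [norm_smul]
  nlinarith [a.le_opNorm (x - y), norm_nonneg (x - y)]

theorem Sym.pick_abs1 {F : FC H} {E : Op H} {U : ℝ → Op H} {D : Type*} {v : D → H}
    {T T' : D → Op H} (h : Sym F E U v T T') {A : VonNeumannAlgebra H} (hΘ : ∀ f, F.Θ f ∈ A)
    (hU : ∀ t, U t ∈ A) (p : JP A) {G : Op H} (hG : G ∈ A) (e : E * G = G)
    (l : Tendsto (fun t => ‖(U t - E) * G‖) (𝓝 0) (𝓝 0)) (n : p.χ G ≠ 0) {s : ℝ}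
    (hs : ∀ f, p.χ (F.Θ f) = f s) (s' : ℝ) {ε : ℝ} (hε : 0 < ε) :
    ∃ ϱ > 0, ∀ f : ℝ →ᵇ ℂ, ‖f‖ ≤ 1 → ∃ d, |‖v d‖ - 1| ≤ ε ∧ ‖F.Θ f (v d) - f s • v d‖ ≤ ε ∧
      ∀ u, |u - s'| < ϱ → ‖U u (v d) - p.χ (U s') • v d‖ ≤ ε := by
  have hE : E ∈ A := h.U0 ▸ hU 0
  have hχE := abs1_chiE p hE hG e n
  have n0 : 0 < ‖p.χ G‖ := norm_pos_iff.2 n
  obtain ⟨ϱ, hϱ, h1⟩ := Metric.tendsto_nhds_nhds.1 l (ε / 8 * ‖p.χ G‖) (by positivity)
  refine ⟨ϱ, hϱ, fun f hf => ?_⟩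
  have := p.ne
  obtain ⟨η, u1, u2, u3, u4, u5⟩ := (p.unit.and ((abs1_small p hE (ε := ε / 8) (by positivity)).and
    ((abs1_small p (hΘ f) (half_pos hε)).and ((abs1_small p (hU s') (ε := ε / 8)
      (by positivity)).and (abs1_small p hG (ε := ε / 8 * ‖p.χ G‖) (by positivity)))))).exists
  rw [hχE, one_smul] at u2
  obtain ⟨_, ⟨d, rfl⟩, hd⟩ := Metric.mem_closure_iff.1 (h.dense (E η) (by
    rw [← mul_apply_eq_comp, h.proj.isIdempotentElem.eq])) (ε / 8) (by positivity)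
  rw [dist_comm, dist_eq_norm] at hd
  have u6 : ‖v d - η‖ ≤ ε / 4 := by linarith [norm_sub_le_norm_sub_add_norm_sub (v d) (E η) η]
  refine ⟨d, ?_, ?_, fun u hu => ?_⟩
  · rw [← u1]
    linarith [abs_norm_sub_norm_le (v d) η]
  · rw [hs] at u3
    linarith [abs1_perturb ((F.norm_Θ_le f).trans hf) ((f.norm_coe_le_norm s).trans hf) (v d) η]
  · have a1 := h1 (x := u - s') (by rwa [Real.dist_eq, sub_zero])
    rw [Real.dist_eq, sub_zero, abs_norm] at a1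
    have a2 : ‖U (u - s') (G η) - G η‖ ≤ ε / 8 * ‖p.χ G‖ := by
      have a3 := ((U (u - s') - E) * G).le_opNorm η
      rw [u1, mul_one] at a3
      replace a3 := a3.trans a1.le
      rwa [sub_mul, e] at a3
    have a3 := abs1_perturb (h.norm_U_abs1 (u - s')) (c := 1) (by simp) (p.χ G • η) (G η)
    rw [one_smul, one_smul, map_smul, ← smul_sub, norm_smul, norm_sub_rev (p.χ G • η)] at a3
    have a4 : ‖U (u - s') η - η‖ ≤ 3 * ε / 8 := by
      refine le_of_mul_le_mul_left ?_ n0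
      linarith
    have a5 : U u η - p.χ (U s') • η =
        U s' (U (u - s') η - η) + (U s' η - p.χ (U s') • η) := by
      rw [map_sub, ← mul_apply_eq_comp, ← h.Uadd, add_sub_cancel]
      abel
    have a6 := (U s').le_opNorm (U (u - s') η - η)
    have a7 := mul_le_of_le_one_left (norm_nonneg (U (u - s') η - η)) (h.norm_U_abs1 s')
    have a8 := norm_add_le (U s' (U (u - s') η - η)) (U s' η - p.χ (U s') • η)
    rw [← a5] at a8
    linarith [abs1_perturb (h.norm_U_abs1 u) (h.norm_chi_abs1 hU p hχE s').le (v d) η]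

omit [CompleteSpace H] in
theorem abs1_inner {a : Op H} {b : ℂ} (hb : ‖b‖ = 1) {x : H} {ε δ : ℝ} (hε : ε ≤ 1)
    (h1 : |‖x‖ - 1| ≤ ε) (h2 : ‖a x - b • x‖ ≤ δ) : ‖⟪x, a x⟫_ℂ - b‖ ≤ 2 * δ + 3 * ε := by
  have e : ⟪x, a x⟫_ℂ - b = ⟪x, a x - b • x⟫_ℂ + b * ((‖x‖ ^ 2 - 1 : ℝ) : ℂ) := by
    rw [inner_sub_right, inner_smul_right, inner_self_eq_norm_sq_to_K]
    simp only [Complex.coe_algebraMap]
    push_cast
    ring
  obtain ⟨h3, h4⟩ := abs_le.1 h1
  rw [e]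
  refine (norm_add_le _ _).trans (add_le_add ((norm_inner_le_norm _ _).trans ?_) ?_)
  · exact mul_le_mul (by linarith) h2 (norm_nonneg _) zero_le_two
  · rw [norm_mul, hb, one_mul, Complex.norm_real, Real.norm_eq_abs, abs_le]
    constructor <;> nlinarith [norm_nonneg x]

theorem abs1_side {F : FC H} {E T : Op H} {U : ℝ → Op H} {x y : H}
    (h : Loc F E T (fun u => ⟪y, U u y⟫_ℂ) (‖y‖ ^ 2)) (hE : IsStarProjection E)
    (hΘ : ∀ f, E * F.Θ f = F.Θ f * E) (hx : E x = x) {k : ℝ →ᵇ ℂ} {s ε : ℝ} {b : ℂ}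
    (hb : ‖b‖ = 1) (hk : k s = 1) (hk1 : ‖k * sechB‖ ≤ 1) (hε : ε ≤ 1) (x1 : |‖x‖ - 1| ≤ ε)
    (y1 : |‖y‖ - 1| ≤ ε) (x2 : ‖F.Θ (k * sechB) x - (k * sechB) s • x‖ ≤ ε)
    (y2 : ∀ u, k u ≠ 0 → ‖U u y - b • y‖ ≤ ε) : ‖⟪x, T x⟫_ℂ - b‖ ≤ (30 / sech s + 3) * ε := by
  have hε0 : 0 ≤ ε := (abs_nonneg _).trans x1
  have h1 := h.norm_le hE hΘ k b (γ := 2 * ε + 3 * ε) (by positivity)
    fun u hu => abs1_inner hb hε y1 (y2 u hu)
  have h2 : ‖T - b • E‖ ≤ 5 := by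
    refine (norm_sub_le _ _).trans ?_
    rw [norm_smul, hb, one_mul]
    nlinarith [h.norm, hE.norm_le, (abs_le.1 y1).2, norm_nonneg y]
  have h3 : (sech s : ℂ) • (T x - b • x) = ((T - b • E) * F.Θ (k * sechB)) x -
      (T - b • E) (F.Θ (k * sechB) x - (k * sechB) s • x) := by
    rw [map_sub, mul_apply_eq_comp, sub_sub_cancel, map_smul,
      BoundedContinuousFunction.mul_apply, hk, one_mul, sechB_apply,
      sub_apply, smul_apply, hx]
  have h4 : ‖T x - b • x‖ ≤ 15 * ε / sech s := by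
    rw [le_div_iff₀ (sech_pos s), mul_comm, ← abs_of_pos (sech_pos s), ← Real.norm_eq_abs,
      ← Complex.norm_real, ← norm_smul, h3]
    refine (norm_sub_le _ _).trans ?_
    have a1 := ((T - b • E) * F.Θ (k * sechB)).le_opNorm x
    have a2 := (T - b • E).le_opNorm (F.Θ (k * sechB) x - (k * sechB) s • x)
    have a3 := mul_le_mul h2 x2 (norm_nonneg _) (by norm_num)
    have a4 : ‖(T - b • E) * F.Θ (k * sechB)‖ ≤ 5 * ε := by nlinarith
    have a5 := mul_le_mul a4 (by linarith [(abs_le.1 x1).2] : ‖x‖ ≤ 2) (norm_nonneg _)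
      (by positivity)
    linarith
  refine (abs1_inner hb hε x1 h4).trans (le_of_eq ?_)
  ring

theorem abs1_norm_mul_sech {k : ℝ →ᵇ ℂ} (h : ∀ u, ‖k u‖ ≤ 1) : ‖k * sechB‖ ≤ 1 := by
  refine (BoundedContinuousFunction.norm_le zero_le_one).2 fun u => ?_
  rw [BoundedContinuousFunction.mul_apply, norm_mul, sechB_apply, Complex.norm_real,
    Real.norm_eq_abs, abs_of_pos (sech_pos u)]
  exact mul_le_one₀ (h u) (sech_pos u).le (sech_le_one u)

/-- The basic relation. Take unit approximate eigenvectors `η`, `ζ` for `p`, `q`, replace them by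
close vectors `v d`, `v d'`. For `|u| ≤ ϱ`, `U (s + u) ζ ≈ q.χ (U s) ζ` because
`ζ ≈ G' ζ / q.χ G'`; with a bump `k * sechB` of radius `ϱ` and value one at `s`, `Loc.norm_le` and
`FC.cf` give `⟪v d, T d' (v d)⟫ ≈ q.χ (U s)`; symmetrically for `T'`. -/
theorem Sym.rel {F : FC H} {E : Op H} {U : ℝ → Op H} {D : Type*} {v : D → H}
    {T T' : D → Op H} (h : Sym F E U v T T') {A : VonNeumannAlgebra H} (hΘ : ∀ f, F.Θ f ∈ A)
    (hU : ∀ t, U t ∈ A) (p q : JP A) {G G' : Op H} (hG : G ∈ A) (hG' : G' ∈ A)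
    (e : E * G = G) (e' : E * G' = G') (l : Tendsto (fun t => ‖(U t - E) * G‖) (𝓝 0) (𝓝 0))
    (l' : Tendsto (fun t => ‖(U t - E) * G'‖) (𝓝 0) (𝓝 0)) (n : p.χ G ≠ 0) (n' : q.χ G' ≠ 0)
    {s s' : ℝ} (hs : ∀ f, p.χ (F.Θ f) = f s) (hs' : ∀ f, q.χ (F.Θ f) = f s') :
    q.χ (U s) * p.χ (U s') = 1 := by
  have hE : E ∈ A := h.U0 ▸ hU 0
  have b1 := h.norm_chi_abs1 hU q (abs1_chiE q hE hG' e' n') s
  have b2 := h.norm_chi_abs1 hU p (abs1_chiE p hE hG e n) s'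
  have key : ∀ ε, 0 < ε → ε ≤ 1 → ‖q.χ (U s) - (starRingEnd ℂ) (p.χ (U s'))‖ ≤
      (30 / sech s + 3 + (30 / sech s' + 3)) * ε := by
    intro ε hε hε1
    obtain ⟨ϱ', hϱ', h1⟩ := h.pick_abs1 hΘ hU p hG e l n hs s' hε
    obtain ⟨ϱ, hϱ, h2⟩ := h.pick_abs1 hΘ hU q hG' e' l' n' hs' s hε
    obtain ⟨k, k1, k2, k3⟩ := abs1_bump s hϱ
    obtain ⟨k', k1', k2', k3'⟩ := abs1_bump s' hϱ'
    obtain ⟨d, d1, d2, d3⟩ := h1 _ (abs1_norm_mul_sech k2)
    obtain ⟨d', d1', d2', d3'⟩ := h2 _ (abs1_norm_mul_sech k2')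
    have a1 := abs1_side (h.loc d') h.proj h.EΘ (h.vE d) b1 k1 (abs1_norm_mul_sech k2) hε1 d1 d1'
      d2 fun u hu => d3' u (k3 u hu)
    have a2 := abs1_side (h.loc' d) h.proj h.EΘ (h.vE d') b2 k1' (abs1_norm_mul_sech k2') hε1 d1'
      d1 d2' fun u hu => d3 u (k3' u hu)
    rw [← RCLike.norm_conj, map_sub, ← h.symm] at a2
    rw [norm_sub_rev] at a1
    linarith [norm_sub_le_norm_sub_add_norm_sub (q.χ (U s)) ⟪v d, T d' (v d)⟫_ℂ
      ((starRingEnd ℂ) (p.χ (U s')))]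
  have hK : 0 < 30 / sech s + 3 + (30 / sech s' + 3) := by
    have := sech_pos s
    have := sech_pos s'
    positivity
  have h0 : q.χ (U s) = (starRingEnd ℂ) (p.χ (U s')) := by
    rw [← sub_eq_zero, ← norm_le_zero_iff]
    refine le_of_forall_pos_le_add fun ε hε => ?_
    refine (key (min 1 (ε / _)) (lt_min one_pos (div_pos hε hK)) (min_le_left _ _)).trans ?_
    refine (mul_le_mul_of_nonneg_left (min_le_right _ _) hK.le).trans (le_of_eq ?_)
    rw [mul_div_cancel₀ _ hK.ne', zero_add]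
  rw [h0, Complex.conj_mul', b2]
  norm_num

end Vale.Agent.P132
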