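import Vale.Agent.P132.Abs1

/-! P132: the abstract symmetry argument II. -/

namespace Vale.Agent.P132

open scoped InnerProductSpace BoundedContinuousFunction
open Filter Topology MeasureTheory Vale.Agent.P104

universe u

variable {H : Type u} [NormedAddCommGroup H] [InnerProductSpace ℂ H] [CompleteSpace H]

/-- `c (w / 2 ^ k) = 1` by induction, then use continuity at `0` -/
theorem char_trivial {c : ℝ → ℂ} (hc : ∀ s t, c (s + t) = c s * c t) (hn : ∀ s, ‖c s‖ = 1)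
    (h0 : Tendsto c (𝓝 0) (𝓝 1)) {w : ℝ} (hw : w ≠ 0) (h2 : ∀ u, |u| ≤ |w| → ‖c u - 1‖ < 2)
    (h1 : c w ^ 2 = 1) (s : ℝ) : c s = 1 := by
  have _ := hn
  have a1 : ∀ u, |u| ≤ |w| → c u ^ 2 = 1 → c u = 1 := by
    intro u hu h
    rcases sq_eq_one_iff.1 h with h | h
    · exact h
    · have h3 := h2 u hu
      rw [h] at h3
      norm_num at h3
  have a2 : ∀ k : ℕ, c (w / 2 ^ k) = 1 := by
    intro k
    induction k with
    | zero => simpa using a1 w le_rfl h1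
    | succ k ih =>
      refine a1 _ ?_ ?_
      · rw [abs_div, abs_of_pos (by positivity : (0 : ℝ) < 2 ^ (k + 1))]
        exact div_le_self (abs_nonneg _) (one_le_pow₀ one_le_two)
      · rw [sq, ← hc, ← ih]
        congr 1
        ring
  have a3 : ∀ k : ℕ, c (s - ⌊s / (w / 2 ^ k)⌋ * (w / 2 ^ k)) = c s := fun k =>
    Function.Periodic.sub_int_mul_eq (fun x => by rw [hc, a2, mul_one]) _
  have a4 : Tendsto (fun k : ℕ => s - ⌊s / (w / 2 ^ k)⌋ * (w / 2 ^ k)) atTop (𝓝 0) := by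
    have b1 : Tendsto (fun k : ℕ => |w| * (1 / 2 : ℝ) ^ k) atTop (𝓝 (|w| * 0)) :=
      (tendsto_pow_atTop_nhds_zero_of_lt_one (by norm_num) (by norm_num)).const_mul _
    rw [mul_zero] at b1
    refine squeeze_zero_norm (fun k => ?_) b1
    have b2 : w / 2 ^ k ≠ 0 := by positivity
    have b3 : s - ⌊s / (w / 2 ^ k)⌋ * (w / 2 ^ k) = Int.fract (s / (w / 2 ^ k)) * (w / 2 ^ k) := by
      rw [Int.fract, sub_mul, div_mul_cancel₀ _ b2]
    rw [b3, Real.norm_eq_abs, abs_mul, abs_div w, abs_of_pos (by positivity : (0 : ℝ) < 2 ^ k),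
      one_div, inv_pow, ← div_eq_mul_inv, abs_of_nonneg (Int.fract_nonneg _)]
    exact mul_le_of_le_one_left (by positivity) (Int.fract_lt_one _).le
  have a5 := h0.comp a4
  simp only [Function.comp_def, a3] at a5
  exact tendsto_nhds_unique tendsto_const_nhds a5

theorem abs2_jp {A : VonNeumannAlgebra H} (hc : ∀ a ∈ A, ∀ b ∈ A, a * b = b * a) {y : Op H}
    (hy : y ∈ A) (h0 : y ≠ 0) : ∃ p : JP A, p.χ y ≠ 0 := by
  obtain ⟨p, hp⟩ := exists_jp A hc hy h0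
  exact ⟨p, norm_ne_zero_iff.1 (hp ▸ norm_ne_zero_iff.2 h0)⟩

/-- points which accumulate -/
theorem abs2_cluster {F : FC H} {E G : Op H} {A : VonNeumannAlgebra H}
    (hc : ∀ a ∈ A, ∀ b ∈ A, a * b = b * a) (hΘ : ∀ f, F.Θ f ∈ A) (hE : E ∈ A) (hEE : E * E = E)
    (hG : G ∈ A) (e : E * G = G) (h0 : (F.R - 1) * F.T * G ≠ 0)
    (noeig : ∀ s, s ≠ 0 → ∀ η, E η = η → F.R η = (rr s : ℂ) • η → η = 0) :
    ∃ ν > 0, ∀ ϱ > 0, ∃ (x y : JP A) (s s' : ℝ), ν ≤ ‖x.χ G‖ ∧ ν ≤ ‖y.χ G‖ ∧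
      (∀ f, x.χ (F.Θ f) = f s) ∧ (∀ f, y.χ (F.Θ f) = f s') ∧ s ≠ s' ∧ |s' - s| < ϱ := by
  have mR : F.R ∈ A := hΘ _
  have mT : F.T ∈ A := hΘ _
  have mR1 : F.R - 1 ∈ A := sub_mem mR (one_mem _)
  obtain ⟨Y, hY⟩ : ∃ Y, Y = (F.R - 1) * F.T * G := ⟨_, rfl⟩
  have mY : Y ∈ A := hY ▸ mul_mem (mul_mem mR1 mT) hG
  rw [← hY] at h0
  have hν : 0 < ‖Y‖ := norm_pos_iff.2 h0
  have a1 : ∀ p : JP A, p.χ Y = p.χ (F.R - 1) * p.χ F.T * p.χ G := fun p => by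
    rw [hY, p.map_mul (mul_mem mR1 mT) hG, p.map_mul mR1 mT]
  have a2 : ∀ p : JP A, ‖p.χ Y‖ ≤ ‖p.χ G‖ := fun p => by
    rw [a1, norm_mul, norm_mul]
    exact mul_le_of_le_one_left (norm_nonneg _) (mul_le_one₀
      ((p.norm_le mR1).trans F.norm_R_sub_one) (norm_nonneg _) ((p.norm_le mT).trans F.norm_T_le))
  have a3 : ∀ p : JP A, p.χ Y ≠ 0 → ∃ s, ∀ f, p.χ (F.Θ f) = f s := fun p hp =>
    p.exists_pt F hΘ (right_ne_zero_of_mul (left_ne_zero_of_mul (a1 p ▸ hp)))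
  obtain ⟨x, hx⟩ := exists_jp A hc mY h0
  have hx0 : x.χ Y ≠ 0 := norm_ne_zero_iff.1 (hx ▸ hν.ne')
  obtain ⟨s, hs⟩ := a3 x hx0
  have hs0 : s ≠ 0 := by
    rintro rfl
    refine hx0 ?_
    rw [a1, x.map_sub mR (one_mem _), x.map_one, FC.R, hs, rB_apply, rr_zero]
    simp
  refine ⟨‖Y‖ / 2, half_pos hν, fun ϱ hϱ => ?_⟩
  obtain ⟨k, k1, -, k3⟩ := abs1_bump s hϱ
  have hφ : Continuous fun t : ℝ => max (t - ‖Y‖ ^ 2 / 4) 0 := by fun_prop
  have mYY : star Y * Y ∈ A := mul_mem (star_mem mY) mY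
  obtain ⟨P, hP⟩ : ∃ P, P = cfc (fun t : ℝ => max (t - ‖Y‖ ^ 2 / 4) 0) (star Y * Y) := ⟨_, rfl⟩
  have mP : P ∈ A := hP ▸ vn_cfc_mem _ mYY
  have a4 : ∀ p : JP A, p.χ P = (max (‖p.χ Y‖ ^ 2 - ‖Y‖ ^ 2 / 4) 0 : ℝ) := fun p => by
    rw [hP, p.map_cfc mYY (IsSelfAdjoint.star_mul_self Y) hφ, p.map_mul (star_mem mY) mY,
      p.map_star mY, Complex.conj_mul', ← Complex.ofReal_pow, Complex.ofReal_re]
  have mZ : E * P * F.Θ k ∈ A := mul_mem (mul_mem hE mP) (hΘ k)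
  have a5 : ∀ p : JP A, p.χ (E * P * F.Θ k) = p.χ E * p.χ P * p.χ (F.Θ k) := fun p => by
    rw [p.map_mul (mul_mem hE mP) (hΘ k), p.map_mul hE mP]
  have hZ : E * P * F.Θ k ≠ 0 := by
    intro hZ
    have b1 := x.norm_le mZ
    rw [a5, hZ, norm_zero, hs, k1, a4, hx, mul_one,
      abs1_chiE x hE hG e (right_ne_zero_of_mul (a1 x ▸ hx0)), one_mul, Complex.norm_real,
      norm_le_zero_iff] at b1
    nlinarith [le_max_left (‖Y‖ ^ 2 - ‖Y‖ ^ 2 / 4) 0]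
  have mRs : F.R - (rr s : ℂ) • 1 ∈ A := sub_mem mR (SMulMemClass.smul_mem _ (one_mem _))
  have hW : (F.R - (rr s : ℂ) • 1) * (E * P * F.Θ k) ≠ 0 := by
    intro hW
    refine hZ (ContinuousLinearMap.ext fun η => noeig s hs0 _ ?_ ?_)
    · rw [← mul_apply_eq_comp, ← mul_assoc, ← mul_assoc, hEE]
    · have b1 := congrArg (fun a : Op H => a η) hW
      simp only [mul_apply_eq_comp (F.R - (rr s : ℂ) • 1), sub_apply, smul_apply,
        one_apply_eq_self, zero_apply] at b1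
      exact sub_eq_zero.1 b1
  obtain ⟨y, hy⟩ := abs2_jp hc (mul_mem mRs mZ) hW
  rw [y.map_mul mRs mZ, a5] at hy
  have b1 : ‖Y‖ / 2 ≤ ‖y.χ Y‖ := by
    have b2 := right_ne_zero_of_mul (left_ne_zero_of_mul (right_ne_zero_of_mul hy))
    rw [a4, Complex.ofReal_ne_zero] at b2
    by_contra hn
    refine b2 (max_eq_right ?_)
    nlinarith [norm_nonneg (y.χ Y), not_le.1 hn]
  obtain ⟨s', hs'⟩ := a3 y (norm_ne_zero_iff.1 (by linarith))
  refine ⟨x, y, s, s', by linarith [a2 x], b1.trans (a2 y), hs, hs', ?_, k3 s' ?_⟩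
  · rintro rfl
    refine left_ne_zero_of_mul hy ?_
    rw [y.map_sub mR (SMulMemClass.smul_mem _ (one_mem _)), y.map_smul _ (one_mem _), y.map_one,
      FC.R, hs', rB_apply, mul_one, sub_self]
  · rw [← hs']
    exact right_ne_zero_of_mul (right_ne_zero_of_mul hy)

theorem abs2_unif {E G : Op H} {U : ℝ → Op H} {A : VonNeumannAlgebra H} (hU : ∀ t, U t ∈ A)
    (hE : E ∈ A) (hG : G ∈ A) (e : E * G = G)
    (l : Tendsto (fun t => ‖(U t - E) * G‖) (𝓝 0) (𝓝 0)) {ν ε : ℝ} (hν : 0 < ν) (hε : 0 < ε) :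
    ∃ ϱ > 0, ∀ p : JP A, ν ≤ ‖p.χ G‖ → ∀ u, |u| < ϱ → ‖p.χ (U u) - 1‖ < ε := by
  obtain ⟨ϱ, hϱ, h1⟩ := Metric.tendsto_nhds_nhds.1 l (ε * ν) (by positivity)
  refine ⟨ϱ, hϱ, fun p hp u hu => ?_⟩
  have a1 := h1 (x := u) (by rwa [Real.dist_eq, sub_zero])
  rw [Real.dist_eq, sub_zero, abs_norm] at a1
  have a2 := p.norm_le (mul_mem (sub_mem (hU u) hE) hG)
  rw [p.map_mul (sub_mem (hU u) hE) hG, p.map_sub (hU u) hE, norm_mul,
    abs1_chiE p hE hG e (norm_ne_zero_iff.1 (by linarith))] at a2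
  refine lt_of_mul_lt_mul_right ?_ hν.le
  exact (mul_le_mul_of_nonneg_left hp (norm_nonneg _)).trans_lt (a2.trans_lt a1)

theorem abs2_tendsto {E G : Op H} {U : ℝ → Op H} {A : VonNeumannAlgebra H} (hU : ∀ t, U t ∈ A)
    (hE : E ∈ A) (hG : G ∈ A) (e : E * G = G)
    (l : Tendsto (fun t => ‖(U t - E) * G‖) (𝓝 0) (𝓝 0)) (p : JP A) (hp : p.χ G ≠ 0) :
    Tendsto (fun u => p.χ (U u)) (𝓝 0) (𝓝 1) := by
  refine Metric.tendsto_nhds_nhds.2 fun ε hε => ?_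
  obtain ⟨ϱ, hϱ, h1⟩ := abs2_unif hU hE hG e l (norm_pos_iff.2 hp) hε
  refine ⟨ϱ, hϱ, fun u hu => ?_⟩
  rw [dist_eq_norm]
  exact h1 p le_rfl u (by rwa [Real.dist_eq, sub_zero] at hu)

/-- Let `A` be the bicommutant of `Θ` and `U`. Suppose `R η₀ ≠ η₀`, `E η₀ = η₀`. Then
`Y = (R - 1) T (G n) ≠ 0` for some `n`; let `ν = ‖Y‖`, `V = {p | ‖p.χ Y‖ > ν / 2}`. For every
`ϱ > 0` there are `x, y ∈ V` with points `0 < |s x - s y| < ϱ`: otherwise, for `x` with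
`‖χ Y‖ = ν`, the nonzero operator `E * cfc (max (· - ν²/4) 0) (Y* Y) * Θ (bump at s x)` is killed
by `R - rr (s x)`, against `noeig` (`s x ≠ 0`). Let `z` be any point with `χ (G m) ≠ 0 ≠ χ T`,
`c p u = p.χ (U u)`, `d = c x / c y`, `u = s x - s y`. `rel` gives `d (s p) c p u = 1` for
`p = x, y, z`, so `d u ^ 2 = 1`, `d = 1`, `c z u = 1`, `c z = 1` (`char_trivial`). Hence
`(U s - E) (G m) T = 0` for all `m`. -/
theorem Sym.dichotomy {F : FC H} {E : Op H} {U : ℝ → Op H} {D : Type*} {v : D → H}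
    {T T' : D → Op H} (h : Sym F E U v T T')
    (noeig : ∀ s, s ≠ 0 → ∀ η, E η = η → F.R η = (rr s : ℂ) • η → η = 0) :
    (∀ η, E η = η → F.R η = η) ∨ ∀ s, U s = E := by
  refine or_iff_not_imp_left.2 fun hn => ?_
  push Not at hn
  obtain ⟨η₀, e0, r0⟩ := hn
  obtain ⟨G, g1, -, g3, g4, g5⟩ := h.exists_G
  obtain ⟨hX, hc⟩ := bicomm_comm (X := Set.range F.Θ ∪ Set.range U) (by
    rintro a (⟨f, rfl⟩ | ⟨t, rfl⟩)
    · exact Or.inl ⟨star f, map_star _ _⟩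
    · exact Or.inr ⟨-t, (h.Ustar t).symm⟩) (by
    rintro a (⟨f, rfl⟩ | ⟨t, rfl⟩) b (⟨f', rfl⟩ | ⟨t', rfl⟩)
    exacts [F.Θ_comm _ _, (h.UΘ _ _).symm, h.UΘ _ _, by rw [← h.Uadd, ← h.Uadd, add_comm]])
  generalize (vnComm (Set.range F.Θ ∪ Set.range U)).commutant = A at g3 hX hc
  have hΘ := fun f => hX _ (Or.inl ⟨f, rfl⟩)
  have hU := fun t => hX _ (Or.inr ⟨t, rfl⟩)
  have hE : E ∈ A := h.U0 ▸ hU 0
  have hEE : E * E = E := h.proj.isIdempotentElem.eq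
  have lim : ∀ a : Op H, (∀ n, a * G n = 0) → a * E = 0 := fun a ha => by
    ext η
    have b1 := (a.continuous.tendsto _).comp (g5 η)
    simp only [Function.comp_def, ← mul_apply_eq_comp, ha] at b1
    exact tendsto_nhds_unique b1 tendsto_const_nhds
  obtain ⟨n, hn⟩ : ∃ n, (F.R - 1) * F.T * G n ≠ 0 := by
    by_contra hn
    push Not at hn
    have b1 := congrArg (fun a : Op H => a η₀) (lim _ hn)
    have b2 : (F.R - 1) * F.T = F.T * (F.R - 1) := by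
      rw [sub_mul, mul_sub, one_mul, mul_one, FC.R, FC.T, F.Θ_comm]
    simp only [b2, mul_apply_eq_comp, e0, zero_apply] at b1
    exact r0 (sub_eq_zero.1 (F.T_inj b1))
  obtain ⟨ν, hν, hcl⟩ := abs2_cluster hc hΘ hE hEE (g3 n) (g1 n) hn noeig
  have cm : ∀ (p : JP A) s t, p.χ (U (s + t)) = p.χ (U s) * p.χ (U t) := fun p s t => by
    rw [h.Uadd, p.map_mul (hU s) (hU t)]
  have key : ∀ (z : JP A) (m : ℕ), z.χ (G m) ≠ 0 → z.χ F.T ≠ 0 → ∀ s, z.χ (U s) = 1 := by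
    intro z m z1 z2
    obtain ⟨r, hr⟩ := z.exists_pt F hΘ z2
    obtain ⟨ϱ1, hϱ1, u1⟩ := abs2_unif hU hE (g3 n) (g1 n) (g4 n) hν one_pos
    obtain ⟨ϱ2, hϱ2, u2⟩ := abs2_unif hU hE (g3 m) (g1 m) (g4 m) (norm_pos_iff.2 z1) two_pos
    obtain ⟨x, y, s, s', x1, y1, hs, hs', ne, lt⟩ := hcl _ (lt_min hϱ1 hϱ2)
    have x0 : x.χ (G n) ≠ 0 := norm_ne_zero_iff.1 (by linarith)
    have y0 : y.χ (G n) ≠ 0 := norm_ne_zero_iff.1 (by linarith)
    have nx := h.norm_chi_abs1 hU x (abs1_chiE x hE (g3 n) (g1 n) x0)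
    have ny := h.norm_chi_abs1 hU y (abs1_chiE y hE (g3 n) (g1 n) y0)
    have nz := h.norm_chi_abs1 hU z (abs1_chiE z hE (g3 m) (g1 m) z1)
    have nx0 : ∀ t, x.χ (U t) ≠ 0 := fun t => norm_ne_zero_iff.1 (by rw [nx]; exact one_ne_zero)
    have nz0 : ∀ t, z.χ (U t) ≠ 0 := fun t => norm_ne_zero_iff.1 (by rw [nz]; exact one_ne_zero)
    have rxx := h.rel hΘ hU x x (g3 n) (g3 n) (g1 n) (g1 n) (g4 n) (g4 n) x0 x0 hs hs
    have rxy := h.rel hΘ hU x y (g3 n) (g3 n) (g1 n) (g1 n) (g4 n) (g4 n) x0 y0 hs hs'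
    have ryy := h.rel hΘ hU y y (g3 n) (g3 n) (g1 n) (g1 n) (g4 n) (g4 n) y0 y0 hs' hs'
    have rzx := h.rel hΘ hU z x (g3 m) (g3 n) (g1 m) (g1 n) (g4 m) (g4 n) z1 x0 hr hs
    have rzy := h.rel hΘ hU z y (g3 m) (g3 n) (g1 m) (g1 n) (g4 m) (g4 n) z1 y0 hr hs'
    have hu : s' - s ≠ 0 := sub_ne_zero.2 ne.symm
    have es : s' = s + (s' - s) := by ring
    have d1 : ∀ t, y.χ (U t) / x.χ (U t) = 1 := by
      refine char_trivial (fun a b => by rw [cm, cm, mul_div_mul_comm])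
        (fun a => by rw [norm_div, nx, ny, div_one]) ?_ hu (fun u hu => ?_) ?_
      · have b0 := (abs2_tendsto hU hE (g3 n) (g1 n) (g4 n) y y0).div
          (abs2_tendsto hU hE (g3 n) (g1 n) (g4 n) x x0) one_ne_zero
        rwa [div_one] at b0
      · have b0 : |u| < ϱ1 := hu.trans_lt (lt.trans_le (min_le_left _ _))
        rw [div_sub_one (nx0 u), norm_div, nx, div_one]
        linarith [norm_sub_le_norm_sub_add_norm_sub (y.χ (U u)) 1 (x.χ (U u)), u1 x x1 u b0,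
          u1 y y1 u b0, norm_sub_rev 1 (x.χ (U u))]
      · rw [es, cm] at rxy ryy
        rw [div_pow, div_eq_one_iff_eq (pow_ne_zero _ (nx0 _))]
        generalize x.χ (U s) = a at rxx rxy
        generalize y.χ (U s) = b at rxy ryy
        generalize x.χ (U (s' - s)) = a' at rxy
        generalize y.χ (U (s' - s)) = b' at ryy
        linear_combination (-b' ^ 2 * (b * (a * a') + 1)) * rxy + (a * a * a' ^ 2) * ryy +
          a' ^ 2 * rxx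
    have d2 : y.χ (U r) = x.χ (U r) := (div_eq_one_iff_eq (nx0 r)).1 (d1 r)
    have d3 : z.χ (U (s' - s)) = 1 := by
      rw [d2, es, cm, ← mul_assoc, rzx, one_mul] at rzy
      exact rzy
    exact char_trivial (cm z) nz (abs2_tendsto hU hE (g3 m) (g1 m) (g4 m) z z1) hu
      (fun u hu => u2 z le_rfl u (hu.trans_lt (lt.trans_le (min_le_right _ _))))
      (by rw [d3, one_pow])
  intro s
  have mT : F.T ∈ A := hΘ _
  have mU : U s - E ∈ A := sub_mem (hU s) hE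
  have b1 := lim (F.T * (U s - E)) fun m => by
    by_contra hm
    obtain ⟨z, hz⟩ := abs2_jp hc (mul_mem (mul_mem mT mU) (g3 m)) hm
    rw [z.map_mul (mul_mem mT mU) (g3 m), z.map_mul mT mU] at hz
    have z1 := right_ne_zero_of_mul hz
    refine right_ne_zero_of_mul (left_ne_zero_of_mul hz) ?_
    rw [z.map_sub (hU s) hE, key z m z1 (left_ne_zero_of_mul (left_ne_zero_of_mul hz)),
      abs1_chiE z hE (g3 m) (g1 m) z1, sub_self]
  rw [mul_assoc, sub_mul, hEE, ← h.U0, ← h.Uadd, add_zero, h.U0] at b1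
  exact sub_eq_zero.1 (F.T_cancel (b1.trans (mul_zero _).symm))

end Vale.Agent.P132
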