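import Vale.Agent.P132.L2

/-! P132: asymptotically invariant finite averages and the mean ergodic theorem. -/

namespace Vale.Agent.P132

open scoped InnerProductSpace BoundedContinuousFunction
open Filter Topology MeasureTheory Vale.Agent.P104

universe u

variable {H : Type u} [NormedAddCommGroup H] [InnerProductSpace ℂ H] [CompleteSpace H]

/-- the box of integer combinations of the elements of `F` -/
noncomputable def avBox (p : Finset ℝ × ℕ) : Av :=
  ⟨p.1 → Fin (p.2 + 1), fun k => ∑ s : p.1, ((k s : ℕ) : ℝ) * (s : ℝ)⟩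

theorem avBox_spec (F : Finset ℝ) (n : ℕ) {s : ℝ} (hs : s ∈ F) :
    ∃ π : Equiv.Perm (avBox (F, n)).ι,
      Nat.card {i // (avBox (F, n)).t (π i) ≠ (avBox (F, n)).t i + s} * (n + 1) ≤
        Fintype.card (avBox (F, n)).ι := by
  classical
  let π : Equiv.Perm (F → Fin (n + 1)) := Equiv.addRight (Pi.single ⟨s, hs⟩ 1)
  refine ⟨π, ?_⟩
  have hbad : ∀ k : F → Fin (n + 1),
      (avBox (F, n)).t (π k) ≠ (avBox (F, n)).t k + s → k ⟨s, hs⟩ = Fin.last n := by
    intro k hk
    by_contra hne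
    apply hk
    have hlt : k ⟨s, hs⟩ < Fin.last n := lt_of_le_of_ne (Fin.le_last _) hne
    have h1 : ∀ r : F, ((π k r : ℕ) : ℝ) * (r : ℝ) =
        ((k r : ℕ) : ℝ) * (r : ℝ) + if r = ⟨s, hs⟩ then s else 0 := by
      intro r
      change (((k r + (Pi.single (⟨s, hs⟩ : F) (1 : Fin (n + 1)) : F → Fin (n + 1)) r :
        Fin (n + 1)) : ℕ) : ℝ) * (r : ℝ) = _
      split_ifs with hr
      · subst hr
        rw [Pi.single_eq_same, Fin.val_add_one_of_lt hlt]
        push_cast; ring
      · rw [Pi.single_eq_of_ne hr, add_zero, add_zero]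
    change ∑ r : F, ((π k r : ℕ) : ℝ) * (r : ℝ) = ∑ r : F, ((k r : ℕ) : ℝ) * (r : ℝ) + s
    simp only [h1, Finset.sum_add_distrib, Finset.sum_ite_eq', Finset.mem_univ, if_true]
  let g : {i // (avBox (F, n)).t (π i) ≠ (avBox (F, n)).t i + s} × Fin (n + 1) →
      (F → Fin (n + 1)) := fun q => Function.update q.1.1 ⟨s, hs⟩ q.2
  have hg : Function.Injective g := by
    rintro ⟨⟨k, hk⟩, j⟩ ⟨⟨k', hk'⟩, j'⟩ h
    have hj : j = j' := by
      have := congrFun h ⟨s, hs⟩
      simpa [g] using this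
    have hkk : k = k' := by
      funext r
      by_cases hr : r = ⟨s, hs⟩
      · rw [hr, hbad k hk, hbad k' hk']
      · have := congrFun h r
        simpa [g, Function.update_of_ne hr] using this
    subst hj hkk
    rfl
  have h2 := Nat.card_le_card_of_injective g hg
  rw [Nat.card_prod, Nat.card_eq_fintype_card (α := Fin (n + 1)), Fintype.card_fin,
    Nat.card_eq_fintype_card (α := F → Fin (n + 1))] at h2
  exact h2.trans (le_of_eq (Fintype.card_congr (Equiv.refl _)))

/-- For a finite set `F` of reals and `n`, take `ι = F → ZMod (n + 1)` (or `Fin (n + 1)`),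
`t k = ∑ s ∈ F, k s * s`, and let `π` add one to the coordinate `s`. Take an ultrafilter finer
than the image of `atTop` on `Finset ℝ × ℕ`. -/
theorem exists_inv : ∃ 𝒰 : Ultrafilter Av, Inv (𝒰 : Filter Av) := by
  classical
  refine ⟨Ultrafilter.of (map avBox atTop), fun s ε hε => ?_⟩
  refine Filter.Eventually.filter_mono (Ultrafilter.of_le _) ?_
  rw [eventually_map]
  obtain ⟨N, hN⟩ := exists_nat_one_div_lt hε
  filter_upwards [eventually_ge_atTop (({s}, N) : Finset ℝ × ℕ)]
  rintro ⟨F, n⟩ ⟨hF, hn⟩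
  obtain ⟨π, hπ⟩ := avBox_spec F n (s := s) (hF (Finset.mem_singleton_self s))
  refine ⟨π, ?_⟩
  have h1 : (Nat.card {i // (avBox (F, n)).t (π i) ≠ (avBox (F, n)).t i + s} : ℝ) * (n + 1) ≤
      Fintype.card (avBox (F, n)).ι := by exact_mod_cast hπ
  have h2 : (N : ℝ) ≤ n := by exact_mod_cast hn
  have h3 : 1 ≤ ε * (n + 1) := by
    rw [div_lt_iff₀ (by positivity)] at hN
    nlinarith
  have h4 : (0 : ℝ) ≤ Nat.card {i // (avBox (F, n)).t (π i) ≠ (avBox (F, n)).t i + s} :=
    Nat.cast_nonneg _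
  nlinarith

theorem Inv.refl {l : Filter Av} (h : Inv l) : Inv (l.map Av.refl) := by
  intro s ε hε
  rw [eventually_map]
  filter_upwards [h (-s) ε hε] with m ⟨π, hπ⟩
  refine ⟨π, le_trans (le_of_eq ?_) hπ⟩
  congr 1
  refine Nat.card_congr (Equiv.subtypeEquivRight fun i => ?_)
  change -m.t (π i) ≠ -m.t i + s ↔ _
  constructor
  · intro h1 h2; exact h1 (by rw [h2]; ring)
  · intro h1 h2; exact h1 (by linarith)

theorem av_card_pos (m : Av) : (0 : ℝ) < Fintype.card m.ι := by
  exact_mod_cast Fintype.card_pos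

section
variable {E : Type*} [NormedAddCommGroup E] [NormedSpace ℝ E]

theorem avg_refl (m : Av) (f : ℝ → E) : avg m.refl f = avg m fun t => f (-t) := rfl

theorem avg_const (m : Av) (c : E) : avg m (fun _ => c) = c := by
  unfold avg
  rw [Finset.sum_const, Finset.card_univ, ← Nat.cast_smul_eq_nsmul ℝ, smul_smul,
    inv_mul_cancel₀ (av_card_pos m).ne', one_smul]

theorem avg_add (m : Av) (f g : ℝ → E) : avg m (fun t => f t + g t) = avg m f + avg m g := by
  unfold avg
  rw [Finset.sum_add_distrib, smul_add]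

theorem avg_sub (m : Av) (f g : ℝ → E) : avg m (fun t => f t - g t) = avg m f - avg m g := by
  unfold avg
  rw [Finset.sum_sub_distrib, smul_sub]

theorem avg_map {E' : Type*} [NormedAddCommGroup E'] [NormedSpace ℝ E'] (m : Av) (L : E →ₗ[ℝ] E')
    (f : ℝ → E) : avg m (fun t => L (f t)) = L (avg m f) := by
  unfold avg
  rw [map_smul, map_sum]

theorem avg_mono (m : Av) {f g : ℝ → ℝ} (h : ∀ t, f t ≤ g t) : avg m f ≤ avg m g := by
  unfold avg
  exact smul_le_smul_of_nonneg_left (Finset.sum_le_sum fun i _ => h _)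
    (inv_nonneg.2 (av_card_pos m).le)

theorem norm_avg_le (m : Av) {f : ℝ → E} {C : ℝ} (h : ∀ t, ‖f t‖ ≤ C) : ‖avg m f‖ ≤ C := by
  unfold avg
  have hc := av_card_pos m
  rw [norm_smul, norm_inv, Real.norm_natCast, inv_mul_le_iff₀ hc]
  refine (norm_sum_le _ _).trans ((Finset.sum_le_sum fun i _ => h _).trans (le_of_eq ?_))
  rw [Finset.sum_const, Finset.card_univ, nsmul_eq_mul]

theorem av_shift_le (m : Av) {f : ℝ → E} {C : ℝ} (hC : ∀ t, ‖f t‖ ≤ C) (s ε : ℝ)
    (π : Equiv.Perm m.ι)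
    (hπ : (Nat.card {i // m.t (π i) ≠ m.t i + s} : ℝ) ≤ ε * Fintype.card m.ι) :
    ‖avg m (fun t => f (t + s)) - avg m f‖ ≤ ε * (2 * C) := by
  classical
  have hc := av_card_pos m
  have hC0 : 0 ≤ C := (norm_nonneg _).trans (hC 0)
  unfold avg
  rw [← smul_sub, ← Equiv.sum_comp π fun i => f (m.t i), ← Finset.sum_sub_distrib, norm_smul,
    norm_inv, Real.norm_natCast, inv_mul_le_iff₀ hc]
  have h1 : ∑ i, (f (m.t i + s) - f (m.t (π i))) =
      ∑ i with m.t (π i) ≠ m.t i + s, (f (m.t i + s) - f (m.t (π i))) := by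
    rw [Finset.sum_filter]
    refine Finset.sum_congr rfl fun i _ => ?_
    split_ifs with h
    · rfl
    · rw [not_not.1 h, sub_self]
  rw [h1]
  rw [Nat.card_eq_fintype_card, Fintype.card_subtype] at hπ
  refine (norm_sum_le _ _).trans ?_
  calc _ ≤ ∑ _i with m.t (π _i) ≠ m.t _i + s, 2 * C :=
        Finset.sum_le_sum fun i _ => (norm_sub_le _ _).trans (by linarith [hC (m.t i + s), hC (m.t (π i))])
    _ = _ := by rw [Finset.sum_const, nsmul_eq_mul]
    _ ≤ (ε * Fintype.card m.ι) * (2 * C) := mul_le_mul_of_nonneg_right hπ (by positivity)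
    _ = _ := by ring

theorem Inv.tendsto {l : Filter Av} (h : Inv l) {f : ℝ → E} {C : ℝ} (hC : ∀ t, ‖f t‖ ≤ C) (s : ℝ) :
    Tendsto (fun m => avg m (fun t => f (t + s)) - avg m f) l (𝓝 0) := by
  have hC0 : 0 ≤ C := (norm_nonneg _).trans (hC 0)
  rw [Metric.tendsto_nhds]
  intro ε hε
  filter_upwards [h s (ε / (2 * C + 1)) (by positivity)] with m ⟨π, hπ⟩
  rw [dist_zero_right]
  refine (av_shift_le m hC s _ π hπ).trans_lt ?_
  rw [div_mul_eq_mul_div, div_lt_iff₀ (by positivity)]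
  nlinarith

theorem l2_avg (m : Av) (v : ℝ → E) :
    l2 (fun i : m.ι => (√(Fintype.card m.ι : ℝ))⁻¹ • v (m.t i)) ^ 2 = avg m fun t => ‖v t‖ ^ 2 := by
  have hc := av_card_pos m
  unfold l2 avg
  rw [Real.sq_sqrt (Finset.sum_nonneg fun _ _ => sq_nonneg _), smul_eq_mul, Finset.mul_sum]
  refine Finset.sum_congr rfl fun i _ => ?_
  rw [norm_smul, mul_pow, norm_inv, Real.norm_eq_abs, inv_pow, sq_abs, Real.sq_sqrt hc.le]

end

omit [CompleteSpace H] in
theorem avg_apply (m : Av) (V : ℝ → Op H) (η : H) : avg m V η = avg m fun t => V t η := by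
  unfold avg
  rw [ContinuousLinearMap.smul_apply, ContinuousLinearMap.sum_apply]

omit [CompleteSpace H] in
theorem inner_avg (m : Av) (η : H) (v : ℝ → H) : ⟪η, avg m v⟫_ℂ = avg m fun t => ⟪η, v t⟫_ℂ :=
  (avg_map m (((innerSL ℂ η).restrictScalars ℝ : H →L[ℝ] ℂ) : H →ₗ[ℝ] ℂ) v).symm

omit [CompleteSpace H] in
theorem avg_smul (m : Av) (c : ℂ) (v : ℝ → H) : avg m (fun t => c • v t) = c • avg m v := by
  unfold avg
  rw [← Finset.smul_sum, smul_comm]

omit [CompleteSpace H] in
theorem norm_avg_inner_le (m : Av) (v w : ℝ → H) : ‖avg m fun t => ⟪v t, w t⟫_ℂ‖ ≤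
    √(avg m fun t => ‖v t‖ ^ 2) * √(avg m fun t => ‖w t‖ ^ 2) := by
  have hc := av_card_pos m
  have hi : (0 : ℝ) ≤ (Fintype.card m.ι : ℝ)⁻¹ := inv_nonneg.2 hc.le
  unfold avg
  rw [norm_smul, norm_inv, Real.norm_natCast, smul_eq_mul, smul_eq_mul, Real.sqrt_mul hi,
    Real.sqrt_mul hi, mul_mul_mul_comm, Real.mul_self_sqrt hi]
  refine mul_le_mul_of_nonneg_left ((norm_sum_le _ _).trans ?_) hi
  exact (Finset.sum_le_sum fun i _ => norm_inner_le_norm _ _).trans
    (Real.sum_mul_le_sqrt_mul_sqrt _ _ _)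

theorem avg_mem {N : VonNeumannAlgebra H} (m : Av) {V : ℝ → Op H} (h : ∀ t, V t ∈ N) :
    avg m V ∈ N := by
  unfold avg
  rw [← Complex.coe_smul]
  exact N.toStarSubalgebra.smul_mem (N.toStarSubalgebra.sum_mem fun i _ => h _) _

omit [CompleteSpace H] in
theorem av_closed (l : Filter Av) (U : ℝ → Op H) (hn : ∀ t η, ‖U t η‖ ≤ ‖η‖) :
    IsClosed {v : H | Tendsto (fun m => avg m fun t => U t v) l (𝓝 0)} := by
  refine isClosed_of_closure_subset fun v hv => ?_
  rw [Set.mem_setOf_eq, Metric.tendsto_nhds]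
  intro ε hε
  obtain ⟨w, hw, hvw⟩ := Metric.mem_closure_iff.1 hv (ε / 2) (half_pos hε)
  filter_upwards [Metric.tendsto_nhds.1 hw (ε / 2) (half_pos hε)] with m hm
  rw [dist_zero_right] at hm ⊢
  have h1 : (avg m fun t => U t v) = (avg m fun t => U t (v - w)) + avg m fun t => U t w := by
    rw [← avg_add]
    simp only [map_sub, sub_add_cancel]
  have h2 : ‖avg m fun t => U t (v - w)‖ ≤ ‖v - w‖ := norm_avg_le m fun t => hn t _
  rw [dist_eq_norm] at hvw
  rw [h1]
  linarith [norm_add_le (avg m fun t => U t (v - w)) (avg m fun t => U t w)]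

/-- `H` is the sum of the fixed vectors and the closed span of the `U s ζ - ζ` -/
theorem met {l : Filter Av} (h : Inv l) (U : ℝ → Op H) (h0 : U 0 = 1)
    (hadd : ∀ s t, U (s + t) = U s * U t) (hstar : ∀ t, star (U t) = U (-t)) (η : H) :
    ∃ ζ, (∀ t, U t ζ = ζ) ∧ Tendsto (fun m => avg m fun t => U t η) l (𝓝 ζ) := by
  have hadj : ∀ t x y, ⟪U t x, y⟫_ℂ = ⟪x, U (-t) y⟫_ℂ := fun t x y => by
    rw [← hstar, ContinuousLinearMap.star_eq_adjoint, ContinuousLinearMap.adjoint_inner_right]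
  have hn : ∀ t x, ‖U t x‖ ≤ ‖x‖ := fun t x => by
    have h1 : ⟪U t x, U t x⟫_ℂ = ⟪x, x⟫_ℂ := by
      rw [hadj, ← ContinuousLinearMap.mul_apply, ← hadd, neg_add_cancel, h0,
        ContinuousLinearMap.one_apply]
    rw [norm_eq_sqrt_re_inner (𝕜 := ℂ), norm_eq_sqrt_re_inner (𝕜 := ℂ) x, h1]
  let S : Submodule ℂ H :=
    { carrier := {v : H | Tendsto (fun m => avg m fun t => U t v) l (𝓝 0)}
      add_mem' := fun {a b} ha hb => by
        have := Tendsto.add ha hb
        rw [add_zero] at this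
        refine this.congr fun m => ?_
        rw [← avg_add]; simp only [map_add]
      zero_mem' := by
        simp only [Set.mem_setOf_eq, map_zero, avg_const]
        exact tendsto_const_nhds
      smul_mem' := fun c a ha => by
        have := Tendsto.const_smul ha c
        rw [smul_zero] at this
        refine this.congr fun m => ?_
        rw [← avg_smul]; simp only [map_smul] }
  have hS : IsClosed (S : Set H) := av_closed l U hn
  haveI : CompleteSpace S := hS.completeSpace_coe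
  have hgen : ∀ s x, U s x - x ∈ S := fun s x => by
    refine (h.tendsto (f := fun t => U t x) (fun t => hn t x) s).congr fun m => ?_
    rw [← avg_sub]
    simp only [hadd, map_sub, ContinuousLinearMap.mul_apply]
  obtain ⟨y, hy, z, hz, rfl⟩ := S.exists_add_mem_mem_orthogonal η
  have hfix : ∀ t, U t z = z := fun t => by
    refine ext_inner_left ℂ fun x => ?_
    have h1 := (S.mem_orthogonal z).1 hz _ (hgen (-t) x)
    rw [inner_sub_left, hadj, neg_neg, sub_eq_zero] at h1
    exact h1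
  refine ⟨z, hfix, ?_⟩
  have h2 := Tendsto.add_const z hy
  rw [zero_add] at h2
  refine h2.congr fun m => ?_
  simp only [map_add, hfix]
  rw [avg_add, avg_const]

end Vale.Agent.P132
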