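import Vale.Agent.P132.SFB

/-! P132: the bicentralizer is a von Neumann algebra. -/

namespace Vale.Agent.P132

open scoped InnerProductSpace BoundedContinuousFunction
open Filter Topology MeasureTheory Vale.Agent.P104

universe u

variable {H : Type u} [NormedAddCommGroup H] [InnerProductSpace ℂ H] [CompleteSpace H]

namespace SF
variable (S : SF H) {a b : Op H}

theorem mem_Hc_iff (ha : a ∈ S.M) : a S.ξ ∈ S.Hc ↔ ∀ ε > 0, ∃ K, 0 ≤ K ∧ ∀ w ∈ S.M,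
    ‖(a * w - w * a) S.ξ‖ ≤ ε * ‖w‖ + K * ‖S.D 1 w‖ := by
  refine forall₂_congr fun ε _ => ⟨fun ⟨K, hK, h⟩ => ?_, fun ⟨K, hK, h⟩ => ?_⟩ <;>
    refine ⟨K + ‖a‖, add_nonneg hK (norm_nonneg a), fun w hw => ?_⟩
  · rw [S.comm_ξ ha hw]
    linarith [norm_sub_le (a (S.D 1 w)) (w (a S.ξ) - S.ρ w (a S.ξ)), a.le_opNorm (S.D 1 w), h w hw]
  · have e := S.comm_ξ ha hw
    rw [eq_sub_iff_add_eq, ← eq_sub_iff_add_eq'] at e
    rw [e]
    linarith [norm_sub_le (a (S.D 1 w)) ((a * w - w * a) S.ξ), a.le_opNorm (S.D 1 w), h w hw]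

theorem bic_D_star (w : Op H) : ‖S.D 1 (star w)‖ = ‖S.D 1 w‖ := by
  have h := S.D_star one_ne_zero w
  rw [inv_one, one_smul] at h
  rw [h, norm_neg, S.norm_J]

/-- `Hc` as a subspace -/
def bicSub : Submodule ℂ H where
  carrier := S.Hc
  zero_mem' ε hε := ⟨0, le_rfl, fun w _ => by
    rw [map_zero, map_zero, sub_zero, norm_zero]
    positivity⟩
  add_mem' {η ζ} hη hζ ε hε := by
    obtain ⟨K, hK, h⟩ := hη (ε / 2) (half_pos hε)
    obtain ⟨K', hK', h'⟩ := hζ (ε / 2) (half_pos hε)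
    refine ⟨K + K', add_nonneg hK hK', fun w hw => ?_⟩
    rw [map_add, map_add, add_sub_add_comm]
    linarith [norm_add_le (w η - S.ρ w η) (w ζ - S.ρ w ζ), h w hw, h' w hw]
  smul_mem' c η hη ε hε := by
    obtain ⟨K, hK, h⟩ := hη (ε / (‖c‖ + 1)) (by positivity)
    refine ⟨(‖c‖ + 1) * K, by positivity, fun w hw => ?_⟩
    rw [map_smul, map_smul, ← smul_sub, norm_smul]
    refine (mul_le_mul (le_add_of_nonneg_right zero_le_one) (h w hw) (norm_nonneg _)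
      (by positivity)).trans_eq ?_
    field_simp

theorem bic_closed : IsClosed S.Hc := by
  refine isClosed_of_closure_subset fun η hη ε hε => ?_
  obtain ⟨ζ, hζ, hd⟩ := Metric.mem_closure_iff.1 hη (ε / 3) (by positivity)
  obtain ⟨K, hK, h⟩ := hζ (ε / 3) (by positivity)
  refine ⟨K, hK, fun w hw => ?_⟩
  have e : w η - S.ρ w η = (w ζ - S.ρ w ζ) + (w (η - ζ) - S.ρ w (η - ζ)) := by
    rw [map_sub, map_sub]
    abel
  have h1 := (S.ρ w).le_opNorm (η - ζ)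
  rw [S.norm_ρ] at h1
  rw [dist_eq_norm] at hd
  rw [e]
  linarith [norm_add_le (w ζ - S.ρ w ζ) (w (η - ζ) - S.ρ w (η - ζ)), h w hw,
    norm_sub_le (w (η - ζ)) (S.ρ w (η - ζ)), w.le_opNorm (η - ζ),
    mul_le_mul_of_nonneg_left hd.le (norm_nonneg w)]

theorem bic_proj {η : H} : projOn S.Hc η = η ↔ η ∈ S.Hc := by
  have e : Submodule.span ℂ S.Hc = S.bicSub := Submodule.span_eq S.bicSub
  rw [l2_projOn_iff, e]
  exact iff_of_eq (congrArg (η ∈ ·) S.bic_closed.closure_eq)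

theorem bic_J {η : H} (hη : η ∈ S.Hc) : S.J η ∈ S.Hc := fun ε hε => by
  obtain ⟨K, hK, h⟩ := hη ε hε
  refine ⟨K, hK, fun w hw => ?_⟩
  have h1 := h _ (star_mem hw)
  rw [norm_star, S.bic_D_star] at h1
  rwa [← S.norm_J, map_sub, S.J_apply w, S.JJ, S.ρ_apply w, S.JJ, S.JJ, norm_sub_rev]

theorem bic_Δ {η : H} (hη : η ∈ S.Hc) (t : ℝ) : S.Δ t η ∈ S.Hc := fun ε hε => by
  obtain ⟨K, hK, h⟩ := hη ε hε
  refine ⟨K, hK, fun w hw => ?_⟩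
  have h1 := h _ (S.σ_M w hw (-t))
  rwa [S.norm_σ, S.D_σ, S.norm_Δ, S.ρ_σ, S.σ_apply, S.σ_apply, neg_neg, ← map_sub, S.norm_Δ] at h1

theorem bic_Θ (f : ℝ →ᵇ ℂ) : S.Θ f * projOn S.Hc = projOn S.Hc * S.Θ f :=
  S.comm_of_Δ (fun t => projOn_comm' (fun _ h => subset_closure (S.bic_Δ h t)) fun _ h => by
    rw [S.star_Δ]
    exact subset_closure (S.bic_Δ h _)) f

theorem bic_star (ha : a ∈ S.M) (h : a S.ξ ∈ S.Hc) : star a S.ξ ∈ S.Hc := by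
  have hT : ∀ η, S.T (projOn S.Hc η) = projOn S.Hc (S.T η) :=
    fun η => DFunLike.congr_fun (S.bic_Θ sechB) η
  have hR : ∀ η, S.R (projOn S.Hc η) = projOn S.Hc (S.R η) :=
    fun η => DFunLike.congr_fun (S.bic_Θ rB) η
  have h1 : projOn S.Hc (S.ρ a S.ξ) = S.ρ a S.ξ := by
    refine sub_eq_zero.1 (S.T_inj ?_)
    rw [map_sub, hT, S.half_ρ ha, sub_apply, map_sub, ← hR, ← one_add_one_eq_two, add_apply,
      one_apply_eq_self, map_add, S.bic_proj.2 h, sub_self]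
  have h2 := S.bic_J (S.bic_proj.1 h1)
  rwa [S.ρ_ξ, S.JJ] at h2

theorem bic_mul (ha : a ∈ S.M) (h : a S.ξ ∈ S.Hc) {η : H} (hη : η ∈ S.Hc) : a η ∈ S.Hc := by
  intro ε hε
  have h0 := norm_nonneg a
  obtain ⟨K₁, hK₁, h₁⟩ := hη (ε / (4 * (‖a‖ + 1))) (by positivity)
  obtain ⟨K₂, hK₂, h₂⟩ := S.ua_one η (ε := ε / (4 * (‖a‖ + 1))) (by positivity)
  obtain ⟨K₃, hK₃, h₃⟩ := (S.mem_Hc_iff ha).1 h (ε / (4 * (K₂ + 1))) (by positivity)
  refine ⟨‖a‖ * K₁ + K₂ * K₃, by positivity, fun w hw => ?_⟩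
  have e : w (a η) - S.ρ w (a η) = a (w η - S.ρ w η) - (a * w - w * a) η := by
    rw [map_sub, S.ρ_comm_apply ha hw, sub_apply, mul_apply_eq_comp, mul_apply_eq_comp]
    abel
  have a1 := (a.le_opNorm _).trans (mul_le_mul_of_nonneg_left (h₁ w hw) h0)
  have a2 := h₂ _ (sub_mem (mul_mem ha hw) (mul_mem hw ha))
  have a3 := mul_le_mul_of_nonneg_left (h₃ w hw) hK₂
  have a4 : ‖a * w - w * a‖ ≤ 2 * (‖a‖ * ‖w‖) := by
    linarith [norm_sub_le (a * w) (w * a), norm_mul_le a w, norm_mul_le w a]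
  have key : ∀ t : ℝ, 0 ≤ t → t * (ε / (4 * (t + 1)) * ‖w‖) ≤ ε / 4 * ‖w‖ := fun t ht => by
    rw [← mul_assoc]
    refine mul_le_mul_of_nonneg_right ?_ (norm_nonneg w)
    rw [← mul_div_assoc, div_le_div_iff₀ (by positivity) (by positivity)]
    nlinarith
  have a5 := mul_le_mul_of_nonneg_left a4 (by positivity : 0 ≤ ε / (4 * (‖a‖ + 1)))
  rw [e]
  linarith [norm_sub_le (a (w η - S.ρ w η)) ((a * w - w * a) η), key _ h0, key _ hK₂]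

theorem bic_ξ : S.ξ ∈ S.Hc := fun ε hε => ⟨1, zero_le_one, fun w _ => by
  rw [one_mul, D, one_smul]
  exact le_add_of_nonneg_left (by positivity)⟩

/-- `Hc` is a closed subspace, invariant under `J` and `Δ t`; its projection commutes with `Θ`
(`comm_of_Δ`), so `half_ρ` shows that the set is stable under adjoints; products by `ua_one`.
If `z` is in the bicommutant then `z ∈ M` and `z ξ` is in the closure of the orbit of `ξ`. -/
theorem mem_B : a ∈ S.B ↔ a ∈ S.M ∧ a S.ξ ∈ S.Hc := by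
  rw [B, VonNeumannAlgebra.mem_commutant_iff]
  refine ⟨fun h => ⟨(mem_iff_comm _).2 fun s hs => h s (mem_vnComm.2 fun b hb =>
    ⟨(comm_of_mem hs hb.1).symm, (comm_of_mem hs (star_mem hb.1)).symm⟩), ?_⟩,
    fun h s hs => ((mem_vnComm.1 hs a h).1).symm⟩
  have key : ∀ b, b ∈ S.M → b S.ξ ∈ S.Hc → b * projOn S.Hc = projOn S.Hc * b := fun b h1 h2 =>
    projOn_comm' (fun _ h => subset_closure (S.bic_mul h1 h2 h)) fun _ h =>
      subset_closure (S.bic_mul (star_mem h1) (S.bic_star h1 h2) h)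
  have h1 := DFunLike.congr_fun (h (projOn S.Hc) (mem_vnComm.2 fun b hb =>
    ⟨key b hb.1 hb.2, key _ (star_mem hb.1) (S.bic_star hb.1 hb.2)⟩)) S.ξ
  rw [mul_apply_eq_comp, mul_apply_eq_comp, S.bic_proj.2 S.bic_ξ] at h1
  exact S.bic_proj.1 h1

theorem B_le (ha : a ∈ S.B) : a ∈ S.M := (S.mem_B.1 ha).1

theorem bm (ha : a ∈ S.B) : ∀ ε > 0, ∃ K, 0 ≤ K ∧ ∀ w ∈ S.M,
    ‖(a * w - w * a) S.ξ‖ ≤ ε * ‖w‖ + K * ‖S.D 1 w‖ :=
  (S.mem_Hc_iff (S.B_le ha)).1 (S.mem_B.1 ha).2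

theorem σ_B (ha : a ∈ S.B) (t : ℝ) : S.σ t a ∈ S.B := by
  refine S.mem_B.2 ⟨S.σ_M a (S.B_le ha) t, ?_⟩
  rw [S.σ_ξ]
  exact S.bic_Δ (S.mem_B.1 ha).2 t

theorem E_proj : IsStarProjection S.E := projOn_proj _

theorem E_iff {η : H} : S.E η = η ↔ η ∈ closure (orb (S.B : Set (Op H)) S.ξ) :=
  projOn_orb_iff _ _ _

theorem E_B (ha : a ∈ S.B) : S.E (a S.ξ) = a S.ξ :=
  S.E_iff.2 (subset_closure ⟨a, ha, rfl⟩)

theorem E_Θ (f : ℝ →ᵇ ℂ) : S.E * S.Θ f = S.Θ f * S.E := by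
  have key : ∀ t, ∀ η ∈ orb (S.B : Set (Op H)) S.ξ, S.Δ t η ∈ closure (orb (S.B : Set (Op H)) S.ξ) := by
    rintro t _ ⟨b, hb, rfl⟩
    exact subset_closure ⟨S.σ t b, S.σ_B hb t, (S.σ_ξ t b).symm⟩
  refine (S.comm_of_Δ (fun t => projOn_comm' (key t) ?_) f).symm
  rw [S.star_Δ]
  exact key _

/-- by contradiction, normalising `‖w n‖ = 1` -/
theorem mem_B_of_seq (ha : a ∈ S.M) (h : ∀ w : ℕ → Op H, (∀ n, w n ∈ S.M) → (∀ n, ‖w n‖ ≤ 1) →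
    Tendsto (fun n => S.D 1 (w n)) atTop (𝓝 0) →
      Tendsto (fun n => (a * w n - w n * a) S.ξ) atTop (𝓝 0)) : a ∈ S.B := by
  refine S.mem_B.2 ⟨ha, (S.mem_Hc_iff ha).2 fun ε hε => ?_⟩
  by_contra hn
  push Not at hn
  have key : ∀ n : ℕ, ∃ w ∈ S.M, ‖w‖ ≤ 1 ∧
      ε + (n + 1) * ‖S.D 1 w‖ < ‖(a * w - w * a) S.ξ‖ := fun n => by
    obtain ⟨w, hw, h1⟩ := hn (n + 1) (by positivity)
    have h0 : 0 < ‖w‖ := norm_pos_iff.2 fun e => by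
      refine h1.not_ge (le_trans (le_of_eq ?_) (by positivity : (0 : ℝ) ≤ _))
      rw [e, mul_zero, zero_mul, sub_zero, zero_apply, norm_zero]
    refine ⟨‖w‖⁻¹ • w, vn_rsmul_mem _ hw, ?_, ?_⟩
    · rw [norm_smul, norm_inv, norm_norm, inv_mul_cancel₀ h0.ne']
    · rw [S.D_rsmul, mul_smul_comm, smul_mul_assoc, ← smul_sub, smul_apply, norm_smul, norm_smul,
        norm_inv, norm_norm]
      refine lt_of_eq_of_lt ?_ (mul_lt_mul_of_pos_left h1 (inv_pos.2 h0))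
      field_simp
  choose w hw h1 h2 using key
  have h3 : Tendsto (fun n => S.D 1 (w n)) atTop (𝓝 0) := by
    refine squeeze_zero_norm (fun n => ?_)
      (by simpa using (tendsto_one_div_add_atTop_nhds_zero_nat (𝕜 := ℝ)).const_mul (2 * ‖a‖))
    rw [← div_eq_mul_inv, le_div_iff₀ (by positivity)]
    have a1 := (a * w n - w n * a).le_opNorm S.ξ
    rw [S.norm_ξ, mul_one] at a1
    linarith [h2 n, norm_sub_le (a * w n) (w n * a), norm_mul_le a (w n), norm_mul_le (w n) a,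
      mul_le_of_le_one_right (norm_nonneg a) (h1 n)]
  have h4 := (h w hw h1 h3).norm
  rw [norm_zero] at h4
  obtain ⟨n, hn⟩ := (h4.eventually (gt_mem_nhds hε)).exists
  have := h2 n
  have : 0 ≤ ((n : ℝ) + 1) * ‖S.D 1 (w n)‖ := by positivity
  linarith

/-- `‖w φ - φ w‖ ≤ 2 ‖w ξ - ξ w‖` -/
theorem norm_comm_le {w y : Op H} (hw : w ∈ S.M) (hy : y ∈ S.M) :
    ‖⟪S.ξ, (y * w) S.ξ⟫_ℂ - ⟪S.ξ, (w * y) S.ξ⟫_ℂ‖ ≤ 2 * ‖S.D 1 w‖ * ‖y‖ := by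
  have e : ⟪S.ξ, (y * w) S.ξ⟫_ℂ - ⟪S.ξ, (w * y) S.ξ⟫_ℂ =
      ⟪S.ξ, y (S.D 1 w)⟫_ℂ - ⟪S.D 1 (star w), y S.ξ⟫_ℂ := by
    rw [D, D, one_smul, one_smul, map_sub, inner_sub_right, inner_sub_left, S.ρ_comm_apply hy hw,
      ← S.star_ρ, inner_star_left, inner_star_left, mul_apply_eq_comp, mul_apply_eq_comp]
    ring
  have h1 := norm_inner_le_norm (𝕜 := ℂ) S.ξ (y (S.D 1 w))
  have h2 := (norm_inner_le_norm (𝕜 := ℂ) (S.D 1 (star w)) (y S.ξ)).trans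
    (mul_le_mul_of_nonneg_left (y.le_opNorm _) (norm_nonneg _))
  rw [S.bic_D_star, S.norm_ξ] at h2
  rw [S.norm_ξ] at h1
  rw [e]
  linarith [norm_sub_le ⟪S.ξ, y (S.D 1 w)⟫_ℂ ⟪S.D 1 (star w), y S.ξ⟫_ℂ, y.le_opNorm (S.D 1 w)]

end SF

end Vale.Agent.P132
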