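import Vale.Agent.P132.NL
import Vale.Agent.P132.Bic

/-! P132: random signs turn a family into a single element. -/

namespace Vale.Agent.P132

open scoped InnerProductSpace BoundedContinuousFunction
open Filter Topology MeasureTheory Vale.Agent.P104

universe u

variable {H : Type u} [NormedAddCommGroup H] [InnerProductSpace ℂ H] [CompleteSpace H]

section
variable {ι : Type*} [Fintype ι] [DecidableEq ι]

omit [CompleteSpace H] in
theorem u0_gen {Ω κ : Type*} [Fintype Ω] [Fintype κ] (χ : Ω → κ → ℝ) (a : κ → H) :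
    ∑ ω, ‖∑ k, (χ ω k : ℂ) • a k‖ ^ 2 =
      ∑ k, ∑ l, (∑ ω, χ ω k * χ ω l) * (⟪a k, a l⟫_ℂ).re := by
  have h : ∀ ω, ‖∑ k, (χ ω k : ℂ) • a k‖ ^ 2 =
      ∑ k, ∑ l, χ ω k * χ ω l * (⟪a k, a l⟫_ℂ).re := by
    intro ω
    rw [← inner_self_eq_norm_sq (𝕜 := ℂ), sum_inner, RCLike.re_to_complex, Complex.re_sum]
    refine Finset.sum_congr rfl fun k _ => ?_
    rw [inner_sum, Complex.re_sum]
    refine Finset.sum_congr rfl fun l _ => ?_
    rw [inner_smul_left, inner_smul_right, Complex.conj_ofReal, Complex.re_ofReal_mul,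
      Complex.re_ofReal_mul, mul_assoc]
  simp only [h, Finset.sum_mul]
  rw [Finset.sum_comm]
  exact Finset.sum_congr rfl fun k _ => Finset.sum_comm

/-- the sign as a real number -/
def u0_s (θ : ι → ℤˣ) (i : ι) : ℝ := ((θ i : ℤ) : ℝ)

omit [Fintype ι] [DecidableEq ι] in
theorem u0_s_sq (θ : ι → ℤˣ) (i : ι) : u0_s θ i * u0_s θ i = 1 := by
  unfold u0_s
  rcases Int.units_eq_one_or (θ i) with h | h <;> simp [h]

omit [Fintype ι] in
theorem u0_s_flip (θ : ι → ℤˣ) (i j : ι) :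
    u0_s (θ * Pi.mulSingle i (-1)) j = if j = i then -u0_s θ j else u0_s θ j := by
  unfold u0_s
  by_cases h : j = i
  · subst h
    simp
  · simp [h]

theorem u0_flip (f : (ι → ℤˣ) → ℝ) (i : ι) (h : ∀ θ, f (θ * Pi.mulSingle i (-1)) = -f θ) :
    ∑ θ, f θ = 0 := by
  have := Equiv.sum_comp (Equiv.mulRight (Pi.mulSingle i (-1) : ι → ℤˣ)) f
  simp only [Equiv.coe_mulRight, h, Finset.sum_neg_distrib] at this
  linarith

theorem u0_two (i j : ι) : ∑ θ : ι → ℤˣ, u0_s θ i * u0_s θ j =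
    if i = j then (Fintype.card (ι → ℤˣ) : ℝ) else 0 := by
  split_ifs with h
  · subst h
    simp [u0_s_sq]
  · refine u0_flip _ i fun θ => ?_
    rw [u0_s_flip, u0_s_flip, if_pos rfl, if_neg (Ne.symm h)]
    ring

/-- the off diagonal products of two signs -/
noncomputable def u0_c (θ : ι → ℤˣ) (p : ι × ι) : ℝ :=
  if p.1 = p.2 then 0 else u0_s θ p.1 * u0_s θ p.2

theorem u0_four (p q : ι × ι) : |∑ θ : ι → ℤˣ, u0_c θ p * u0_c θ q| ≤
    (if q = p then (Fintype.card (ι → ℤˣ) : ℝ) else 0) +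
      if q = p.swap then (Fintype.card (ι → ℤˣ) : ℝ) else 0 := by
  obtain ⟨i, j⟩ := p
  obtain ⟨k, l⟩ := q
  have h0 : (0 : ℝ) ≤ (if (k, l) = (i, j) then (Fintype.card (ι → ℤˣ) : ℝ) else 0) +
      if (k, l) = (i, j).swap then (Fintype.card (ι → ℤˣ) : ℝ) else 0 := by positivity
  unfold u0_c
  by_cases hij : i = j
  · simpa [hij] using h0
  by_cases hkl : k = l
  · simpa [hkl] using h0
  simp only [if_neg hij, if_neg hkl]
  have hsq : ∀ θ : ι → ℤˣ, u0_s θ i * u0_s θ j * (u0_s θ i * u0_s θ j) = 1 := fun θ => by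
    rw [mul_mul_mul_comm, u0_s_sq, u0_s_sq, one_mul]
  by_cases h1 : (k, l) = (i, j)
  · obtain ⟨rfl, rfl⟩ := Prod.mk.inj h1
    simp [hsq, hij]
  by_cases h2 : (k, l) = (j, i)
  · obtain ⟨rfl, rfl⟩ := Prod.mk.inj h2
    simp [mul_comm (u0_s _ k) (u0_s _ l), hsq, hij]
  refine le_trans (le_of_eq (abs_eq_zero.2 ?_)) h0
  by_cases hi : k ≠ i ∧ l ≠ i
  · refine u0_flip _ i fun θ => ?_
    simp only [u0_s_flip, if_true, if_neg (Ne.symm hij), if_neg hi.1, if_neg hi.2]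
    ring
  have hj : k ≠ j ∧ l ≠ j := by
    constructor
    · rintro rfl
      exact hi ⟨Ne.symm hij, fun h => h2 (by rw [h])⟩
    · rintro rfl
      exact hi ⟨fun h => h1 (by rw [h]), Ne.symm hij⟩
  refine u0_flip _ j fun θ => ?_
  simp only [u0_s_flip, if_true, if_neg hij, if_neg hj.1, if_neg hj.2]
  ring

omit [CompleteSpace H] in
theorem u0_off (a : ι × ι → H) : ∑ θ : ι → ℤˣ, ‖∑ p, (u0_c θ p : ℂ) • a p‖ ^ 2 ≤
    Fintype.card (ι → ℤˣ) * (2 * ∑ p, ‖a p‖ ^ 2) := by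
  rw [u0_gen]
  have h : ∀ p q : ι × ι, (∑ θ : ι → ℤˣ, u0_c θ p * u0_c θ q) * (⟪a p, a q⟫_ℂ).re ≤
      ((if q = p then (Fintype.card (ι → ℤˣ) : ℝ) else 0) +
        if q = p.swap then (Fintype.card (ι → ℤˣ) : ℝ) else 0) *
          ((‖a p‖ ^ 2 + ‖a q‖ ^ 2) / 2) := by
    intro p q
    refine (le_abs_self _).trans ?_
    rw [abs_mul]
    refine mul_le_mul (u0_four p q) ?_ (abs_nonneg _) (by positivity)
    refine (Complex.abs_re_le_norm _).trans ((norm_inner_le_norm _ _).trans ?_)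
    nlinarith [sq_nonneg (‖a p‖ - ‖a q‖)]
  refine (Finset.sum_le_sum fun p _ => Finset.sum_le_sum fun q _ => h p q).trans (le_of_eq ?_)
  simp only [add_mul, ite_mul, zero_mul, Finset.sum_add_distrib, Finset.sum_ite_eq',
    Finset.mem_univ, if_true, ← Finset.mul_sum, ← Finset.sum_div]
  have := Equiv.sum_comp (Equiv.prodComm ι ι) fun p => ‖a p‖ ^ 2
  simp only [Equiv.prodComm_apply] at this
  rw [this]
  ring

omit [CompleteSpace H] in
theorem rand_sq (v : ι → H) :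
    ∑ θ : ι → ℤˣ, ‖∑ i, ((θ i : ℤ) : ℂ) • v i‖ ^ 2 = Fintype.card (ι → ℤˣ) * l2 v ^ 2 := by
  have := u0_gen (fun θ : ι → ℤˣ => u0_s θ) v
  simp only [u0_two, ite_mul, zero_mul, Finset.sum_ite_eq, Finset.mem_univ, if_true] at this
  simp only [u0_s, Complex.ofReal_intCast] at this
  rw [this, l2_sq, Finset.mul_sum]
  refine Finset.sum_congr rfl fun k _ => ?_
  rw [← inner_self_eq_norm_sq (𝕜 := ℂ), RCLike.re_to_complex]

/-- `y* y = G + ∑ (i ≠ j) θ i θ j (y i)* (y j)`; a product of signs in which some index appears an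
odd number of times has mean zero (flip that sign) -/
theorem rand_four (y : ι → Op H) {C : ℝ} (h : Row y (fun _ => 1) C) (ζ : H) :
    ∑ θ : ι → ℤˣ, ‖(star (∑ i, ((θ i : ℤ) : ℂ) • y i) * ∑ i, ((θ i : ℤ) : ℂ) • y i) ζ‖ ^ 2 ≤
      Fintype.card (ι → ℤˣ) * (2 * ‖gram y ζ‖ ^ 2 + 4 * C ^ 2 * l2 (fun i => y i ζ) ^ 2) := by
  have e : ∀ θ : ι → ℤˣ, (star (∑ i, ((θ i : ℤ) : ℂ) • y i) * ∑ i, ((θ i : ℤ) : ℂ) • y i) ζ =
      gram y ζ + ∑ p : ι × ι, (u0_c θ p : ℂ) • star (y p.1) (y p.2 ζ) := by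
    intro θ
    rw [star_sum, Finset.sum_mul_sum, gram, Fintype.sum_prod_type, sum_apply,
      sum_apply, ← Finset.sum_add_distrib]
    refine Finset.sum_congr rfl fun i _ => ?_
    have e1 : (star (y i) * y i) ζ = ∑ j, if i = j then star (y i) (y j ζ) else 0 := by simp
    rw [e1, sum_apply, ← Finset.sum_add_distrib]
    refine Finset.sum_congr rfl fun j _ => ?_
    have e2 : (star (((θ i : ℤ) : ℂ) • y i) * ((θ j : ℤ) : ℂ) • y j) ζ =
        ((u0_s θ i * u0_s θ j : ℝ) : ℂ) • star (y i) (y j ζ) := by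
      simp [u0_s, smul_smul, mul_comm]
    rw [e2, u0_c]
    split_ifs with hij
    · subst hij
      simp [u0_s_sq]
    · simp
  have h1 := u0_off fun p : ι × ι => star (y p.1) (y p.2 ζ)
  have h2 : ∑ p : ι × ι, ‖star (y p.1) (y p.2 ζ)‖ ^ 2 ≤ C ^ 2 * l2 (fun i => y i ζ) ^ 2 := by
    rw [Fintype.sum_prod_type, Finset.sum_comm, l2_sq, Finset.mul_sum]
    refine Finset.sum_le_sum fun j _ => ?_
    have h3 := h (y j ζ)
    simp only [one_smul] at h3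
    rw [← l2_sq, ← mul_pow]
    exact pow_le_pow_left₀ (l2_nonneg _) h3 2
  have h3 : ∀ u w : H, ‖u + w‖ ^ 2 ≤ 2 * ‖u‖ ^ 2 + 2 * ‖w‖ ^ 2 := fun u w => by
    nlinarith [pow_le_pow_left₀ (norm_nonneg _) (norm_add_le u w) 2, sq_nonneg (‖u‖ - ‖w‖)]
  simp only [e]
  refine (Finset.sum_le_sum fun θ _ => h3 _ _).trans ?_
  rw [Finset.sum_add_distrib, ← Finset.mul_sum, ← Finset.mul_sum, Finset.sum_const,
    Finset.card_univ, nsmul_eq_mul]
  nlinarith [mul_le_mul_of_nonneg_left h2 (Nat.cast_nonneg (Fintype.card (ι → ℤˣ)) : (0 : ℝ) ≤ _)]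

end

theorem u0_one (S : SF H) {a X : Op H} {e K : ℝ} (he : 0 ≤ e) (hK : 0 ≤ K) (hX : X ∈ S.M)
    (h : ∀ w ∈ S.M, ‖(a * w - w * a) S.ξ‖ ≤ e * ‖w‖ + K * ‖S.D 1 w‖) :
    ‖(a * X - X * a) S.ξ‖ ≤ e / 2 + 9 / 4 * K * ‖S.D 1 X‖ +
      (‖a‖ * ‖(star X * X) S.ξ‖ + ‖(star X * X) (a S.ξ)‖) / 2 := by
  obtain ⟨r, h1, h2, -, -, h3, -⟩ := exists_res fun _ : Unit => X
  have h4 := (S.rt (x := fun _ : Unit => X) (fun _ => hX) (fun _ => 1) h1 h2).2
  have hr : r ∈ S.M :=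
    vn_inv_mem (add_mem (one_mem _) (gram_mem (x := fun _ : Unit => X) fun _ => hX)) h1 h2
  simp only [SF.Dn, l2_unique] at h4
  have h5 : ‖X * r‖ ≤ 1 / 2 :=
    ContinuousLinearMap.opNorm_le_bound _ (by norm_num) fun ζ => by
      simpa only [l2_unique] using h3 ζ
  have hg : gram (fun _ : Unit => X) = star X * X := by simp [gram]
  rw [hg] at h2
  have h6 : X - X * r = X * r * (star X * X) := by
    calc X - X * r = X * (r * (1 + star X * X)) - X * r := by rw [h2, mul_one]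
      _ = _ := by noncomm_ring
  have h7 : ∀ ζ, ‖(X - X * r) ζ‖ ≤ 1 / 2 * ‖(star X * X) ζ‖ := fun ζ => by
    rw [h6]
    exact ((X * r).le_opNorm _).trans (mul_le_mul_of_nonneg_right h5 (norm_nonneg _))
  have e1 : (a * X - X * a) S.ξ = (a * (X * r) - X * r * a) S.ξ + a ((X - X * r) S.ξ) -
      (X - X * r) (a S.ξ) := by
    simp only [sub_apply, mul_apply_eq_comp, map_sub]
    abel
  have h8 := h _ (mul_mem hX hr)
  have h9 := (a.le_opNorm ((X - X * r) S.ξ)).trans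
    (mul_le_mul_of_nonneg_left (h7 _) (norm_nonneg a))
  rw [e1]
  refine (norm_sub_le _ _).trans ((add_le_add (norm_add_le _ _) (h7 _)).trans ?_)
  nlinarith [mul_le_mul_of_nonneg_left h5 he, mul_le_mul_of_nonneg_left h4 hK]

theorem u0_qf {ι : Type*} [Fintype ι] (y : ι → Op H) (ζ : H) :
    l2 (fun i => y i ζ) ^ 2 ≤ ‖ζ‖ * ‖gram y ζ‖ := by
  rw [← qf_gram]
  exact (Complex.re_le_norm _).trans (norm_inner_le_norm _ _)

/-- For `Y = ∑ θ i • y i` and `r = (1 + γ Y* Y)⁻¹` (`exists_res`, `rt` for the one element family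
`√γ • Y`): `‖Y r‖ ≤ 1 / (2 √γ)`, `‖D 1 (Y r)‖ ≤ 9/4 ‖D 1 Y‖`,
`‖(Y - Y r) ζ‖ ≤ √γ / 2 ‖Y* Y ζ‖`. Use `bm` for `Y r` and average the squares over `θ`. -/
theorem SF.u0 (S : SF H) {a : Op H} (ha : a ∈ S.B) (C : ℝ) {ε : ℝ} (hε : 0 < ε) :
    ∃ K, 0 ≤ K ∧ ∀ (ι : Type) [Fintype ι] (y : ι → Op H), (∀ i, y i ∈ S.M) →
      Row y (fun _ => 1) C → ‖gram y S.ξ‖ ≤ C → ‖gram y (a S.ξ)‖ ≤ C →
      l2 (fun i => (a * y i - y i * a) S.ξ) ≤ ε + K * S.Dn y fun _ => 1 := by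
  classical
  obtain ⟨g, hg, hg2⟩ : ∃ g : ℝ, 0 < g ∧ g ^ 2 * (‖a‖ ^ 2 * (2 * C ^ 2 + 4 * C ^ 2 * C) +
      (2 * C ^ 2 + 4 * C ^ 2 * (‖a‖ * C))) ≤ ε ^ 2 / 4 := by
    generalize ‖a‖ ^ 2 * (2 * C ^ 2 + 4 * C ^ 2 * C) + (2 * C ^ 2 + 4 * C ^ 2 * (‖a‖ * C)) = W
    have h1 : 1 ≤ |W| + 1 := by linarith [abs_nonneg W]
    refine ⟨ε / (2 * (|W| + 1)), by positivity, ?_⟩
    calc _ ≤ (ε / (2 * (|W| + 1))) ^ 2 * (|W| + 1) ^ 2 := by
          gcongr
          nlinarith [le_abs_self W]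
      _ = _ := by
        field_simp
        norm_num
  obtain ⟨K, hK, h⟩ := S.bm ha (ε * g / 2) (by positivity)
  refine ⟨9 / 2 * K, by positivity, fun ι _ y hy hrow h1 h2 => ?_⟩
  have hC : 0 ≤ C := (norm_nonneg _).trans h1
  have key : ∀ Y ∈ S.M, ‖(a * Y - Y * a) S.ξ‖ ^ 2 ≤ ε ^ 2 / 4 + (9 / 2 * K) ^ 2 * ‖S.D 1 Y‖ ^ 2 +
      g ^ 2 * (‖a‖ ^ 2 * ‖(star Y * Y) S.ξ‖ ^ 2 + ‖(star Y * Y) (a S.ξ)‖ ^ 2) := by
    intro Y hY
    have h3 := u0_one S (by positivity) hK (SMulMemClass.smul_mem (g : ℂ) hY) h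
    have e1 : a * (g : ℂ) • Y - (g : ℂ) • Y * a = (g : ℂ) • (a * Y - Y * a) := by
      rw [mul_smul_comm, smul_mul_assoc, smul_sub]
    have e2 : star ((g : ℂ) • Y) * (g : ℂ) • Y = (g : ℂ) • (g : ℂ) • (star Y * Y) := by
      rw [star_smul, smul_mul_assoc, mul_smul_comm, Complex.star_def, Complex.conj_ofReal]
    simp only [e1, e2, S.D_smul, smul_apply, norm_smul, Complex.norm_real,
      Real.norm_of_nonneg hg.le] at h3
    have h4 : ‖(a * Y - Y * a) S.ξ‖ ≤ ε / 4 + 9 / 4 * K * ‖S.D 1 Y‖ +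
        g * (‖a‖ * ‖(star Y * Y) S.ξ‖) / 2 + g * ‖(star Y * Y) (a S.ξ)‖ / 2 :=
      le_of_mul_le_mul_left (h3.trans (le_of_eq (by ring))) hg
    refine (pow_le_pow_left₀ (norm_nonneg _) h4 2).trans ?_
    have h5 : ∀ p q r s : ℝ, (p + q + r + s) ^ 2 ≤ 4 * (p ^ 2 + q ^ 2 + r ^ 2 + s ^ 2) :=
      fun p q r s => by
        nlinarith [sq_nonneg (p - q), sq_nonneg (p - r), sq_nonneg (p - s), sq_nonneg (q - r),
          sq_nonneg (q - s), sq_nonneg (r - s)]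
    exact (h5 _ _ _ _).trans (le_of_eq (by ring))
  have h3 := Finset.sum_le_sum fun (θ : ι → ℤˣ) (_ : θ ∈ Finset.univ) =>
    key (∑ i, ((θ i : ℤ) : ℂ) • y i) (sum_mem fun i _ => SMulMemClass.smul_mem _ (hy i))
  have e1 : ∀ θ : ι → ℤˣ, (a * ∑ i, ((θ i : ℤ) : ℂ) • y i - (∑ i, ((θ i : ℤ) : ℂ) • y i) * a) S.ξ =
      ∑ i, ((θ i : ℤ) : ℂ) • (a * y i - y i * a) S.ξ := fun θ => by
    rw [Finset.mul_sum, Finset.sum_mul, ← Finset.sum_sub_distrib, sum_apply]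
    refine Finset.sum_congr rfl fun i _ => ?_
    rw [mul_smul_comm, smul_mul_assoc, ← smul_sub, smul_apply]
  simp only [e1, S.D_sum, S.D_smul, Finset.sum_add_distrib, ← Finset.mul_sum, rand_sq,
    Finset.sum_const, Finset.card_univ, nsmul_eq_mul] at h3
  have hN : (0 : ℝ) < Fintype.card (ι → ℤˣ) := Nat.cast_pos.2 Fintype.card_pos
  have q1 : l2 (fun i => y i S.ξ) ^ 2 ≤ C := by
    have := u0_qf y S.ξ
    rw [S.norm_ξ, one_mul] at this
    exact this.trans h1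
  have q2 : l2 (fun i => y i (a S.ξ)) ^ 2 ≤ ‖a‖ * C := by
    refine (u0_qf y _).trans (mul_le_mul ?_ h2 (norm_nonneg _) (norm_nonneg _))
    simpa only [S.norm_ξ, mul_one] using a.le_opNorm S.ξ
  have r1 := (rand_four y hrow S.ξ).trans (mul_le_mul_of_nonneg_left
    (show _ ≤ 2 * C ^ 2 + 4 * C ^ 2 * C by gcongr) hN.le)
  have r2 := (rand_four y hrow (a S.ξ)).trans (mul_le_mul_of_nonneg_left
    (show _ ≤ 2 * C ^ 2 + 4 * C ^ 2 * (‖a‖ * C) by gcongr) hN.le)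
  have h4 : l2 (fun i => (a * y i - y i * a) S.ξ) ^ 2 ≤
      ε ^ 2 / 2 + (9 / 2 * K * S.Dn y fun _ => 1) ^ 2 := by
    refine le_of_mul_le_mul_left (h3.trans ?_) hN
    have r3 := mul_le_mul_of_nonneg_left (add_le_add
      (mul_le_mul_of_nonneg_left r1 (sq_nonneg ‖a‖)) r2) (sq_nonneg g)
    have r4 := mul_le_mul_of_nonneg_left hg2 hN.le
    unfold SF.Dn
    nlinarith
  have h5 : 0 ≤ 9 / 2 * K * S.Dn y fun _ => 1 := mul_nonneg (by positivity) (l2_nonneg _)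
  refine (pow_le_pow_iff_left₀ (l2_nonneg _) (by positivity) two_ne_zero).1 (h4.trans ?_)
  nlinarith [mul_nonneg hε.le h5]

end Vale.Agent.P132
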