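import Vale.Agent.P132.W
import Vale.Agent.P132.U0

/-! P132: the modular group is ergodic on the bicentralizer. -/

namespace Vale.Agent.P132

open scoped InnerProductSpace BoundedContinuousFunction
open Filter Topology MeasureTheory Vale.Agent.P104

universe u

variable {H : Type u} [NormedAddCommGroup H] [InnerProductSpace ℂ H] [CompleteSpace H]

namespace SF
variable (S : SF H)

theorem b1_split {p : Op H} (hC : p ∈ S.C) (hp : IsStarProjection p) :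
    ‖p S.ξ‖ ^ 2 + ‖(1 - p) S.ξ‖ ^ 2 = 1 := by
  have h := S.qf_split hC hp (one_mem S.M)
  rw [qf_one, qf_one, qf_one, S.norm_ξ] at h
  linarith

theorem b1_pair
    (h1 : ∀ e ∈ S.C, ∀ f ∈ S.C, IsStarProjection e → IsStarProjection f → e ≠ 0 → f ≠ 0 →
      S.Eig 1 e f) {a b h k : Op H} (ha : a ∈ S.C) (hb : b ∈ S.C) (pa : IsStarProjection a)
    (pb : IsStarProjection b) (a0 : a ≠ 0) (b0 : b ≠ 0) (hh : h ∈ S.C) (hk : k ∈ S.C)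
    (sh : IsSelfAdjoint h) (sk : IsSelfAdjoint k) {κ : ℝ} (hκ : 0 ≤ κ)
    (H0 : ∀ x ∈ S.M, a * x = x → x * b = x →
      0 ≤ qf h (x S.ξ) + qf k (S.J (x S.ξ)) + κ * ‖S.D 1 x‖ ^ 2) :
    0 ≤ qf h (a S.ξ) / ‖a S.ξ‖ ^ 2 + qf k (b S.ξ) / ‖b S.ξ‖ ^ 2 := by
  refine not_lt.1 fun hn => ?_
  have hτ := div_pos (neg_pos.2 hn) four_pos
  obtain ⟨e, e1, e2, e3, e4, e5⟩ := S.w_bot ha pa a0 hh sh hτ
  obtain ⟨f, f1, f2, f3, f4, f5⟩ := S.w_bot hb pb b0 hk sk hτ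
  obtain ⟨x, hx, ex, xf, hlt⟩ := S.neg_of_eig e1 f1 e2 f2 (by linarith) hκ e5 f5
    (h1 e e1 f f1 e2 f2 e3 f3)
  refine hlt.not_ge (H0 x hx ?_ ?_)
  · rw [← ex, ← mul_assoc, e4]
  · rw [← xf, mul_assoc, w_flip pb f2 f4]

theorem b1_fam
    (h1 : ∀ e ∈ S.C, ∀ f ∈ S.C, IsStarProjection e → IsStarProjection f → e ≠ 0 → f ≠ 0 →
      S.Eig 1 e f) {p : Op H} (hC : p ∈ S.C) (hp : IsStarProjection p) (p0 : p ≠ 0)
    (hle : ‖p S.ξ‖ ^ 2 ≤ 1 / 2) {ε : ℝ} (hε : 0 < ε) :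
    ∃ (ι : Type) (_ : Fintype ι) (x : ι → Op H), (∀ j, x j ∈ S.M) ∧ (∀ j, p * x j * p = 0) ∧
      S.Bin S.M x ε ∧ S.Dn x (fun _ => 1) ≤ ε := by
  have hs := S.b1_split hC hp
  have qC : 1 - p ∈ S.C := sub_mem (one_mem _) hC
  have n1 : 0 < ‖p S.ξ‖ ^ 2 := sq_pos_of_pos (norm_pos_iff.2 fun h => p0 (S.sep (S.w_C_le hC) h))
  have n2 : 0 < ‖(1 - p) S.ξ‖ ^ 2 := by linarith
  have q0 : 1 - p ≠ 0 := fun h => by simp [h] at n2
  obtain ⟨ι, _, x, m, hx, hB, hD, -⟩ := S.hb' S.M {y | y.1 ∈ S.M ∧ p * y.1 * p = 0 ∧ y.2 = 1}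
    (fun y hy r => ⟨vn_rsmul_mem r hy.1, by rw [mul_smul_comm, smul_mul_assoc, hy.2.1, smul_zero],
      hy.2.2⟩) 0 0
    (fun h hh k hk sh sk κ κ' h0 _ H0 => by
      obtain ⟨h', a1, k', a2, a3, a4, a5, a6, a7⟩ := S.w_avg hh hk sh sk
        (P := fun x => x ∈ S.M ∧ p * x * p = 0) (μ := 1) (κ := κ)
        (fun x hx t => ⟨S.σ_M x hx.1 t, by
          rw [← S.w_σ_left hC, ← S.w_σ_right hC, hx.2, FC.σ, mul_zero, zero_mul]⟩)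
        fun x hx => by simpa using H0 (x, 1) ⟨hx.1, hx.2, rfl⟩
      have l0 : ∀ x : Op H, (1 - p) * x = x → p * x * p = 0 := fun x hx => by
        rw [← hx, ← mul_assoc, hp.isIdempotentElem.mul_one_sub_self, zero_mul, zero_mul]
      have c1 := S.b1_pair h1 hC qC hp hp.one_sub p0 q0 a1 a2 a3 a4 h0 fun x hx _ h2 =>
        a7 x ⟨hx, by rw [← h2, mul_assoc, mul_assoc, hp.isIdempotentElem.one_sub_mul_self,
          mul_zero, mul_zero]⟩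
      have c2 := S.b1_pair h1 qC hC hp.one_sub hp q0 p0 a1 a2 a3 a4 h0 fun x hx h2 _ =>
        a7 x ⟨hx, l0 x h2⟩
      have c3 := S.b1_pair h1 qC qC hp.one_sub hp.one_sub q0 q0 a1 a2 a3 a4 h0 fun x hx h2 _ =>
        a7 x ⟨hx, l0 x h2⟩
      rw [mul_zero, sub_zero, ← a5, ← a6, S.qf_split hC hp (S.w_C_le a1),
        S.qf_split hC hp (S.w_C_le a2), ← div_mul_cancel₀ (qf h' (p S.ξ)) n1.ne',
        ← div_mul_cancel₀ (qf k' (p S.ξ)) n1.ne', ← div_mul_cancel₀ (qf h' ((1 - p) S.ξ)) n2.ne',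
        ← div_mul_cancel₀ (qf k' ((1 - p) S.ξ)) n2.ne']
      have d3 := mul_nonneg c3 (sub_nonneg.2 (show ‖p S.ξ‖ ^ 2 ≤ ‖(1 - p) S.ξ‖ ^ 2 by linarith))
      linarith [mul_nonneg c1 n1.le, mul_nonneg c2 n1.le]) hε
  obtain rfl : m = fun _ => 1 := funext fun j => (hx j).2.2
  exact ⟨ι, inferInstance, x, fun j => (hx j).1, fun j => (hx j).2.1, hB, hD⟩

/-- `hb'` with `N = M`, `X = {(x, 1) | x ∈ M, p x p = 0}`, `T = 0`. With `π = ‖p ξ‖²`,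
`φ h = π α₁ + (1 - π) α₂`, `φ k = π β₁ + (1 - π) β₂` (`avg_pair`, `qf_split`), so
`φ h + φ k = π (α₁ + β₂) + π (α₂ + β₁) + (1 - 2 π) (α₂ + β₂)`; use `bot` twice and `neg_of_eig`.
For the family, `l2 (p x ξ)² ≈ π` (`Near.sq`) and `p (p - ρ p) x ξ = p x ξ`. After `nl`,
`(p - ρ p) y ξ = (p y - y p) ξ` is small by `u0`. -/
theorem proj_eq_zero
    (h1 : ∀ e ∈ S.C, ∀ f ∈ S.C, IsStarProjection e → IsStarProjection f → e ≠ 0 → f ≠ 0 →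
      S.Eig 1 e f) {p : Op H} (hB : p ∈ S.B) (hC : p ∈ S.C) (hp : IsStarProjection p)
    (hle : ‖p S.ξ‖ ^ 2 ≤ 1 / 2) : p = 0 := by
  by_contra p0
  have pM := S.w_C_le hC
  have n1 : 0 < ‖p S.ξ‖ := norm_pos_iff.2 fun h => p0 (S.sep pM h)
  have np : ‖p‖ ≤ 1 := hp.norm_le
  obtain ⟨K, hK, hu⟩ := S.u0 hB 2 (ε := ‖p S.ξ‖ / 4) (by linarith)
  have h0 : 0 < ‖p S.ξ‖ / (4 * (K + 2)) := by positivity
  obtain ⟨ε, hε, hn⟩ := S.nl h0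
  obtain ⟨ι, _, x, xM, xp, hb, hD⟩ := S.b1_fam h1 hC hp p0 hle
    (lt_min hε (half_pos (sq_pos_of_pos n1)))
  obtain ⟨y, yM, b2, b3, b4, b5⟩ := hn S.M (fun _ h => h) ι x (fun _ => 1) xM (fun _ => one_pos)
    ⟨hb.1.mono (fun _ h => h) (min_le_left _ _), hb.2.mono (fun _ h => h) (min_le_left _ _)⟩
    (hD.trans (min_le_left _ _))
  have g1 : ∀ ζ, ‖ζ‖ ≤ 1 → ‖gram y ζ‖ ≤ 2 := fun ζ h => by linarith [w_gram_le b2 ζ, b2 ζ]
  have c1 := hu ι y yM b3 (g1 _ S.norm_ξ.le) (g1 _ (by nlinarith))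
  have c2 : ∀ k, p (x k S.ξ) = p ((p * y k - y k * p) S.ξ
      - (p - S.ρ p) ((y k - x k) S.ξ)) := fun k => by
    have e1 : p (x k (p S.ξ)) = 0 := by rw [← mul_apply_eq_comp, ← mul_apply_eq_comp, xp]; rfl
    have e2 : ∀ ζ, p (p ζ) = p ζ := fun ζ => by rw [← mul_apply_eq_comp, hp.isIdempotentElem.eq]
    simp only [ContinuousLinearMap.sub_apply, mul_apply_eq_comp, map_sub,
      ← S.ρ_comm_apply (xM k) pM, ← S.ρ_comm_apply (yM k) pM, S.ρ_C hC, e1, e2]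
    abel
  have c3 : ‖p - S.ρ p‖ ≤ 2 := by linarith [norm_sub_le p (S.ρ p), S.norm_ρ p]
  have c4 : l2 (fun k => p (x k S.ξ)) ≤ ‖p S.ξ‖ / 2 := by
    simp only [c2]
    refine (l2_op_le _ _).trans ((mul_le_of_le_one_left (l2_nonneg _) np).trans
      ((l2_sub_le _ _).trans ?_))
    have c5 := (l2_op_le _ _).trans (mul_le_mul c3 b5 (l2_nonneg _) zero_le_two)
    have c6 : (K + 2) * (‖p S.ξ‖ / (4 * (K + 2))) = ‖p S.ξ‖ / 4 := by field_simp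
    linarith [mul_le_mul_of_nonneg_left b4 hK]
  have c5 := (abs_le.1 (hb.1.sq pM)).1
  have c6 := mul_le_mul (min_le_right ε (‖p S.ξ‖ ^ 2 / 2)) (pow_le_one₀ (norm_nonneg p) np (n := 2))
    (sq_nonneg _) (by positivity)
  have c7 := pow_le_pow_left₀ (l2_nonneg _) c4 2
  nlinarith [sq_pos_of_pos n1]

/-- `scalar_of_proj` for `inter B (range Δ)` -/
theorem erg_of_eig
    (h1 : ∀ e ∈ S.C, ∀ f ∈ S.C, IsStarProjection e → IsStarProjection f → e ≠ 0 → f ≠ 0 →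
      S.Eig 1 e f) : S.Erg := by
  intro b hb hσ
  have key : ∀ x ∈ S.B, x ∈ inter S.B (Set.range S.Δ) ↔ ∀ t, S.σ t x = x := fun x hx => by
    rw [mem_inter]
    refine ⟨fun h t => (S.σ_eq_iff t x).2 (h.2 _ ⟨t, rfl⟩).1, fun h => ⟨hx, ?_⟩⟩
    rintro _ ⟨t, rfl⟩
    rw [S.star_Δ]
    exact ⟨(S.σ_eq_iff t x).1 (h t), (S.σ_eq_iff _ x).1 (h _)⟩
  refine scalar_of_proj (fun p hp pp => ?_) ((key b hb).2 hσ)
  have pB := (mem_inter.1 hp).1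
  have pC : p ∈ S.C := S.mem_C.2 ⟨S.B_le pB, (key p pB).1 hp⟩
  rcases le_total (‖p S.ξ‖ ^ 2) (1 / 2) with h | h
  · exact Or.inl (S.proj_eq_zero h1 pB pC pp h)
  · exact Or.inr (sub_eq_zero.1 (S.proj_eq_zero h1 (sub_mem (one_mem _) pB)
      (sub_mem (one_mem _) pC) pp.one_sub (by linarith [S.b1_split pC pp]))).symm

end SF

end Vale.Agent.P132
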