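import Vale.Agent.P132.W
import Vale.Agent.P132.U0

/-! P132: the bicentralizer flow, existence. -/

namespace Vale.Agent.P132

open scoped InnerProductSpace BoundedContinuousFunction
open Filter Topology MeasureTheory Vale.Agent.P104

universe u

variable {H : Type u} [NormedAddCommGroup H] [InnerProductSpace ℂ H] [CompleteSpace H]

namespace SF
variable (S : SF H)

include S in
theorem beta_nonneg {ι : Type*} [Fintype ι] {x : ι → Op H} {C : ℝ} (h : Col x C) : 0 ≤ C := by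
  have h1 := (l2_nonneg _).trans (h S.ξ)
  rwa [S.norm_ξ, mul_one] at h1

omit [CompleteSpace H] in
theorem beta_col {ι : Type*} [Fintype ι] {x : ι → Op H} {C : ℝ} (h : Col x C) (hC : 0 ≤ C)
    (b c : Op H) : Col (fun k => b * x k - x k * c) (‖b‖ * C + C * ‖c‖) :=
  (h.mul_left b).sub (h.mul_right hC c)

/-- `u0` with a constant which only depends on the column bound -/
theorem beta_u0 {b : Op H} (hb : b ∈ S.B) (C : ℝ) {ε : ℝ} (hε : 0 < ε) :
    ∃ K, 0 ≤ K ∧ ∀ (ι : Type) [Fintype ι] (y : ι → Op H), (∀ i, y i ∈ S.M) → Col y C →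
      Row y (fun _ => 1) C →
      l2 (fun i => (b * y i - y i * b) S.ξ) ≤ ε + K * S.Dn y fun _ => 1 := by
  obtain ⟨K, hK, h⟩ := S.u0 hb (C + C ^ 2 * (1 + ‖b S.ξ‖)) hε
  refine ⟨K, hK, fun ι _ y hy hc hr => ?_⟩
  have hC := S.beta_nonneg hc
  have h1 : ∀ ζ, ‖gram y ζ‖ ≤ C ^ 2 * ‖ζ‖ := fun ζ =>
    (gram y).le_of_opNorm_le (hc.norm_gram hC) ζ
  have h2 : 0 ≤ C ^ 2 * ‖b S.ξ‖ := by positivity
  have h3 := h1 S.ξ
  rw [S.norm_ξ] at h3
  exact h ι y hy (Col.mono hr (by linarith [sq_nonneg C])) (by linarith)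
    (by linarith [h1 (b S.ξ), sq_nonneg C])

theorem beta_est {μ ε C : ℝ} {b : Op H} (hb : b ∈ S.M) {ι κ : Type*} [Fintype ι] [Fintype κ]
    {x : ι → Op H} {y : κ → Op H} (hx : ∀ k, x k ∈ S.M) (hc : Col x C) (hy : S.Good μ ε y) :
    l2 (fun k => (b * x k - x k * ∑ j, star (y j) * b * y j) S.ξ) ≤
      l2 (fun p : ι × κ => (b * (x p.1 * μ • star (y p.2)) - x p.1 * μ • star (y p.2) * b) S.ξ)
        + 2 * ‖b‖ * C * ε + ‖b‖ * C * ‖gram y S.ξ - S.ξ‖ := by
  have hC := S.beta_nonneg hc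
  have h1 : ∀ k, (b * x k - x k * ∑ j, star (y j) * b * y j) S.ξ =
      ∑ j, star (S.ρ (star (y j)))
        ((b * (x k * μ • star (y j)) - x k * μ • star (y j) * b) S.ξ)
      + ((b * x k) (∑ j, star (y j) (S.D μ (y j))) - x k (∑ j, star (y j) (b (S.D μ (y j)))))
      - (b * x k) (gram y S.ξ - S.ξ) := fun k => by
    have h2 : ∀ j, star (S.ρ (star (y j)))
        ((b * (x k * μ • star (y j)) - x k * μ • star (y j) * b) S.ξ) =
        (b * x k) (star (y j) (μ • S.ρ (y j) S.ξ)) - x k (star (y j) (b (μ • S.ρ (y j) S.ξ))) :=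
      fun j => by
        have h3 := mul_mem (hx k) (vn_rsmul_mem μ (star_mem (hy.mem j)))
        rw [S.star_ρ, star_star,
          ← S.ρ_comm_apply (sub_mem (mul_mem hb h3) (mul_mem h3 hb)) (hy.mem j)]
        simp
    simp only [h2]
    simp only [D, gram, ContinuousLinearMap.sub_apply, mul_apply_eq_comp, map_sub, map_sum,
      ContinuousLinearMap.sum_apply, Finset.sum_sub_distrib]
    abel
  have h4 : l2 (fun j => S.D μ (y j)) ≤ ε := hy.dn
  have h5 := (hy.col.sum_star zero_le_one fun j => S.D μ (y j)).trans_eq (one_mul _)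
  have h6 := ((hy.col.sum_star zero_le_one fun j => b (S.D μ (y j))).trans_eq (one_mul _)).trans
    ((l2_op_le b _).trans (mul_le_mul_of_nonneg_left h4 (norm_nonneg b)))
  simp only [h1]
  refine (l2_sub_le _ _).trans (add_le_add ((l2_add_le _ _).trans (add_le_add ?_
    ((l2_sub_le _ _).trans ?_))) (hc.mul_left b _))
  · rw [l2_prod]
    refine l2_mono fun k => ?_
    rw [Real.norm_of_nonneg (l2_nonneg _)]
    exact ((S.col_ρ hy.col).sum_star zero_le_one _).trans_eq (one_mul _)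
  · refine (add_le_add (hc.mul_left b _) (hc _)).trans ?_
    linarith [mul_le_mul_of_nonneg_left (h5.trans h4) (mul_nonneg (norm_nonneg b) hC),
      mul_le_mul_of_nonneg_left h6 hC]

theorem beta_step {μ : ℝ} (hμ : 0 < μ) {b : Op H} (hb : b ∈ S.B) (C : ℝ) {ε : ℝ} (hε : 0 < ε) :
    ∃ K, 0 ≤ K ∧ ∀ (ε' : ℝ) (κ ι : Type) [Fintype κ] [Fintype ι] (x : κ → Op H) (y : ι → Op H),
      (∀ k, x k ∈ S.M) → Col x C → Row x (fun _ => μ) C → S.Good μ ε' y →
      l2 (fun k => (b * x k - x k * ∑ j, star (y j) * b * y j) S.ξ) ≤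
        ε + K * S.Dn x (fun _ => μ) +
          ((K * C + 2 * ‖b‖ * C) * ε' + ‖b‖ * C * ‖gram y S.ξ - S.ξ‖) := by
  obtain ⟨K, hK, hu⟩ := S.beta_u0 hb (C * 2) hε
  refine ⟨K, hK, fun ε' κ ι _ _ x y hx cx rx hy => ?_⟩
  have hC := S.beta_nonneg cx
  have r1 : Row (fun j => μ • star (y j)) (fun _ => μ⁻¹) 1 := by
    simpa only [Row, star_smul, star_star, smul_smul, star_trivial, inv_mul_cancel₀ hμ.ne',
      one_smul] using hy.col
  have ym : ∀ j, μ • star (y j) ∈ S.M := fun j => vn_rsmul_mem μ (star_mem (hy.mem j))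
  have r2 := rx.prod r1 zero_le_one
  have r3 := S.Dn_prod (μ := μ) hx ym cx r1 hC zero_le_one
  rw [mul_inv_cancel₀ hμ.ne'] at r2 r3
  rw [S.Dn_flip (μ := fun _ => μ) fun _ => hμ] at r3
  have r0 : Col (fun j => μ • star (y j)) 2 := hy.row
  have r7 := cx.prod r0 hC
  have r8 := Col.mono r2 (show C * 1 ≤ C * 2 by linarith only [hC])
  have r4 := hu (κ × ι) (fun p => x p.1 * μ • star (y p.2)) (fun p => mul_mem (hx p.1) (ym p.2))
    r7 r8
  have r5 := mul_le_mul_of_nonneg_left r3 hK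
  have r6 := mul_le_mul_of_nonneg_left hy.dn (mul_nonneg hK hC)
  linarith only [S.beta_est (S.B_le hb) hx cx hy, r4, r5, r6]

/-- Choose good families `y n` for `(μ, 1 / (n + 1))`; let `c` be a weak ultralimit of
`c n = ∑ (y n j)* b (y n j)`. For a family `x` put `q (k, j) = μ • x k * (y n j)*`: `Col q (2 C)`,
`Row q 1 C`, `Dn q 1 ≤ C Dn (y n) + Dn x` (`Dn_prod`, `D_star`), so `u0` applies. With
`y ξ = μ ρ y ξ + D μ y`:
`b (x k) (G n) ξ - (x k) (c n) ξ = ∑ j, ρ (y j) ([b, q (k, j)] ξ) + ∑ j, [b, x k (y j)*] (D μ (y j))`.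
Pass to the limit with `l2_le_of_weak` and `good_gram`. -/
theorem exists_itw (hW : S.HasW) {μ : ℝ} (hμ : 0 < μ) {b : Op H} (hb : b ∈ S.B) :
    ∃ c, S.Itw μ b c := by
  have bM := S.B_le hb
  choose ι fin y hy using fun n : ℕ => hW μ (1 / ((n : ℝ) + 1)) hμ Nat.one_div_pos_of_nat
  have t1 : Tendsto (fun n : ℕ => 1 / ((n : ℝ) + 1)) atTop (𝓝 0) :=
    tendsto_one_div_add_atTop_nhds_zero_nat
  have t2 : Tendsto (fun n : ℕ => ‖gram (y n) S.ξ - S.ξ‖) atTop (𝓝 0) := by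
    refine squeeze_zero (fun _ => norm_nonneg _)
      (fun n => Real.le_sqrt_of_sq_le (S.w_gram_ξ (hy n))) ?_
    simpa using t1.sqrt
  have hc : ∀ n, ∑ j, star (y n j) * b * y n j ∈ S.M := fun n =>
    sum_mem fun j _ => mul_mem (mul_mem (star_mem ((hy n).mem j)) bM) ((hy n).mem j)
  obtain ⟨c, -, hl⟩ := exists_wot_lim (hyperfilter ℕ) (fun n => ∑ j, star (y n j) * b * y n j) ‖b‖
    fun n => ContinuousLinearMap.opNorm_le_bound _ (norm_nonneg b) fun ζ => by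
      rw [ContinuousLinearMap.sum_apply]
      refine (((hy n).col.sum_star zero_le_one fun j => b (y n j ζ)).trans_eq (one_mul _)).trans
        ((l2_op_le b _).trans (mul_le_mul_of_nonneg_left ?_ (norm_nonneg b)))
      exact ((hy n).col ζ).trans_eq (one_mul _)
  refine ⟨c, (mem_iff_comm _).2 fun s hs => ?_, fun C ε hε => ?_⟩
  · ext ζ
    refine ext_inner_left ℂ fun η => tendsto_nhds_unique ?_ (hl (s ζ) η)
    rw [mul_apply_eq_comp, ← inner_star_left]
    refine (hl ζ _).congr fun n => ?_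
    rw [inner_star_left, ← mul_apply_eq_comp, comm_of_mem hs (hc n), mul_apply_eq_comp]
  obtain ⟨K, hK, hu⟩ := S.beta_step hμ hb C (half_pos hε)
  refine ⟨K, hK, fun κ _ x hx cx rx => ?_⟩
  refine l2_le_of_weak (l := hyperfilter ℕ)
    (v := fun n k => (b * x k - x k * ∑ j, star (y n j) * b * y n j) S.ξ) (fun k η => ?_) ?_
  · simp only [ContinuousLinearMap.sub_apply, inner_sub_right, mul_apply_eq_comp (x k),
      ← inner_star_left (x k)]
    exact tendsto_const_nhds.sub (hl _ _)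
  have t3 := ((t1.const_mul (K * C + 2 * ‖b‖ * C)).add (t2.const_mul (‖b‖ * C))).eventually
    (gt_mem_nhds (show _ < ε / 2 by simpa using hε))
  refine (t3.mono fun n hn => ?_).filter_mono (Nat.cofinite_eq_atTop ▸ hyperfilter_le_cofinite)
  linarith [hu _ κ (ι n) x (y n) hx cx rx (hy n)]

/-- `ua` for the family `b x - x c` -/
theorem Itw.approx {μ : ℝ} {b c : Op H} (h : S.Itw μ b c) (hb : b ∈ S.M) (ζ : H) {C δ : ℝ}
    (hC : 0 ≤ C) (hδ : 0 < δ) : ∃ ε₀ > 0, ∀ (ι : Type) [Fintype ι] (x : ι → Op H),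
      (∀ k, x k ∈ S.M) → Col x C → Row x (fun _ => μ) C → S.Dn x (fun _ => μ) ≤ ε₀ →
        l2 (fun k => (b * x k - x k * c) ζ) ≤ δ := by
  have h0 : 0 ≤ ‖b‖ * C + C * ‖c‖ := by positivity
  obtain ⟨K, hK, hu⟩ := S.ua ζ (ε := δ / (3 * (‖b‖ * C + C * ‖c‖ + 1))) (by positivity)
  obtain ⟨K', hK', h'⟩ := h.2 C (δ / (3 * (K + 1))) (by positivity)
  refine ⟨δ / (3 * (K * K' + 1)), by positivity, fun ι _ x hx cx rx dx => ?_⟩
  have h1 := hu ι _ _ h0 (fun k => sub_mem (mul_mem hb (hx k)) (mul_mem (hx k) h.1))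
    (beta_col cx hC b c)
  have h2 := mul_le_mul_of_nonneg_left (h' ι x hx cx rx) hK
  have h3 := mul_le_mul_of_nonneg_left dx (mul_nonneg hK hK')
  have h4 : ∀ A : ℝ, 0 ≤ A → A * (δ / (3 * (A + 1))) ≤ δ / 3 := fun A hA => by
    rw [← mul_div_assoc, div_le_div_iff₀ (by positivity) three_pos]
    linarith
  linarith [h4 _ h0, h4 _ hK, h4 _ (mul_nonneg hK hK')]

/-- a vector killed by good families is zero -/
theorem eq_zero_of_good (hW : S.HasW) {μ : ℝ} (hμ : 0 < μ) {ζ : H}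
    (h : ∀ δ > 0, ∃ ε₀ > 0, ∀ (ε : ℝ) (ι : Type) [Fintype ι] (x : ι → Op H), ε ≤ ε₀ →
      S.Good μ ε x → l2 (fun k => x k ζ) ≤ δ) : ζ = 0 := by
  refine norm_le_zero_iff.1 (le_of_forall_pos_le_add fun δ hδ => ?_)
  obtain ⟨ε₀, h0, h1⟩ := h _ (half_pos hδ)
  obtain ⟨ε₁, h2, h3⟩ := S.good_gram ζ (half_pos hδ)
  obtain ⟨ι, _, x, hx⟩ := hW μ _ hμ (lt_min h0 h2)
  linarith [h1 _ ι x (min_le_left _ _) hx, (h3 _ _ ι x (min_le_right _ _) hx).2]

end SF

end Vale.Agent.P132
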