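import Vale.Agent.P132.Beta

/-! P132: the bicentralizer flow, properties. -/

namespace Vale.Agent.P132

open scoped InnerProductSpace BoundedContinuousFunction
open Filter Topology MeasureTheory Vale.Agent.P104

universe u

variable {H : Type u} [NormedAddCommGroup H] [InnerProductSpace ℂ H] [CompleteSpace H]

namespace SF
variable {S : SF H} {μ ν : ℝ} {b c b' c' : Op H}

theorem Itw.good (h : S.Itw μ b c) (hb : b ∈ S.M) (ζ : H) {δ : ℝ} (hδ : 0 < δ) :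
    ∃ ε₀ > 0, ∀ (ε : ℝ) (ι : Type) [Fintype ι] (x : ι → Op H), ε ≤ ε₀ → S.Good μ ε x →
      l2 (fun k => (b * x k - x k * c) ζ) ≤ δ := by
  obtain ⟨ε₀, h0, h1⟩ := h.approx S hb ζ zero_le_two hδ
  exact ⟨ε₀, h0, fun ε ι _ x hε hx =>
    h1 ι x hx.mem (hx.col.mono one_le_two) hx.row (hx.dn.trans hε)⟩

omit [CompleteSpace H] in
theorem beta2_diff {ι : Type*} [Fintype ι] (x : ι → Op H) (b c c' : Op H) (ζ : H) :
    l2 (fun k => x k (c ζ - c' ζ)) ≤
      l2 (fun k => (b * x k - x k * c') ζ) + l2 fun k => (b * x k - x k * c) ζ := by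
  refine le_trans (le_of_eq (congrArg l2 (funext fun k => ?_))) (l2_sub_le _ _)
  simp

theorem Itw.unique (hW : S.HasW) (hμ : 0 < μ) (hb : b ∈ S.M) (h : S.Itw μ b c)
    (h' : S.Itw μ b c') : c = c' := by
  refine S.ext_ξ h.1 h'.1 (sub_eq_zero.1 (S.eq_zero_of_good hW hμ fun δ hδ => ?_))
  obtain ⟨ε₁, a1, a2⟩ := h.good hb S.ξ (half_pos hδ)
  obtain ⟨ε₂, a3, a4⟩ := h'.good hb S.ξ (half_pos hδ)
  refine ⟨min ε₁ ε₂, lt_min a1 a3, fun ε ι _ x hε hx => (beta2_diff x b c c' _).trans ?_⟩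
  linarith [a2 ε ι x (hε.trans (min_le_left _ _)) hx, a4 ε ι x (hε.trans (min_le_right _ _)) hx]

theorem Itw.add (h : S.Itw μ b c) (h' : S.Itw μ b' c') : S.Itw μ (b + b') (c + c') := by
  refine ⟨add_mem h.1 h'.1, fun C ε hε => ?_⟩
  obtain ⟨K, a1, a2⟩ := h.2 C _ (half_pos hε)
  obtain ⟨K', a3, a4⟩ := h'.2 C _ (half_pos hε)
  refine ⟨K + K', add_nonneg a1 a3, fun ι _ x hx cx rx => ?_⟩
  have h1 : ∀ k, ((b + b') * x k - x k * (c + c')) S.ξ =
      (b * x k - x k * c) S.ξ + (b' * x k - x k * c') S.ξ := fun k => by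
    rw [add_mul, mul_add, add_sub_add_comm, ContinuousLinearMap.add_apply]
  simp only [h1]
  linarith [l2_add_le (fun k => (b * x k - x k * c) S.ξ) fun k => (b' * x k - x k * c') S.ξ,
    a2 ι x hx cx rx, a4 ι x hx cx rx]

theorem Itw.smul (h : S.Itw μ b c) (a : ℂ) : S.Itw μ (a • b) (a • c) := by
  refine ⟨SMulMemClass.smul_mem a h.1, fun C ε hε => ?_⟩
  have h0 : 0 < ε / (‖a‖ + 1) := by positivity
  obtain ⟨K, a1, a2⟩ := h.2 C _ h0
  refine ⟨‖a‖ * K, by positivity, fun ι _ x hx cx rx => ?_⟩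
  refine (l2_le_mul (w := fun k => (b * x k - x k * c) S.ξ) (norm_nonneg a) fun k => ?_).trans ?_
  · rw [smul_mul_assoc, mul_smul_comm, ← smul_sub, ContinuousLinearMap.smul_apply, norm_smul]
  · have h1 : (‖a‖ + 1) * (ε / (‖a‖ + 1)) = ε := by field_simp
    linarith [mul_le_mul_of_nonneg_left (a2 ι x hx cx rx) (norm_nonneg a)]

theorem beta2_col_σ {ι : Type*} [Fintype ι] {x : ι → Op H} {C : ℝ} (h : Col x C) (t : ℝ) :
    Col (fun k => S.σ t (x k)) C := fun ζ => by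
  have h1 := h (S.Δ (-t) ζ)
  rw [S.norm_Δ] at h1
  exact (l2_congr fun k => S.norm_Δ _ _).trans_le h1

theorem Itw.σ (h : S.Itw μ b c) (t : ℝ) : S.Itw μ (S.σ t b) (S.σ t c) := by
  refine ⟨S.σ_M c h.1 t, fun C ε hε => ?_⟩
  obtain ⟨K, a1, a2⟩ := h.2 C ε hε
  refine ⟨K, a1, fun ι _ x hx cx rx => ?_⟩
  have r1 : Row (fun k => S.σ (-t) (x k)) (fun _ => μ) C := by
    have r2 := beta2_col_σ (S := S) rx (-t)
    simp only [FC.σ, mul_smul_comm, smul_mul_assoc] at r2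
    simp only [Row, ← S.σ_star]
    exact r2
  have h1 := a2 ι _ (fun k => S.σ_M _ (hx k) (-t)) (beta2_col_σ cx (-t)) r1
  have h2 : S.Dn (fun k => S.σ (-t) (x k)) (fun _ => μ) = S.Dn x fun _ => μ :=
    l2_congr fun k => by rw [S.D_σ, S.norm_Δ]
  rw [h2] at h1
  refine (l2_congr fun k => ?_).trans_le h1
  rw [← S.norm_Δ t ((b * _ - _ * c) S.ξ), ← S.σ_ξ, S.σ_sub, S.σ_mul, S.σ_mul, S.σ_σ,
    add_neg_cancel, S.σ_zero]

/-- `u0` -/
theorem itw_one (hb : b ∈ S.B) : S.Itw 1 b b := by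
  exact ⟨S.B_le hb, fun C ε hε => S.beta_u0 hb C hε⟩

/-- `l2 (y c ξ) ≈ ‖c ξ‖` (`good_gram`) and `l2 (b y ξ) ≈ ‖b ξ‖` (`Near.sq`) -/
theorem Itw.norm_eq (hW : S.HasW) (hμ : 0 < μ) (hb : b ∈ S.M) (h : S.Itw μ b c) :
    ‖c S.ξ‖ = ‖b S.ξ‖ := by
  refine eq_of_forall_dist_le fun δ hδ => ?_
  have h0 : 0 < δ / 3 := by linarith
  have h1 : 0 < (δ / 3) ^ 2 / (‖b‖ ^ 2 + 1) := by positivity
  obtain ⟨ε₁, a1, a2⟩ := h.good hb S.ξ h0
  obtain ⟨ε₂, a3, a4⟩ := S.good_gram (c S.ξ) h0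
  obtain ⟨ι, _, x, hx⟩ := hW μ _ hμ (lt_min (lt_min a1 a3) h1)
  have b1 := a2 _ ι x ((min_le_left _ _).trans (min_le_left _ _)) hx
  have b2 := (a4 _ _ ι x ((min_le_left _ _).trans (min_le_right _ _)) hx).2
  have b3 := hx.col (c S.ξ)
  have b4 := (hx.bin.1.sq hb).trans (mul_le_mul_of_nonneg_right (min_le_right _ _) (sq_nonneg _))
  have b5 : (δ / 3) ^ 2 / (‖b‖ ^ 2 + 1) * (‖b‖ ^ 2 + 1) = (δ / 3) ^ 2 := by field_simp
  have b6 := l2_le_add_sub (fun k => b (x k S.ξ)) fun k => x k (c S.ξ)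
  have b7 := l2_le_add_sub (fun k => x k (c S.ξ)) fun k => b (x k S.ξ)
  rw [l2_congr (v := fun k => x k (c S.ξ) - b (x k S.ξ)) fun k => norm_sub_rev _ _] at b7
  have b8 : l2 (fun k => b (x k S.ξ) - x k (c S.ξ)) ≤ δ / 3 := b1
  obtain ⟨b9, b10⟩ := abs_le.1 b4
  have b11 := l2_nonneg fun k => b (x k S.ξ)
  have c1 : l2 (fun k => b (x k S.ξ)) ≤ ‖b S.ξ‖ + δ / 3 :=
    le_of_sq_le_sq (by linarith [mul_nonneg (norm_nonneg (b S.ξ)) h0.le]) (by positivity)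
  have c2 : ‖b S.ξ‖ ≤ l2 (fun k => b (x k S.ξ)) + δ / 3 :=
    le_of_sq_le_sq (by linarith [mul_nonneg b11 h0.le]) (by positivity)
  rw [Real.dist_eq, abs_le]
  constructor <;> linarith

theorem beta2_comm {K ε ε' : ℝ} (hb : b ∈ S.M) (hc : c ∈ S.M) (hK : 0 ≤ K) {ι : Type} [Fintype ι]
    (h : ∀ x : ι → Op H, (∀ k, x k ∈ S.M) → Col x 2 → Row x (fun _ => μ) 2 →
      l2 (fun k => (b * x k - x k * c) S.ξ) ≤ ε + K * S.Dn x fun _ => μ)
    {y : ι → Op H} (hy : S.Good μ ε' y) {w : Op H} (hw : w ∈ S.M) (h1 : ‖w‖ ≤ 1) :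
    l2 (fun k => y k ((c * w - w * c) S.ξ)) ≤
      2 * ε + 2 * K * ε' + (K + ‖b‖ + ‖c‖) * ‖S.D 1 w‖ := by
  have hρ : ‖S.ρ w‖ ≤ 1 := (S.norm_ρ w).trans_le h1
  have r0 : Col (fun k => μ • star (y k)) 2 := hy.row
  have r1 : Row (fun k => y k * w) (fun _ => μ) 2 := by
    have r2 := (r0.mul_left (star w)).mono (C' := 2) (by rw [norm_star]; linarith)
    simpa only [Row, star_mul, mul_smul_comm] using r2
  have r2 : S.Dn (fun k => y k * w) (fun _ => μ) ≤ ‖S.D 1 w‖ + ε' := by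
    have r3 : ∀ k, S.D μ (y k * w) = y k (S.D 1 w) + S.ρ w (S.D μ (y k)) := fun k => by
      have r4 := S.D_mul (hy.mem k) hw μ 1
      rwa [mul_one, one_smul] at r4
    simp only [Dn, r3]
    exact (l2_add_le _ _).trans (add_le_add ((hy.col _).trans_eq (one_mul _))
      ((l2_op_le _ _).trans ((mul_le_of_le_one_left (l2_nonneg _) hρ).trans hy.dn)))
  have a1 := h _ (fun k => mul_mem (hy.mem k) hw)
    ((hy.col.mul_right zero_le_one w).mono (by linarith)) r1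
  have a2 := h y hy.mem (hy.col.mono one_le_two) hy.row
  have a3 : ∀ k, y k ((c * w - w * c) S.ξ) = (b * (y k * w) - y k * w * c) S.ξ -
      (S.ρ w ((b * y k - y k * c) S.ξ) + (b * y k - y k * c) (S.D 1 w)) := fun k => by
    rw [← S.ρ_comm_apply (sub_mem (mul_mem hb (hy.mem k)) (mul_mem (hy.mem k) hc)) hw, D, one_smul,
      ← map_add, add_sub_cancel]
    simp
  have a4 := beta_col hy.col zero_le_one b c (S.D 1 w)
  have a5 := (l2_op_le (S.ρ w) fun k => (b * y k - y k * c) S.ξ).trans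
    (mul_le_of_le_one_left (l2_nonneg _) hρ)
  simp only [a3]
  refine (l2_sub_le _ _).trans ((add_le_add_right (l2_add_le _ _) _).trans ?_)
  linarith [mul_le_mul_of_nonneg_left r2 hK, mul_le_mul_of_nonneg_left hy.dn hK]

/-- for `‖w‖ ≤ 1` use the families `y j * w` and `y j`, and `w ξ = ρ w ξ + D 1 w` -/
theorem Itw.mem_B (hW : S.HasW) (hμ : 0 < μ) (hb : b ∈ S.M) (h : S.Itw μ b c) : c ∈ S.B := by
  refine S.mem_B_of_seq h.1 fun w hw h1 hD => Metric.tendsto_nhds.2 fun ε hε => ?_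
  have h0 : 0 < ε / 6 := by linarith
  obtain ⟨K, hK, a1⟩ := h.2 2 _ h0
  have t1 := (hD.norm.const_mul (K + ‖b‖ + ‖c‖)).eventually
    (gt_mem_nhds (show _ < ε / 6 by simpa using hε))
  refine t1.mono fun n hn => ?_
  obtain ⟨ε₁, a2, a3⟩ := S.good_gram ((c * w n - w n * c) S.ξ) h0
  have h2 : 0 < ε / 6 / (K + 1) := by positivity
  obtain ⟨ι, _, y, hy⟩ := hW μ _ hμ (lt_min a2 h2)
  have a4 := (a3 _ _ ι y (min_le_left _ _) hy).2
  have a5 := beta2_comm hb h.1 hK (a1 ι) hy (hw n) (h1 n)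
  have a6 : (K + 1) * (ε / 6 / (K + 1)) = ε / 6 := by field_simp
  rw [dist_zero_right]
  linarith [mul_le_mul_of_nonneg_left (min_le_right ε₁ (ε / 6 / (K + 1))) hK]

/-- `good_gram` for a finite family of vectors -/
theorem beta2_gram {κ : Type*} [Fintype κ] (v : κ → H) {δ : ℝ} (hδ : 0 < δ) :
    ∃ ε₀ > 0, ∀ (μ ε : ℝ) (ι : Type) [Fintype ι] (x : ι → Op H), ε ≤ ε₀ → S.Good μ ε x →
      l2 v ≤ l2 (fun p : ι × κ => x p.1 (v p.2)) + δ := by
  have h0 : 0 < δ / (Fintype.card κ + 1) := by positivity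
  choose f h1 h2 using fun j => S.good_gram (v j) h0
  obtain ⟨ε₀, h3, h4⟩ := ((eventually_all.2 fun j => Ioc_mem_nhdsGT (h1 j)).and
    (self_mem_nhdsWithin (a := (0 : ℝ)) (s := Set.Ioi 0))).exists
  refine ⟨ε₀, h4, fun μ ε ι _ x hε hx => ?_⟩
  rw [l2_prod']
  refine (l2_mono (w := fun j => l2 (fun k => x k (v j)) + δ / (Fintype.card κ + 1))
    fun j => (h2 j μ ε ι x (hε.trans (h3 j).2) hx).2.trans (le_abs_self _)).trans
    ((l2_add_le _ _).trans (add_le_add_right ((l2_le_iff hδ.le).2 ?_) _))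
  rw [Finset.sum_const, Finset.card_univ, nsmul_eq_mul, Real.norm_of_nonneg h0.le, div_pow,
    ← mul_div_assoc, div_le_iff₀ (by positivity), mul_comm]
  refine mul_le_mul_of_nonneg_left ?_ (sq_nonneg δ)
  nlinarith [Nat.cast_nonneg (α := ℝ) (Fintype.card κ)]

theorem beta2_prod {ε ε' : ℝ} (hb : b ∈ S.M) (hc : c ∈ S.M) (d d' : Op H) {ι κ : Type*}
    [Fintype ι] [Fintype κ] {x : ι → Op H} {y : κ → Op H} (hx : S.Good μ ε x) (hy : S.Good ν ε' y) :
    l2 (fun p : ι × κ => x p.1 (y p.2 (d S.ξ - d' S.ξ))) ≤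
      l2 (fun p : ι × κ => (b * (x p.1 * y p.2) - x p.1 * y p.2 * d') S.ξ) +
        (2 * l2 (fun k => (b * x k - x k * c) S.ξ) + (‖b‖ + ‖c‖) * ε' +
          l2 fun j => (c * y j - y j * d) S.ξ) := by
  have a1 : ∀ p : ι × κ, x p.1 (y p.2 (d S.ξ - d' S.ξ)) =
      (b * (x p.1 * y p.2) - x p.1 * y p.2 * d') S.ξ -
        ((ν • S.ρ (y p.2)) ((b * x p.1 - x p.1 * c) S.ξ) + (b * x p.1 - x p.1 * c) (S.D ν (y p.2))
          + x p.1 ((c * y p.2 - y p.2 * d) S.ξ)) := fun p => by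
    rw [ContinuousLinearMap.smul_apply, ← S.ρ_comm_apply
      (sub_mem (mul_mem hb (hx.mem _)) (mul_mem (hx.mem _) hc)) (hy.mem _), D,
      ← ContinuousLinearMap.map_smul_of_tower, ← map_add, add_sub_cancel]
    simp
  have a0 : Col (fun j => ν • S.ρ (y j)) 2 := S.row_ρ hy.row
  have a2 : l2 (fun p : ι × κ => (ν • S.ρ (y p.2)) ((b * x p.1 - x p.1 * c) S.ξ)) ≤
      2 * l2 fun k => (b * x k - x k * c) S.ξ := by
    rw [l2_prod]
    refine l2_le_mul zero_le_two fun k => ?_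
    rw [Real.norm_of_nonneg (l2_nonneg _)]
    exact a0 ((b * x k - x k * c) S.ξ)
  have a3 := (beta_col hx.col zero_le_one b c).l2_prod (by positivity) fun j => S.D ν (y j)
  have a4 := hx.col.l2_prod zero_le_one fun j => (c * y j - y j * d) S.ξ
  have a5 : l2 (fun j => S.D ν (y j)) ≤ ε' := hy.dn
  have a6 := mul_le_mul_of_nonneg_left a5 (add_nonneg (norm_nonneg b) (norm_nonneg c))
  simp only [a1]
  refine (l2_sub_le _ _).trans (add_le_add_right ((l2_add_le _ _).trans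
    ((add_le_add_left (l2_add_le _ _) _).trans ?_)) _)
  linarith

/-- use the product of good families for `μ` and `ν`; `y' ξ = ν ρ y' ξ + D ν y'` -/
theorem Itw.comp (hW : S.HasW) (hμ : 0 < μ) (hν : 0 < ν) (hb : b ∈ S.M) {d d' : Op H}
    (h : S.Itw μ b c) (h' : S.Itw ν c d) (h'' : S.Itw (μ * ν) b d') : d = d' := by
  refine S.ext_ξ h'.1 h''.1 (sub_eq_zero.1 (norm_le_zero_iff.1
    (le_of_forall_pos_le_add fun δ hδ => ?_)))
  have h0 : 0 < δ / 7 := by linarith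
  have h1 : 0 < δ / 7 / (‖b‖ + ‖c‖ + 1) := by positivity
  obtain ⟨ε₁, a1, b1⟩ := h''.approx S hb S.ξ (C := 4) (by norm_num) h0
  obtain ⟨ε₂, a2, b2⟩ := h.good hb S.ξ h0
  obtain ⟨ε₃, a3, b3⟩ := h'.good h.1 S.ξ h0
  obtain ⟨ε₄, a4, b4⟩ := S.good_gram (d S.ξ - d' S.ξ) h0
  have a0 : 0 < ε₁ / 3 := by linarith
  obtain ⟨κ, _, y, hy⟩ := hW ν _ hν (lt_min (lt_min a0 h1) (lt_min a3 a4))
  obtain ⟨ε₅, a5, b5⟩ := beta2_gram (S := S) (fun j => y j (d S.ξ - d' S.ξ)) h0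
  obtain ⟨ι, _, x, hx⟩ := hW μ _ hμ (lt_min a0 (lt_min a2 a5))
  have c1 := S.Dn_prod (μ := μ) hx.mem hy.mem hx.col hy.row zero_le_one zero_le_two
  have c2 := hx.dn.trans (min_le_left _ _)
  have c3 := hy.dn.trans ((min_le_left _ _).trans (min_le_left _ _))
  have c4 := (hx.col.prod hy.col zero_le_one).mono (C' := 4) (by norm_num)
  have c5 := Col.mono (hx.row.prod hy.row zero_le_two) (C' := 4) (by norm_num)
  have d1 := b1 (ι × κ) (fun p => x p.1 * y p.2) (fun p => mul_mem (hx.mem _) (hy.mem _)) c4 c5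
    (by linarith only [c1, c2, c3])
  have d2 := b2 _ ι x ((min_le_right _ _).trans (min_le_left _ _)) hx
  have d3 := b3 _ κ y ((min_le_right _ _).trans (min_le_left _ _)) hy
  have d4 := (b4 _ _ κ y ((min_le_right _ _).trans (min_le_right _ _)) hy).2
  have d5 := b5 _ _ ι x ((min_le_right _ _).trans (min_le_right _ _)) hx
  have d6 := beta2_prod hb h.1 d d' hx hy
  have d7 := mul_le_mul_of_nonneg_left ((min_le_left _ (min ε₃ ε₄)).trans
    (min_le_right (ε₁ / 3) (δ / 7 / (‖b‖ + ‖c‖ + 1)))) (add_nonneg (norm_nonneg b) (norm_nonneg c))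
  have d8 : (‖b‖ + ‖c‖ + 1) * (δ / 7 / (‖b‖ + ‖c‖ + 1)) = δ / 7 := by field_simp
  linarith only [d1, d2, d3, d4, d5, d6, d7, d8, h1]

omit [CompleteSpace H] in
theorem beta2_col_smul {ι : Type*} [Fintype ι] {x : ι → Op H} {C : ℝ} (h : Col x C) (r : ℝ) :
    Col (fun k => r • x k) (|r| * C) := fun ζ => by
  refine (l2_le_mul (w := fun k => x k ζ) (abs_nonneg r) fun k => ?_).trans ?_
  · rw [ContinuousLinearMap.smul_apply, norm_smul, Real.norm_eq_abs]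
  · rw [mul_assoc]
    exact mul_le_mul_of_nonneg_left (h ζ) (abs_nonneg r)

/-- a good family for `ν` is nearly good for `μ` (`D_sub_D`, `row_ρ`) -/
theorem Itw.cont (hW : S.HasW) (hμ : 0 < μ) (hb : b ∈ S.M) (h : S.Itw μ b c) {ε : ℝ}
    (hε : 0 < ε) : ∃ δ > 0, ∀ ν c', 0 < ν → |ν - μ| ≤ δ → S.Itw ν b c' →
      ‖c' S.ξ - c S.ξ‖ ≤ ε := by
  have h0 : 0 < ε / 3 := by linarith
  obtain ⟨ε₁, a1, b1⟩ := h.approx S hb S.ξ (C := 4) (by norm_num) h0
  refine ⟨min (μ / 2) (μ * ε₁ / 8), lt_min (half_pos hμ) (by positivity),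
    fun ν c' hν hd h' => ?_⟩
  obtain ⟨ε₂, a2, b2⟩ := h'.good hb S.ξ h0
  obtain ⟨ε₃, a3, b3⟩ := S.good_gram (c' S.ξ - c S.ξ) h0
  obtain ⟨ι, _, y, hy⟩ := hW ν _ hν (lt_min (half_pos a1) (lt_min a2 a3))
  have e1 : μ ≤ 2 * ν := by linarith [(abs_le.1 (hd.trans (min_le_left _ _))).1]
  have r0 : Col (fun k => ν • star (y k)) 2 := hy.row
  have r1 : Row y (fun _ => μ) 4 := by
    have r2 := (beta2_col_smul r0 (μ / ν)).mono (C' := 4) (by
      rw [abs_of_pos (div_pos hμ hν)]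
      linarith [(div_le_iff₀ hν).2 e1])
    simp only [smul_smul, div_mul_cancel₀ μ hν.ne'] at r2
    exact r2
  have r2 : S.Dn y (fun _ => μ) ≤ ε₁ := by
    have r3 := beta2_col_smul (S.row_ρ hy.row) ((ν - μ) / ν) S.ξ
    have r4 : |(ν - μ) / ν| ≤ ε₁ / 4 := by
      rw [abs_div, abs_of_pos hν, div_le_iff₀ hν]
      linarith [hd.trans (min_le_right _ _), mul_le_mul_of_nonneg_right e1 a1.le]
    have r5 : l2 (fun k => S.D ν (y k)) ≤ ε₁ / 2 := hy.dn.trans (min_le_left _ _)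
    simp only [smul_smul, div_mul_cancel₀ _ hν.ne', ContinuousLinearMap.smul_apply, ← S.D_sub_D,
      S.norm_ξ] at r3
    refine (l2_le_add_sub _ fun k => S.D ν (y k)).trans ?_
    linarith
  linarith [b1 ι y hy.mem (hy.col.mono (by norm_num)) r1 r2, beta2_diff y b c' c S.ξ,
    b2 _ ι y ((min_le_right _ _).trans (min_le_left _ _)) hy,
    (b3 _ _ ι y ((min_le_right _ _).trans (min_le_right _ _)) hy).2]

theorem beta2_EE (η : H) : S.E (S.E η) = S.E η := by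
  rw [← mul_apply_eq_comp, S.E_proj.isIdempotentElem.eq]

theorem beta2_ind {P : Set H} (hP : IsClosed P) (h : ∀ b ∈ S.B, b S.ξ ∈ P) (η : H) : S.E η ∈ P :=
  closure_minimal (by rintro _ ⟨b, hb, rfl⟩; exact h b hb) hP (S.E_iff.1 (beta2_EE η))

theorem beta2_ext {A A' : Op H} (h : ∀ b ∈ S.B, A (b S.ξ) = A' (b S.ξ)) : A * S.E = A' * S.E :=
  ContinuousLinearMap.ext (beta2_ind (isClosed_eq A.continuous A'.continuous) h)

theorem beta2_extend (hW : S.HasW) (hμ : 0 < μ) :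
    ∃ U : Op H, U * S.E = U ∧ ∀ b ∈ S.B, ∀ c, S.Itw μ b c → U (b S.ξ) = c S.ξ := by
  choose β hβ using fun b : S.B.toStarSubalgebra => S.exists_itw hW hμ b.2
  let j : S.B.toStarSubalgebra →ₗ[ℂ] H :=
    { toFun := fun b => β b S.ξ
      map_add' := fun b b' => by
        rw [(hβ (b + b')).unique hW hμ (S.B_le (b + b').2) ((hβ b).add (hβ b'))]
        rfl
      map_smul' := fun a b => by
        rw [(hβ (a • b)).unique hW hμ (S.B_le (a • b).2) ((hβ b).smul a)]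
        rfl }
  let i : S.B.toStarSubalgebra →ₗ[ℂ] LinearMap.range (S.E : H →ₗ[ℂ] H) :=
    { toFun := fun b => ⟨b.1 S.ξ, b.1 S.ξ, S.E_B b.2⟩
      map_add' := fun _ _ => rfl
      map_smul' := fun _ _ => rfl }
  have hd : DenseRange i := by
    refine Subtype.dense_iff.2 ?_
    rintro _ ⟨η, rfl⟩
    refine beta2_ind isClosed_closure (fun b hb => subset_closure ?_) η
    exact ⟨i ⟨b, hb⟩, ⟨⟨b, hb⟩, rfl⟩, rfl⟩
  have hn : ∀ b, ‖j b‖ ≤ 1 * ‖i b‖ := fun b =>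
    ((hβ b).norm_eq hW hμ (S.B_le b.2)).trans_le (one_mul _).ge
  refine ⟨j.extendOfNorm i ∘L S.E.codRestrict _ fun η => ⟨η, rfl⟩,
    ContinuousLinearMap.ext fun η => congrArg (j.extendOfNorm i) (Subtype.ext (beta2_EE η)),
    fun b hb c hc => ?_⟩
  rw [← (hβ ⟨b, hb⟩).unique hW hμ (S.B_le hb) hc]
  exact (congrArg (j.extendOfNorm i) (Subtype.ext (S.E_B hb))).trans
    (LinearMap.extendOfNorm_eq hd ⟨1, hn⟩ ⟨b, hb⟩)

/-- Extend the isometry `b ξ ↦ c ξ` to the closure (`LinearMap.extendOfNorm` into `H` from the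
closed subspace) and compose with the orthogonal projection. -/
theorem exists_U (hW : S.HasW) : ∃ U : ℝ → Op H, U 0 = S.E ∧ (∀ s t, U (s + t) = U s * U t) ∧
    (∀ t, star (U t) = U (-t)) ∧ (∀ η, Continuous fun t => U t η) ∧
    (∀ t f, U t * S.Θ f = S.Θ f * U t) ∧
    ∀ s, ∀ b ∈ S.B, ∃ c ∈ S.B, S.Itw (Real.exp (-s / 2)) b c ∧ U s (b S.ξ) = c S.ξ := by
  choose U hE hU using fun s : ℝ => beta2_extend hW (Real.exp_pos (-s / 2))
  have hb : ∀ s, ∀ b ∈ S.B, ∃ c ∈ S.B, S.Itw (Real.exp (-s / 2)) b c ∧ U s (b S.ξ) = c S.ξ :=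
    fun s b hb => by
      obtain ⟨c, hc⟩ := S.exists_itw hW (Real.exp_pos (-s / 2)) hb
      exact ⟨c, hc.mem_B hW (Real.exp_pos _) (S.B_le hb), hc, hU s b hb c hc⟩
  have h0 : U 0 = S.E := by
    refine (hE 0).symm.trans ((beta2_ext fun b hb => ?_).trans S.E_proj.isIdempotentElem.eq)
    rw [S.E_B hb, hU 0 b hb b (by simpa using itw_one hb)]
  have h1 : ∀ s t, U (s + t) = U s * U t := fun s t => by
    rw [← hE (s + t), ← hE t, ← mul_assoc]
    refine beta2_ext fun b hB => ?_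
    obtain ⟨c, cB, c1, c2⟩ := hb t b hB
    obtain ⟨d, -, d1, d2⟩ := hb s c cB
    obtain ⟨d', -, e1, e2⟩ := hb (s + t) b hB
    rw [show -(s + t) / 2 = -t / 2 + -s / 2 by ring, Real.exp_add] at e1
    rw [mul_apply_eq_comp, c2, d2, e2,
      c1.comp hW (Real.exp_pos _) (Real.exp_pos _) (S.B_le hB) d1 e1]
  have h2 : ∀ t, S.E * U t = U t := fun t => by
    rw [← hE t, ← mul_assoc]
    refine beta2_ext fun b hB => ?_
    obtain ⟨c, cB, -, c2⟩ := hb t b hB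
    rw [mul_apply_eq_comp, c2, S.E_B cB]
  have h3 : ∀ t η, ‖U t η‖ = ‖S.E η‖ := fun t η => by
    rw [← hE t]
    refine beta2_ind (P := {ζ | ‖U t ζ‖ = ‖ζ‖}) (isClosed_eq (by fun_prop) continuous_norm)
      (fun b hB => ?_) η
    obtain ⟨c, -, c1, c2⟩ := hb t b hB
    exact (congrArg norm c2).trans (c1.norm_eq hW (Real.exp_pos _) (S.B_le hB))
  have h4 : ∀ t, star (U t) * U t = S.E := fun t => by
    have h5 : star S.E * S.E = S.E := by
      rw [S.E_proj.isSelfAdjoint.star_eq, S.E_proj.isIdempotentElem.eq]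
    rw [← h5]
    refine ContinuousLinearMap.coe_injective ((ext_inner_map _ _).1 fun η => ?_)
    simp only [ContinuousLinearMap.coe_coe, mul_apply_eq_comp, inner_star_left,
      inner_self_eq_norm_sq_to_K, h3]
  refine ⟨U, h0, h1, fun t => ?_, fun η => ?_, fun t f => (S.comm_of_Δ (fun r => ?_) f).symm, hb⟩
  · have h5 := congrArg star (h2 t)
    rw [star_mul, S.E_proj.isSelfAdjoint.star_eq, ← h0, ← add_neg_cancel t, h1, ← mul_assoc, h4,
      h2] at h5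
    exact h5.symm
  · refine continuous_of_uniform_approx_of_continuous fun u hu => ?_
    obtain ⟨δ, hδ, hu⟩ := Metric.mem_uniformity_dist.1 hu
    obtain ⟨_, ⟨b, hB, rfl⟩, hd⟩ := Metric.mem_closure_iff.1 (S.E_iff.1 (beta2_EE η)) δ hδ
    refine ⟨fun t => U t (b S.ξ), continuous_iff_continuousAt.2 fun s =>
      Metric.tendsto_nhds.2 fun ε hε => ?_, fun t => hu ?_⟩
    · obtain ⟨c, -, c1, c2⟩ := hb s b hB
      obtain ⟨θ, hθ, c3⟩ := c1.cont hW (Real.exp_pos _) (S.B_le hB) (half_pos hε)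
      have t1 : Continuous fun t : ℝ => Real.exp (-t / 2) := by fun_prop
      refine (Metric.tendsto_nhds.1 (t1.tendsto s) θ hθ).mono fun t ht => ?_
      obtain ⟨c', -, d1, d2⟩ := hb t b hB
      beta_reduce
      rw [d2, c2, dist_eq_norm]
      exact (c3 _ c' (Real.exp_pos _) ht.le d1).trans_lt (half_lt_self hε)
    · rwa [dist_eq_norm, ← map_sub, h3, map_sub, S.E_B hB, ← dist_eq_norm]
  · have h5 : U t * S.Δ r = U t * S.Δ r * S.E := by
      rw [mul_assoc, FC.Δ, ← S.E_Θ, ← mul_assoc, hE]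
    rw [h5, ← hE t, ← mul_assoc, hE t]
    refine beta2_ext fun b hB => ?_
    obtain ⟨c, -, c1, c2⟩ := hb t b hB
    rw [mul_apply_eq_comp, mul_apply_eq_comp, c2, ← S.σ_ξ, ← S.σ_ξ,
      hU t _ (S.σ_B hB r) _ (c1.σ r)]

end SF

end Vale.Agent.P132
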