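import Mathlib

/-! Definitions used in the statement of the P132 result. A functional on the von Neumann algebra
`M` is a function on all bounded operators, of which only the values on `M` matter. -/

namespace Vale.Agent.P132.St

open scoped InnerProductSpace ComplexOrder
open Filter Topology

universe u

section Graph

variable {K : Type u} [NormedAddCommGroup K] [InnerProductSpace ℂ K]

/-- The graph of `S* S`, for the conjugate linear operator `S` with graph `Γ`. -/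
def graphSq (Γ : Set (K × K)) : Set (K × K) :=
  {p | ∃ η, (p.1, η) ∈ Γ ∧ ∀ q ∈ Γ, ⟪q.2, η⟫_ℂ = ⟪p.2, q.1⟫_ℂ}

/-- The spectrum of the operator `D` with graph `Γ`: `D - l` has no bounded inverse. -/
def specOf (Γ : Set (K × K)) : Set ℂ :=
  {l | ¬ ∃ T : K →L[ℂ] K, (∀ ζ, (T ζ, ζ + l • T ζ) ∈ Γ) ∧ ∀ p ∈ Γ, T (p.2 - l • p.1) = p.1}

end Graph

variable {H : Type u} [NormedAddCommGroup H] [InnerProductSpace ℂ H] [CompleteSpace H]

/-- The centre of `M` is trivial. -/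
def IsFactor (M : VonNeumannAlgebra H) : Prop :=
  ∀ x ∈ M, x ∈ M.commutant → ∃ c : ℂ, x = c • (1 : H →L[ℂ] H)

/-- `φ` is in the predual: it is a norm limit on `M` of finite sums of vector functionals. -/
def IsNormal (M : VonNeumannAlgebra H) (φ : (H →L[ℂ] H) → ℂ) : Prop :=
  ∀ ε : ℝ, 0 < ε → ∃ (n : ℕ) (η ζ : Fin n → H),
    ∀ x ∈ M, ‖φ x - ∑ i, ⟪η i, x (ζ i)⟫_ℂ‖ ≤ ε * ‖x‖

/-- Faithful normal state. -/
def IsFNState (M : VonNeumannAlgebra H) (φ : (H →L[ℂ] H) → ℂ) : Prop :=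
  IsNormal M φ ∧ φ 1 = 1 ∧ (∀ x ∈ M, 0 ≤ φ (star x * x)) ∧ ∀ x ∈ M, φ (star x * x) = 0 → x = 0

section Gns

variable {K : Type u} [NormedAddCommGroup K] [InnerProductSpace ℂ K]

/-- `Λ : M → K` is the GNS map of the state `ψ`. -/
def IsGNS (M : VonNeumannAlgebra H) (ψ : (H →L[ℂ] H) → ℂ) (Λ : (H →L[ℂ] H) → K) : Prop :=
  Dense {η | ∃ x ∈ M, η = Λ x} ∧ ∀ x ∈ M, ∀ y ∈ M, ⟪Λ x, Λ y⟫_ℂ = ψ (star x * y)

/-- The graph of the closure `S` of the conjugate linear map `Λ x ↦ Λ x*`. -/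
def graphS (M : VonNeumannAlgebra H) (Λ : (H →L[ℂ] H) → K) : Set (K × K) :=
  closure {p | ∃ x ∈ M, p = (Λ x, Λ (star x))}

end Gns

/-- The spectrum of the modular operator `Δ = S* S` of the state `ψ`. -/
def modSpec (M : VonNeumannAlgebra H) (ψ : (H →L[ℂ] H) → ℂ) : Set ℂ :=
  {l | ∃ (K : Type u) (_ : NormedAddCommGroup K) (_ : InnerProductSpace ℂ K) (_ : CompleteSpace K)
    (Λ : (H →L[ℂ] H) → K), IsGNS M ψ Λ ∧ l ∈ specOf (graphSq (graphS M Λ))}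

/-- Every positive number is in the spectrum of the modular operator of every faithful normal
state. -/
def FullSpectrum (M : VonNeumannAlgebra H) : Prop :=
  ∀ ψ, IsFNState M ψ → ∀ l : ℝ, 0 < l → (l : ℂ) ∈ modSpec M ψ

/-- The bounded sequence `w` in `M` asymptotically centralizes `φ`: `‖w n φ - φ (w n)‖ → 0`. -/
def AsCent (M : VonNeumannAlgebra H) (φ : (H →L[ℂ] H) → ℂ) (w : ℕ → H →L[ℂ] H) : Prop :=
  (∀ n, w n ∈ M) ∧ (∃ C : ℝ, ∀ n, ‖w n‖ ≤ C) ∧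
    ∀ ε : ℝ, 0 < ε → ∀ᶠ n in atTop, ∀ y ∈ M, ‖φ (y * w n) - φ (w n * y)‖ ≤ ε * ‖y‖

/-- The bicentralizer `B(M, φ)`. -/
def bicentralizer (M : VonNeumannAlgebra H) (φ : (H →L[ℂ] H) → ℂ) : Set (H →L[ℂ] H) :=
  {a | a ∈ M ∧ ∀ w, AsCent M φ w → ∀ η : H,
    Tendsto (fun n => (a * w n - w n * a) η) atTop (𝓝 0)}

end Vale.Agent.P132.St
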