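import Vale.Agent.P132.Final
import Vale.Agent.P132.Stmt

/-! P132: from unbundled to bundled functionals. -/

namespace Vale.Agent.P132

open scoped InnerProductSpace ComplexOrder
open Filter Topology

universe u

variable {H : Type u} [NormedAddCommGroup H] [InnerProductSpace ℂ H] [CompleteSpace H]
  {M : VonNeumannAlgebra H}

/-- a finite sum of vector functionals -/
noncomputable def vecSum (M : VonNeumannAlgebra H) {n : ℕ} (η ζ : Fin n → H) :
    M.toStarSubalgebra →L[ℂ] ℂ :=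
  ∑ i, (innerSL ℂ (η i)) ∘L (ContinuousLinearMap.apply ℂ H (ζ i)) ∘L
    M.toStarSubalgebra.toSubalgebra.toSubmodule.subtypeL

theorem vecSum_apply {n : ℕ} (η ζ : Fin n → H) (x : M.toStarSubalgebra) :
    vecSum M η ζ x = ∑ i, ⟪η i, (x : Op H) (ζ i)⟫_ℂ := by
  rw [vecSum, sum_apply]
  rfl

theorem bridge_normal {φ : Op H → ℂ} (h : St.IsNormal M φ) :
    ∃ ω ∈ predual M, ∀ x : M.toStarSubalgebra, ω x = φ x := by
  choose n η ζ hn using fun k : ℕ => h (1 / ((k : ℝ) + 1)) Nat.one_div_pos_of_nat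
  have hn' : ∀ k (x : M.toStarSubalgebra),
      ‖φ x - vecSum M (η k) (ζ k) x‖ ≤ 1 / ((k : ℝ) + 1) * ‖x‖ := fun k x => by
    rw [vecSum_apply]
    exact hn k x x.2
  have ht : ∀ x : M.toStarSubalgebra,
      Tendsto (fun k => vecSum M (η k) (ζ k) x) atTop (𝓝 (φ x)) := fun x => by
    refine tendsto_iff_norm_sub_tendsto_zero.2 (squeeze_zero (fun _ => norm_nonneg _)
      (fun k => (norm_sub_rev _ _).trans_le (hn' k x)) ?_)
    simpa using tendsto_one_div_add_atTop_nhds_zero_nat.mul_const ‖x‖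
  let ω : M.toStarSubalgebra →L[ℂ] ℂ := LinearMap.mkContinuous
    (linearMapOfTendsto (fun x : M.toStarSubalgebra => φ x)
      (fun k => (vecSum M (η k) (ζ k)).toLinearMap) (tendsto_pi_nhds.2 ht))
    (1 / ((0 : ℕ) + 1) + ‖vecSum M (η 0) (ζ 0)‖) fun x => by
      have h1 := hn' 0 x
      have h2 := (vecSum M (η 0) (ζ 0)).le_opNorm x
      have h3 := norm_sub_norm_le (φ x) (vecSum M (η 0) (ζ 0) x)
      change ‖φ x‖ ≤ _
      linarith
  have hω : ∀ x, ω x = φ x := fun _ => rfl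
  refine ⟨ω, mem_closure_of_tendsto (f := fun k => vecSum M (η k) (ζ k)) (b := atTop) ?_
    (Eventually.of_forall fun k => Submodule.sum_mem _ fun i _ =>
      Submodule.subset_span ⟨η k i, ζ k i, fun _ => rfl⟩), hω⟩
  refine tendsto_iff_norm_sub_tendsto_zero.2 (squeeze_zero (fun _ => norm_nonneg _) (fun k => ?_)
    tendsto_one_div_add_atTop_nhds_zero_nat)
  refine ContinuousLinearMap.opNorm_le_bound _ Nat.one_div_pos_of_nat.le fun x => ?_
  rw [sub_apply, hω, norm_sub_rev]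
  exact hn' k x

theorem bridge_normal' {φ : Op H → ℂ} {ω : M.toStarSubalgebra →L[ℂ] ℂ} (hω : ω ∈ predual M)
    (h : ∀ x : M.toStarSubalgebra, ω x = φ x) : St.IsNormal M φ := by
  intro ε hε
  obtain ⟨ω', h1, h2⟩ := Metric.mem_closure_iff.1 hω ε hε
  obtain ⟨n, c, g, rfl⟩ := Submodule.mem_span_set'.1 h1
  choose η ζ hg using fun i => (g i).2
  refine ⟨n, η, fun i => c i • ζ i, fun x hx => ?_⟩
  have := (ω - ∑ i, c i • (g i).1).le_of_opNorm_le (dist_eq_norm ω _ ▸ h2.le) ⟨x, hx⟩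
  simp only [sub_apply, sum_apply, smul_apply, h, hg, smul_eq_mul] at this
  simp only [map_smul, inner_smul_right]
  exact this

theorem bridge_state {φ : Op H → ℂ} (h : St.IsFNState M φ) :
    ∃ ω, IsFNState M ω ∧ ∀ x : M.toStarSubalgebra, ω x = φ x := by
  obtain ⟨ω, h1, h2⟩ := bridge_normal h.1
  refine ⟨ω, ⟨h1, (h2 1).trans h.2.1, fun x => ?_, fun x hx => Subtype.ext ?_⟩, h2⟩
  · rw [h2]
    exact h.2.2.1 x x.2
  · rw [h2] at hx
    exact h.2.2.2 x x.2 hx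

theorem bridge_full (h : St.FullSpectrum M) : FullSpectrum M := by
  classical
  intro ω hω l hl
  let φ : Op H → ℂ := fun x => if hx : x ∈ M then ω ⟨x, hx⟩ else 0
  have hφ : ∀ x : M.toStarSubalgebra, ω x = φ x := fun x => by
    have hx : (x : Op H) ∈ M := x.2
    simp only [φ, dif_pos hx]
  obtain ⟨K, _, _, _, Λ, ⟨hd, hΛ⟩, hs⟩ := h φ ⟨bridge_normal' hω.1 hφ, (hφ 1).symm.trans hω.2.1,
    fun x hx => (hω.2.2.1 ⟨x, hx⟩).trans_eq (hφ _),
    fun x hx h0 => congrArg Subtype.val (hω.2.2.2 ⟨x, hx⟩ ((hφ _).trans h0))⟩ l hl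
  have h1 : ∀ x y : M.toStarSubalgebra, ⟪Λ x, Λ y⟫_ℂ = ω (star x * y) := fun x y =>
    (hΛ x x.2 y y.2).trans (hφ (star x * y)).symm
  have ext : ∀ v w : K, (∀ x : M.toStarSubalgebra, ⟪Λ x, v⟫_ℂ = ⟪Λ x, w⟫_ℂ) → v = w :=
    fun v w hvw => hd.eq_of_inner_right ℂ (by
      rintro _ ⟨x, hx, rfl⟩
      exact hvw ⟨x, hx⟩)
  let Λ' : M.toStarSubalgebra →ₗ[ℂ] K :=
    { toFun := fun x => Λ x
      map_add' := fun x y => ext _ _ fun z => by rw [inner_add_right, h1, h1, h1, mul_add, map_add]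
      map_smul' := fun c x => ext _ _ fun z => by
        rw [inner_smul_right, h1, h1, mul_smul_comm, map_smul, smul_eq_mul, RingHom.id_apply] }
  refine ⟨K, _, _, ‹_›, Λ', ⟨hd.mono ?_, h1⟩, ?_⟩
  · rintro _ ⟨x, hx, rfl⟩
    exact ⟨⟨x, hx⟩, rfl⟩
  · have e : graphS Λ' = St.graphS M Λ := congrArg closure (Set.ext fun p =>
      ⟨fun ⟨x, hx⟩ => ⟨x, x.2, hx⟩, fun ⟨x, hx, hp⟩ => ⟨⟨x, hx⟩, hp⟩⟩)
    rw [graphDelta, e]
    exact hs

theorem bridge_main (hM : St.IsFactor M) (hF : St.FullSpectrum M) {φ : Op H → ℂ}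
    (hφ : St.IsFNState M φ) {a : Op H} (ha : a ∈ St.bicentralizer M φ) :
    ∃ c : ℂ, a = c • (1 : Op H) := by
  obtain ⟨ω, hω, e⟩ := bridge_state hφ
  obtain ⟨c, hc⟩ := bicentralizer_scalar hM (bridge_full hF) hω (a := ⟨a, ha.1⟩) fun w hw η =>
    ha.2 (fun n => w n) ⟨fun n => (w n).2, hw.1, fun ε hε => by
      filter_upwards [hw.2.eventually (ge_mem_nhds hε)] with n hn y hy
      have := ContinuousLinearMap.le_of_opNorm_le _ hn ⟨y, hy⟩
      rw [sub_apply, ContinuousLinearMap.comp_apply, ContinuousLinearMap.comp_apply, e, e] at this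
      exact this⟩ η
  exact ⟨c, congrArg Subtype.val hc⟩

end Vale.Agent.P132
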