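import Vale.Agent.P132.Cut

/-! P132: infinite projections of a countably decomposable factor are equivalent to one. -/

namespace Vale.Agent.P132

open scoped InnerProductSpace BoundedContinuousFunction
open Filter Topology MeasureTheory Vale.Agent.P104

universe u

variable {H : Type u} [NormedAddCommGroup H] [InnerProductSpace ℂ H] [CompleteSpace H]

/-- the projections `V ^ n (1 - e) (V*) ^ n` -/
noncomputable def infF (e V : Op H) : ℕ → Op H
  | 0 => 1 - e
  | n + 1 => V * infF e V n * star V

theorem infF_proj {e V : Op H} (he : IsStarProjection e) (h1 : star V * V = 1) (n : ℕ) :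
    IsStarProjection (infF e V n) := by
  induction n with
  | zero => exact he.one_sub
  | succ n ih =>
    refine ⟨?_, ?_⟩
    · change V * infF e V n * star V * (V * infF e V n * star V) = V * infF e V n * star V
      calc _ = V * (infF e V n * (star V * V) * infF e V n) * star V := by simp only [mul_assoc]
        _ = _ := by rw [h1, mul_one, ih.isIdempotentElem.eq]
    · change star (V * infF e V n * star V) = V * infF e V n * star V
      rw [star_mul, star_mul, star_star, ih.isSelfAdjoint.star_eq, mul_assoc]

theorem infF_orth {e V : Op H} (he : IsStarProjection e) (h1 : star V * V = 1) (h2 : e * V = V)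
    (n : ℕ) : ∀ m, n ≠ m → infF e V n * infF e V m = 0 := by
  have h3 : (1 - e) * V = 0 := by rw [sub_mul, one_mul, h2, sub_self]
  have h4 : star V * (1 - e) = 0 := by rw [mul_sub, mul_one, compare_star_left he h2, sub_self]
  induction n with
  | zero =>
    rintro (_ | m) hm
    · exact absurd rfl hm
    · change (1 - e) * (V * infF e V m * star V) = 0
      rw [← mul_assoc, ← mul_assoc, h3, zero_mul, zero_mul]
  | succ n ih =>
    rintro (_ | m) hm
    · change V * infF e V n * star V * (1 - e) = 0
      rw [mul_assoc, h4, mul_zero]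
    · change V * infF e V n * star V * (V * infF e V m * star V) = 0
      calc _ = V * (infF e V n * (star V * V) * infF e V m) * star V := by simp only [mul_assoc]
        _ = _ := by rw [h1, mul_one, ih m (fun h => hm (by rw [h])), mul_zero, zero_mul]

/-- Schroeder - Bernstein: `f n = V ^ n (1 - e) (V*) ^ n` are orthogonal projections with sum `g`;
`W = V g + (1 - g)` has `W* W = 1`, `W W* = e`; take `v = W*`. -/
theorem equiv_one_of_isometry (M : VonNeumannAlgebra H) {e V : Op H} (he : IsStarProjection e)
    (heM : e ∈ M) (hV : V ∈ M) (h1 : star V * V = 1) (h2 : e * V = V) :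
    ∃ v ∈ M, star v * v = e ∧ v * star v = 1 := by
  have hM : ∀ n, infF e V n ∈ M := fun n => by
    induction n with
    | zero => exact sub_mem (one_mem M) heM
    | succ n ih => exact mul_mem (mul_mem hV ih) (star_mem hV)
  obtain ⟨g, hgM, hg, g1, g2, g3⟩ := compare_sum_proj M (infF e V) hM (infF_proj he h1)
    (fun n m h => infF_orth he h1 h2 n m h)
  have hgs : star g = g := hg.isSelfAdjoint.star_eq
  have hgg : g * g = g := hg.isIdempotentElem.eq
  have k1 : (1 - g) * V * g = 0 := g3 _ fun n => by
    have e1 : V * infF e V n = infF e V (n + 1) * V := by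
      change _ = V * infF e V n * star V * V
      rw [mul_assoc _ (star V), h1, mul_one]
    rw [mul_assoc, e1, ← mul_assoc, sub_mul, one_mul, g1, sub_self, zero_mul]
  have k2 : g * star V * (1 - g) = 0 := by
    have := congrArg star k1
    rwa [star_mul, star_mul, star_sub, star_one, hgs, star_zero, ← mul_assoc] at this
  have k3 : g * star V * g = g * star V := by
    rw [mul_sub, mul_one, sub_eq_zero] at k2
    exact k2.symm
  have k4 : (V * g * star V - g + (1 - e)) * g = 0 := g3 _ fun n => by
    rcases n with _ | n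
    · have e1 : star V * infF e V 0 = 0 := by
        change star V * (1 - e) = 0
        rw [mul_sub, mul_one, compare_star_left he h2, sub_self]
      have e2 : (1 - e) * infF e V 0 = infF e V 0 := he.one_sub.isIdempotentElem.eq
      rw [add_mul, sub_mul, mul_assoc, e1, g1, e2, mul_zero, zero_sub, neg_add_cancel]
    · have e1 : V * g * star V * infF e V (n + 1) = infF e V (n + 1) := by
        change V * g * star V * (V * infF e V n * star V) = V * infF e V n * star V
        calc _ = V * (g * (star V * V) * infF e V n) * star V := by simp only [mul_assoc]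
          _ = _ := by rw [h1, mul_one, g1]
      have e2 : (1 - e) * infF e V (n + 1) = 0 := infF_orth he h1 h2 0 (n + 1) (by omega)
      rw [add_mul, sub_mul, e1, g1, e2, sub_self, add_zero]
  have k5 : V * g * star V = g - (1 - e) := by
    have e1 : (1 - e) * g = 1 - e := g2 0
    have e2 : V * g * star V * g = V * g * star V := by
      rw [mul_assoc V, mul_assoc V, k3]
    rw [add_mul, sub_mul, e1, e2, hgg] at k4
    rw [← sub_eq_zero, ← k4]
    abel
  have hc : (1 - g) * (1 - g) = 1 - g := hg.one_sub.isIdempotentElem.eq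
  have hc1 : g * (1 - g) = 0 := by rw [mul_sub, mul_one, hgg, sub_self]
  have hc2 : (1 - g) * g = 0 := by rw [sub_mul, one_mul, hgg, sub_self]
  have hst : star (V * g + (1 - g)) = g * star V + (1 - g) := by
    rw [star_add, star_mul, star_sub, star_one, hgs]
  refine ⟨star (V * g + (1 - g)), star_mem (add_mem (mul_mem hV hgM) (sub_mem (one_mem M) hgM)),
    ?_, ?_⟩
  · rw [star_star, hst]
    calc _ = V * (g * g) * star V + V * (g * (1 - g)) + (1 - g) * g * star V +
          (1 - g) * (1 - g) := by noncomm_ring
      _ = e := by rw [hgg, hc1, hc2, hc, k5, mul_zero, zero_mul]; abel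
  · rw [star_star, hst]
    calc _ = g * (star V * V) * g + g * star V * (1 - g) + (1 - g) * V * g +
          (1 - g) * (1 - g) := by noncomm_ring
      _ = 1 := by rw [h1, k2, k1, hc, mul_one, hgg]; abel

theorem inf_seq {M : VonNeumannAlgebra H} {p : Op H} (hp : PropInf M p) :
    ∃ u : ℕ → Op H, (∀ n, u n ∈ M) ∧ (∀ n, p * u n = u n) ∧ (∀ n, star (u n) * u n = p) ∧
      ∀ n m, n ≠ m → star (u n) * u m = 0 := by
  obtain ⟨-, s, hs, t, ht, h1, h2, h3, h4, h5⟩ := hp
  have h3' : star t * s = 0 := by
    have := congrArg star h3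
    rwa [star_mul, star_star, star_zero] at this
  have hpu : ∀ n : ℕ, p * (t ^ n * s) = t ^ n * s := by
    rintro (_ | n)
    · rw [pow_zero, one_mul, h4]
    · rw [pow_succ', ← mul_assoc, ← mul_assoc, h5]
  have hstep : ∀ n m : ℕ, star (t ^ (n + 1) * s) * (t ^ (m + 1) * s) =
      star (t ^ n * s) * (t ^ m * s) := fun n m => by
    rw [pow_succ', pow_succ', mul_assoc t, mul_assoc t, star_mul t, mul_assoc, ← mul_assoc (star t),
      h2, hpu]
  refine ⟨fun n => t ^ n * s, fun n => mul_mem (pow_mem ht n) hs, hpu, fun n => ?_, fun n => ?_⟩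
  · beta_reduce
    induction n with
    | zero => rw [pow_zero, one_mul, h1]
    | succ n ih => rw [hstep, ih]
  · beta_reduce
    induction n with
    | zero =>
      rintro (_ | m) hm
      · exact absurd rfl hm
      · rw [pow_zero, one_mul, pow_succ', mul_assoc t, ← mul_assoc, h3, zero_mul]
    | succ n ih =>
      rintro (_ | m) hm
      · rw [pow_zero, one_mul, pow_succ', mul_assoc t, star_mul t, mul_assoc, h3', mul_zero]
      · rw [hstep, ih m fun h => hm (by rw [h])]

/-- With `s, t` as in `PropInf`, `u n = t ^ n * s` satisfy `(u n)* (u m) = δ p`. Let `F` be the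
countable family of `cover` and `n : F → ℕ` injective; `V = ∑ u (n v) v*` (`sum_piso`). -/
theorem isometry_of_propInf {M : VonNeumannAlgebra H} (hM : IsFactor M) {ξ : H}
    (hsep : ∀ x ∈ M, x ξ = 0 → x = 0) {p : Op H} (hp : PropInf M p) (h0 : p ≠ 0) :
    ∃ V ∈ M, star V * V = 1 ∧ p * V = V := by
  obtain ⟨u, huM, hpu, hu1, hu2⟩ := inf_seq hp
  obtain ⟨F, hF, hFo, -, hF2⟩ := cover hM hp.1 (compare_propInf_mem hp) h0
  have hc : F.Countable := cover_countable hsep (fun v hv => ⟨(hF v hv).1, (hF v hv).2.2.1⟩)
    (hF2 ξ).summable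
  obtain ⟨n, hn⟩ := Set.countable_iff_exists_injOn.1 hc
  have hw : ∀ v : F, star (u (n v) * star (v : Op H)) * (u (n v) * star (v : Op H)) =
      (v : Op H) * star (v : Op H) := fun v => by
    rw [star_mul, star_star, mul_assoc, ← mul_assoc (star (u _)), hu1, ← mul_assoc, (hF v v.2).2.2.2]
  obtain ⟨V, hVM, -, -, -, h3, -, -, -, h4, -⟩ := sum_piso M
    (fun v : F => u (n v) * star (v : Op H)) (fun v => mul_mem (huM _) (star_mem (hF v v.2).1))
    (fun v => PIso.of_idem (by rw [hw]; exact (hF v v.2).2.1.proj_right.isIdempotentElem))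
    (fun v w hvw => by
      have : n v ≠ n w := fun h => hvw (Subtype.ext (hn v.2 w.2 h))
      change star (u (n v) * star (v : Op H)) * (u (n w) * star (w : Op H)) = 0
      rw [star_mul, mul_assoc, ← mul_assoc (star (u _)), hu2 _ _ this, zero_mul, mul_zero])
    (fun v w hvw => by
      change u (n v) * star (v : Op H) * star (u (n w) * star (w : Op H)) = 0
      rw [star_mul, star_star, mul_assoc, ← mul_assoc (star (v : Op H)),
        hFo v.2 w.2 (fun h => hvw (Subtype.ext h)), zero_mul, mul_zero])
  refine ⟨V, hVM, ?_, ?_⟩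
  · have h5 : ∀ ζ, qf (star V * V) ζ = qf 1 ζ := fun ζ => by
      rw [qf_star_mul_self, qf_one]
      refine (h4 ζ).unique ((hF2 ζ).congr_fun fun v => ?_)
      rw [← qf_star_mul_self, ← qf_star_mul_self, hw, star_star]
    exact le_antisymm ((le_iff_qf (IsSelfAdjoint.star_mul_self V) (IsSelfAdjoint.one _)).2
      fun ζ => (h5 ζ).le) ((le_iff_qf (IsSelfAdjoint.one _) (IsSelfAdjoint.star_mul_self V)).2
      fun ζ => (h5 ζ).ge)
  · have := h3 (1 - p) fun v => by rw [← mul_assoc, sub_mul, one_mul, hpu, sub_self, zero_mul]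
    rw [sub_mul, one_mul, sub_eq_zero] at this
    exact this.symm

theorem equiv_one {M : VonNeumannAlgebra H} (hM : IsFactor M) {ξ : H}
    (hsep : ∀ x ∈ M, x ξ = 0 → x = 0) {e : Op H} (he : IsStarProjection e) (heM : e ∈ M)
    (h : ¬ NoPI M e) : ∃ v ∈ M, star v * v = e ∧ v * star v = 1 := by
  unfold NoPI at h
  push Not at h
  obtain ⟨p, hp, hep, h0⟩ := h
  obtain ⟨V, hV, h1, h2⟩ := isometry_of_propInf hM hsep hp h0
  exact equiv_one_of_isometry M he heM hV h1 (by rw [← h2, ← mul_assoc, hep])

end Vale.Agent.P132
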