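import Vale.Agent.P132.QT

/-! P132: the spectral hypothesis excludes finite projections. -/

namespace Vale.Agent.P132

open scoped InnerProductSpace BoundedContinuousFunction
open Filter Topology MeasureTheory Vale.Agent.P104

universe u

variable {H : Type u} [NormedAddCommGroup H] [InnerProductSpace ℂ H] [CompleteSpace H]

theorem nofin_proj_inner {q : Op H} (hq : IsStarProjection q) (ζ : H) :
    ⟪q ζ, ζ⟫_ℂ = ((‖q ζ‖ ^ 2 : ℝ) : ℂ) := by
  have e : q (q ζ) = q ζ := by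
    rw [← mul_apply_eq_comp, hq.isIdempotentElem.eq]
  have h1 : ⟪q ζ, q ζ⟫_ℂ = ⟪q ζ, ζ⟫_ℂ := by
    rw [← inner_star_left q (q ζ) ζ, hq.isSelfAdjoint.star_eq, e]
  rw [← h1, inner_self_eq_norm_sq_to_K]
  simp

/-- The block computation for `y = ∑ sg v w • q v x q w`. -/
theorem nofin_block {I : Type*} (q : I → Op H) (hq : ∀ i, IsStarProjection (q i))
    (ho : Pairwise fun i j => q i * q j = 0) (η : I → H) (hη : ∀ i, q i (η i) = η i) (x : Op H)
    (sg : I → I → ℝ) (hs : ∀ v w, |sg v w| = 1) (s : Finset I) (y : Op H)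
    (hy : y = ∑ v ∈ s, ∑ w ∈ s, (sg v w : ℂ) • (q v * x * q w)) :
    ∑' i, ‖y (η i)‖ ^ 2 = ∑ w ∈ s, ∑ v ∈ s, ‖q v (x (η w))‖ ^ 2 ∧
    ∑' i, ⟪y (η i), x (η i)⟫_ℂ = ((∑ w ∈ s, ∑ v ∈ s, sg v w * ‖q v (x (η w))‖ ^ 2 : ℝ) : ℂ) ∧
    ∑' i, ⟪x (η i), y (η i)⟫_ℂ = ((∑ w ∈ s, ∑ v ∈ s, sg v w * ‖q v (x (η w))‖ ^ 2 : ℝ) : ℂ) := by
  have h0 : ∀ i j, i ≠ j → q i (η j) = 0 := by
    intro i j hij
    rw [← hη j, ← mul_apply_eq_comp, ho hij, zero_apply]
  have hya : ∀ ζ, y ζ = ∑ v ∈ s, ∑ w ∈ s, (sg v w : ℂ) • q v (x (q w ζ)) := by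
    intro ζ
    rw [hy, sum_apply]
    refine Finset.sum_congr rfl fun v _ => ?_
    rw [sum_apply]
    rfl
  have hy0 : ∀ i ∉ s, y (η i) = 0 := by
    intro i hi
    rw [hya]
    refine Finset.sum_eq_zero fun v _ => Finset.sum_eq_zero fun w hw => ?_
    rw [h0 w i (fun e => hi (e ▸ hw)), map_zero, map_zero, smul_zero]
  have hy1 : ∀ i ∈ s, y (η i) = ∑ v ∈ s, (sg v i : ℂ) • q v (x (η i)) := by
    intro i hi
    rw [hya]
    refine Finset.sum_congr rfl fun v _ => ?_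
    rw [Finset.sum_eq_single_of_mem i hi, hη]
    intro w _ hw
    rw [h0 w i hw, map_zero, map_zero, smul_zero]
  have hin : ∀ i ∈ s, ⟪y (η i), x (η i)⟫_ℂ =
      ((∑ v ∈ s, sg v i * ‖q v (x (η i))‖ ^ 2 : ℝ) : ℂ) := by
    intro i hi
    rw [hy1 i hi, sum_inner, Complex.ofReal_sum]
    refine Finset.sum_congr rfl fun v _ => ?_
    rw [inner_smul_left, nofin_proj_inner (hq v), Complex.conj_ofReal, Complex.ofReal_mul]
  refine ⟨?_, ?_, ?_⟩
  · rw [tsum_eq_sum (s := s) fun i hi => by rw [hy0 i hi, norm_zero, zero_pow two_ne_zero]]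
    refine Finset.sum_congr rfl fun i hi => ?_
    have h1 := sums_norm_finsum (fun v => (sg v i : ℂ) • q v) (fun a b hab => by
      beta_reduce
      rw [star_smul, smul_mul_smul_comm, (hq a).isSelfAdjoint.star_eq, ho hab, smul_zero]) s
      (x (η i))
    rw [hy1 i hi]
    refine h1.trans (Finset.sum_congr rfl fun v _ => ?_)
    rw [smul_apply, norm_smul, Complex.norm_real, Real.norm_eq_abs, hs,
      one_mul]
  · rw [tsum_eq_sum (s := s) fun i hi => by rw [hy0 i hi, inner_zero_left], Complex.ofReal_sum]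
    exact Finset.sum_congr rfl hin
  · rw [tsum_eq_sum (s := s) fun i hi => by rw [hy0 i hi, inner_zero_right], Complex.ofReal_sum]
    refine Finset.sum_congr rfl fun i hi => ?_
    rw [← inner_conj_symm, hin i hi, Complex.conj_ofReal]

/-- The contradiction, for abstract blocks. -/
theorem nofin_abs {M : VonNeumannAlgebra H} {I : Type*} (q : I → Op H) (hqM : ∀ i, q i ∈ M)
    (hq : ∀ i, IsStarProjection (q i)) (ho : Pairwise fun i j => q i * q j = 0)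
    (hsum : ∀ ζ, HasSum (fun i => ‖q i ζ‖ ^ 2) (‖ζ‖ ^ 2)) (η : I → H)
    (hη : ∀ i, q i (η i) = η i) {x : Op H} (hx : x ∈ M) (h1 : ∑' i, ‖x (η i)‖ ^ 2 = 1)
    (hab : ∀ v w, ‖q w (star x (η v))‖ ^ 2 ≤ 2 * ‖q v (x (η w))‖ ^ 2 ∨
      8 * ‖q v (x (η w))‖ ^ 2 ≤ ‖q w (star x (η v))‖ ^ 2)
    (hy : ∀ y ∈ M,
      ‖∑' i, ⟪star x (η i), star y (η i)⟫_ℂ - ((4 : ℝ) : ℂ) * ∑' i, ⟪y (η i), x (η i)⟫_ℂ‖ ≤
        1 / 9 * (√(∑' i, ‖y (η i)‖ ^ 2) + √(∑' i, ‖star y (η i)‖ ^ 2))) : False := by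
  classical
  obtain ⟨a, ha⟩ : ∃ a : I → I → ℝ, ∀ v w, a v w = ‖q w (star x (η v))‖ ^ 2 := ⟨_, fun _ _ => rfl⟩
  obtain ⟨b, hb⟩ : ∃ b : I → I → ℝ, ∀ v w, b v w = ‖q v (x (η w))‖ ^ 2 := ⟨_, fun _ _ => rfl⟩
  have ha0 : ∀ v w, 0 ≤ a v w := fun v w => by rw [ha]; positivity
  have hb0 : ∀ v w, 0 ≤ b v w := fun v w => by rw [hb]; positivity
  obtain ⟨sg, hsg⟩ : ∃ sg : I → I → ℝ, ∀ v w, sg v w = if a v w ≤ 2 * b v w then -1 else 1 :=
    ⟨_, fun _ _ => rfl⟩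
  have hs : ∀ v w, |sg v w| = 1 := fun v w => by rw [hsg]; split_ifs <;> simp
  have hkey : ∀ v w, 4 / 9 * (a v w + b v w) ≤ sg v w * a v w - 4 * (sg v w * b v w) := by
    intro v w
    have := hab v w
    rw [← ha, ← hb] at this
    have := ha0 v w
    have := hb0 v w
    rw [hsg]
    split_ifs with h
    · linarith
    · have h8 : 8 * b v w ≤ a v w := by tauto
      linarith
  have hfin : ∀ s : Finset I, ∑ w ∈ s, ∑ v ∈ s, b v w ≤ 1 / 4 := by
    intro s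
    obtain ⟨y, hyd⟩ : ∃ y : Op H, y = ∑ v ∈ s, ∑ w ∈ s, (sg v w : ℂ) • (q v * x * q w) :=
      ⟨_, rfl⟩
    have hyM : y ∈ M := by
      rw [hyd]
      exact sum_mem fun v _ => sum_mem fun w _ =>
        SMulMemClass.smul_mem _ (mul_mem (mul_mem (hqM v) hx) (hqM w))
    have hys : star y = ∑ w ∈ s, ∑ v ∈ s, (sg v w : ℂ) • (q w * star x * q v) := by
      rw [hyd, star_sum, Finset.sum_comm]
      refine Finset.sum_congr rfl fun v _ => ?_
      rw [star_sum]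
      refine Finset.sum_congr rfl fun w _ => ?_
      rw [star_smul, star_mul, star_mul, (hq v).isSelfAdjoint.star_eq,
        (hq w).isSelfAdjoint.star_eq, Complex.star_def, Complex.conj_ofReal, mul_assoc]
    obtain ⟨b1, b2, -⟩ := nofin_block q hq ho η hη x sg hs s y hyd
    obtain ⟨a1, -, a2⟩ := nofin_block q hq ho η hη (star x) (fun w v => sg v w)
      (fun w v => hs v w) s (star y) hys
    have hh := hy y hyM
    rw [a1, a2, b1, b2, ← Complex.ofReal_mul, ← Complex.ofReal_sub, Complex.norm_real,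
      Real.norm_eq_abs] at hh
    simp only [← ha, ← hb] at hh
    rw [Finset.sum_comm (f := fun w v => sg v w * b v w)] at hh
    have hA0 : 0 ≤ ∑ v ∈ s, ∑ w ∈ s, a v w :=
      Finset.sum_nonneg fun v _ => Finset.sum_nonneg fun w _ => ha0 v w
    have hB0 : 0 ≤ ∑ w ∈ s, ∑ v ∈ s, b v w :=
      Finset.sum_nonneg fun w _ => Finset.sum_nonneg fun v _ => hb0 v w
    have hlow : 4 / 9 * (∑ v ∈ s, ∑ w ∈ s, a v w + ∑ w ∈ s, ∑ v ∈ s, b v w) ≤
        ∑ v ∈ s, ∑ w ∈ s, sg v w * a v w - 4 * ∑ v ∈ s, ∑ w ∈ s, sg v w * b v w := by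
      rw [Finset.sum_comm (f := fun w v => b v w)]
      simp only [Finset.mul_sum, ← Finset.sum_add_distrib, ← Finset.sum_sub_distrib]
      exact Finset.sum_le_sum fun v _ => Finset.sum_le_sum fun w _ => hkey v w
    have hh2 := hlow.trans ((le_abs_self _).trans hh)
    generalize ∑ v ∈ s, ∑ w ∈ s, a v w = A at hA0 hh2
    generalize ∑ w ∈ s, ∑ v ∈ s, b v w = B at hB0 hh2 ⊢
    have sA := Real.sq_sqrt hA0
    have sB := Real.sq_sqrt hB0
    nlinarith [sq_nonneg (√A - 1 / 8), sq_nonneg (√B - 1 / 4), Real.sqrt_nonneg A,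
      Real.sqrt_nonneg B]
  have hfin2 : ∀ t : Finset I, ∑ w ∈ t, ‖x (η w)‖ ^ 2 ≤ 1 / 4 := by
    intro t
    have hS : HasSum (fun v => ∑ w ∈ t, b v w) (∑ w ∈ t, ‖x (η w)‖ ^ 2) :=
      hasSum_sum fun w _ => by simpa only [hb] using hsum (x (η w))
    refine hasSum_le_of_sum_le hS fun s => le_trans ?_ (hfin (s ∪ t))
    rw [Finset.sum_comm]
    refine (Finset.sum_le_sum fun w _ => Finset.sum_le_sum_of_subset_of_nonneg
      (Finset.subset_union_left (s₂ := t)) fun v _ _ => hb0 v w).trans ?_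
    exact Finset.sum_le_sum_of_subset_of_nonneg Finset.subset_union_right fun w _ _ =>
      Finset.sum_nonneg fun v _ => hb0 v w
  have := Real.tsum_le_of_sum_le (fun i => sq_nonneg ‖x (η i)‖) hfin2
  linarith

theorem nofin_norm_piso {v : Op H} (hv : PIso v) (ζ : H) : ‖(v * star v) ζ‖ = ‖star v ζ‖ := by
  have h1 := polar_qf_proj hv.proj_right ζ
  have h2 := qf_star_mul_self (star v) ζ
  rw [star_star, h1] at h2
  exact (pow_left_inj₀ (norm_nonneg _) (norm_nonneg _) two_ne_zero).1 h2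

/-- Let `F` be the countable family of `cover` for `p`, `n : F → ℕ` injective,
`η v = c 4⁻¹ ^ (n v) • v ξ` with `∑ ‖η v‖² = 1`. Apply `Hin` with `l = 4`. Put `q v = v v*`,
`z v w = v* x w ∈ p M p`, `a v w = c² 16⁻¹ ^ (n v) ‖(z v w)* ξ‖²`,
`b v w = c² 16⁻¹ ^ (n w) ‖z v w ξ‖²`. If `n w ≤ n v` then `a ≤ 2 b`, else `8 b ≤ a`, so
`|a - 4 b| ≥ (4/9) (a + b)` with sign `sg v w`. Test with `y = ∑ sg v w • q v x q w` over a finite
set: `(4/9) Σ ≤ 2 δ √Σ` for `Σ = ∑ (a + b)`, whereas `∑ b → ∑' ‖x (η w)‖² = 1`. -/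
theorem not_qtrace {M : VonNeumannAlgebra H} (hM : IsFactor M) (hin : Hin M) {ξ : H}
    (hsep : ∀ x ∈ M, x ξ = 0 → x = 0) (hξ : ξ ≠ 0) {p : Op H} (hp : IsStarProjection p)
    (hpM : p ∈ M) (h0 : p ≠ 0)
    (h : ∀ x ∈ M, p * x = x → x * p = x → ‖star x ξ‖ ^ 2 ≤ 2 * ‖x ξ‖ ^ 2) : False := by
  obtain ⟨F, hF, ho, hs1, hs2⟩ := cover hM hp hpM h0
  have hc : F.Countable := cover_countable hsep (fun v hv => ⟨(hF v hv).1, (hF v hv).2.2.1⟩)
    (hs2 ξ).summable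
  obtain ⟨n, hn⟩ := (Set.countable_iff_exists_injective.1 hc)
  have hgeo : Summable fun v : F => (16⁻¹ : ℝ) ^ n v :=
    (summable_geometric_of_lt_one (by norm_num) (by norm_num)).comp_injective hn
  have hsm : Summable fun v : F => (16⁻¹ : ℝ) ^ n v * ‖(v : Op H) ξ‖ ^ 2 := by
    refine Summable.of_nonneg_of_le (fun v => by positivity) (fun v => ?_)
      (hgeo.mul_right (‖ξ‖ ^ 2))
    exact mul_le_mul_of_nonneg_left
      (pow_le_pow_left₀ (norm_nonneg _) ((hF v v.2).2.1.norm_apply_le ξ) 2) (by positivity)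
  have hne : Nonempty F := by
    by_contra hE
    rw [not_nonempty_iff] at hE
    have := (hs2 ξ).unique hasSum_empty
    exact hξ (norm_eq_zero.1 (pow_eq_zero_iff two_ne_zero |>.1 this))
  have hvξ : ∀ v : F, (v : Op H) ξ ≠ 0 := fun v e => (hF v v.2).2.2.1 (hsep v (hF v v.2).1 e)
  obtain ⟨S, hS⟩ : ∃ S : ℝ, S = ∑' v : F, (16⁻¹ : ℝ) ^ n v * ‖(v : Op H) ξ‖ ^ 2 := ⟨_, rfl⟩
  have hS0 : 0 < S := by
    obtain ⟨v⟩ := hne
    rw [hS]
    refine hsm.tsum_pos (fun v => by positivity) v ?_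
    have := norm_pos_iff.2 (hvξ v)
    positivity
  obtain ⟨r, hr⟩ : ∃ r : F → ℝ, ∀ v, r v = (√S)⁻¹ * 4⁻¹ ^ n v := ⟨_, fun _ => rfl⟩
  have hr0 : ∀ v, 0 < r v := fun v => by rw [hr]; positivity
  have hr2 : ∀ v, r v ^ 2 = S⁻¹ * 16⁻¹ ^ n v := by
    intro v
    rw [hr, mul_pow, inv_pow, Real.sq_sqrt hS0.le, ← pow_mul, mul_comm (n v) 2, pow_mul]
    norm_num
  obtain ⟨η, hη⟩ : ∃ η : F → H, ∀ v, η v = (r v : ℂ) • (v : Op H) ξ := ⟨_, fun _ => rfl⟩
  have hnorm : ∀ (T : Op H) (v : F), ‖T (η v)‖ ^ 2 = S⁻¹ * 16⁻¹ ^ n v * ‖T ((v : Op H) ξ)‖ ^ 2 := by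
    intro T v
    rw [hη, map_smul, norm_smul, mul_pow, Complex.norm_real, Real.norm_eq_abs, sq_abs, hr2]
  have hsum1 : HasSum (fun v => ‖η v‖ ^ 2) 1 := by
    have e := hsm.hasSum.mul_left S⁻¹
    rw [← hS, inv_mul_cancel₀ hS0.ne'] at e
    have e2 : (fun v => ‖η v‖ ^ 2) =
        fun v : F => S⁻¹ * ((16⁻¹ : ℝ) ^ n v * ‖(v : Op H) ξ‖ ^ 2) := by
      funext v
      have := hnorm 1 v
      rw [one_apply_eq_self, one_apply_eq_self] at this
      rw [this, mul_assoc]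
    rw [e2]
    exact e
  have hfaith : ∀ x ∈ M, (∀ v, x (η v) = 0) → x = 0 := by
    intro x hx hz
    have hxv : ∀ v : F, x * (v : Op H) = 0 := by
      intro v
      refine hsep _ (mul_mem hx (hF v v.2).1) ?_
      have := hz v
      rw [hη, map_smul, smul_eq_zero] at this
      exact this.resolve_left (Complex.ofReal_ne_zero.2 (hr0 v).ne')
    ext ζ
    have e := (hs1 ζ).mapL x
    have e2 : (fun v : F => x (((v : Op H) * star (v : Op H)) ζ)) = fun _ => 0 := by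
      funext v
      rw [← mul_apply_eq_comp, ← mul_assoc, hxv, zero_mul,
        zero_apply]
    rw [e2] at e
    exact e.unique hasSum_zero
  obtain ⟨x, hx, hx1, hy⟩ := hin F η hsum1 hfaith 4 (1 / 9) (by norm_num) (by norm_num)
  have hz : ∀ (T : Op H), T ∈ M → ∀ v w : F,
      ‖star (w : Op H) (star T ((v : Op H) ξ))‖ ^ 2 ≤ 2 * ‖star (v : Op H) (T ((w : Op H) ξ))‖ ^ 2 := by
    intro T hT v w
    have := h (star (v : Op H) * T * w)
      (mul_mem (mul_mem (star_mem (hF v v.2).1) hT) (hF w w.2).1)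
      (by rw [← mul_assoc, ← mul_assoc, compare_star_right hp (hF v v.2).2.2.2])
      (by rw [mul_assoc, (hF w w.2).2.2.2])
    rw [star_mul, star_mul, star_star] at this
    exact this
  refine nofin_abs (M := M) (fun v : F => (v : Op H) * star (v : Op H))
    (fun v => mul_mem (hF v v.2).1 (star_mem (hF v v.2).1)) (fun v => (hF v v.2).2.1.proj_right)
    (fun v w hvw => ?_) (fun ζ => ?_) η (fun v => ?_) hx hx1 (fun v w => ?_) hy
  · have := ho v.2 w.2 fun e => hvw (Subtype.ext e)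
    show (v : Op H) * star (v : Op H) * ((w : Op H) * star (w : Op H)) = 0
    rw [mul_assoc, ← mul_assoc (star (v : Op H)), this, zero_mul, mul_zero]
  · have e : (fun v : F => ‖((v : Op H) * star (v : Op H)) ζ‖ ^ 2) =
        fun v : F => ‖star (v : Op H) ζ‖ ^ 2 := funext fun v => by
      rw [nofin_norm_piso (hF v v.2).2.1]
    rw [e]
    exact hs2 ζ
  · have e : (v : Op H) * star (v : Op H) * v = v := (hF v v.2).2.1
    show ((v : Op H) * star (v : Op H)) (η v) = η v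
    rw [hη, map_smul, ← mul_apply_eq_comp, e]
  · show ‖((w : Op H) * star (w : Op H)) (star x (η v))‖ ^ 2 ≤
        2 * ‖((v : Op H) * star (v : Op H)) (x (η w))‖ ^ 2 ∨
      8 * ‖((v : Op H) * star (v : Op H)) (x (η w))‖ ^ 2 ≤
        ‖((w : Op H) * star (w : Op H)) (star x (η v))‖ ^ 2
    rw [nofin_norm_piso (hF v v.2).2.1, nofin_norm_piso (hF w w.2).2.1]
    have e1 := hnorm (star (w : Op H) * star x) v
    have e2 := hnorm (star (v : Op H) * x) w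
    simp only [mul_apply_eq_comp] at e1 e2
    rw [e1, e2]
    have k1 := hz x hx v w
    have k2 := hz (star x) (star_mem hx) w v
    rw [star_star] at k2
    have hA := sq_nonneg ‖star (w : Op H) (star x ((v : Op H) ξ))‖
    have hB := sq_nonneg ‖star (v : Op H) (x ((w : Op H) ξ))‖
    generalize ‖star (w : Op H) (star x ((v : Op H) ξ))‖ ^ 2 = A at k1 k2 hA ⊢
    generalize ‖star (v : Op H) (x ((w : Op H) ξ))‖ ^ 2 = B at k1 k2 hB ⊢
    have hSi : 0 < S⁻¹ := inv_pos.2 hS0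
    rcases le_or_gt (n w) (n v) with hle | hlt
    · left
      have g : (16⁻¹ : ℝ) ^ n v ≤ 16⁻¹ ^ n w :=
        pow_le_pow_of_le_one (by norm_num) (by norm_num) hle
      calc S⁻¹ * 16⁻¹ ^ n v * A ≤ S⁻¹ * 16⁻¹ ^ n w * (2 * B) := by gcongr
        _ = _ := by ring
    · right
      have g : (16⁻¹ : ℝ) ^ n w ≤ 16⁻¹ ^ n v * 16⁻¹ := by
        rw [← pow_succ]
        exact pow_le_pow_of_le_one (by norm_num) (by norm_num) hlt
      calc 8 * (S⁻¹ * 16⁻¹ ^ n w * B) ≤ 8 * (S⁻¹ * (16⁻¹ ^ n v * 16⁻¹) * (2 * A)) := by gcongr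
        _ = _ := by ring

theorem not_noPI {M : VonNeumannAlgebra H} (hM : IsFactor M) (hin : Hin M) {ξ : H}
    (hsep : ∀ x ∈ M, x ξ = 0 → x = 0) (hξ : ξ ≠ 0) {e : Op H} (he : IsStarProjection e)
    (heM : e ∈ M) (h0 : e ≠ 0) : ¬ NoPI M e := fun hN => by
  obtain ⟨p, hpM, hp, hp0, h⟩ := qtrace_corner M hsep he heM h0 hN
  exact not_qtrace hM hin hsep hξ hp hpM hp0 h

end Vale.Agent.P132
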