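import Vale.Agent.P132.Sm
import Vale.Agent.P132.Inf
import Vale.Agent.P132.NoFin

/-! P132: approximate eigenoperators in the corners of the centralizer. -/

namespace Vale.Agent.P132

open scoped InnerProductSpace BoundedContinuousFunction
open Filter Topology MeasureTheory Vale.Agent.P104

universe u

variable {H : Type u} [NormedAddCommGroup H] [InnerProductSpace ℂ H] [CompleteSpace H]

theorem corner_inner (a : Op H) (η ζ : H) : ⟪star a η, ζ⟫_ℂ = ⟪η, a ζ⟫_ℂ := by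
  rw [ContinuousLinearMap.star_eq_adjoint, ContinuousLinearMap.adjoint_inner_left]

theorem corner_inner' (a : Op H) (η ζ : H) : ⟪a η, ζ⟫_ℂ = ⟪η, star a ζ⟫_ℂ := by
  rw [ContinuousLinearMap.star_eq_adjoint, ContinuousLinearMap.adjoint_inner_right]

theorem corner_norm {a b : Op H} (h : star a * a = star b * b) (η : H) : ‖a η‖ = ‖b η‖ := by
  have h1 : ⟪a η, a η⟫_ℂ = ⟪b η, b η⟫_ℂ := by
    rw [corner_inner', corner_inner' b, ← mul_apply_eq_comp, h, mul_apply_eq_comp]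
  rw [norm_eq_sqrt_re_inner (𝕜 := ℂ), h1, ← norm_eq_sqrt_re_inner]

theorem SF.corner_vec (S : SF H) (hM : IsFactor S.M) (hin : Hin S.M) {e : Op H} (he : e ∈ S.C)
    (hp : IsStarProjection e) (h0 : e ≠ 0) {l δ : ℝ} (hl : 0 < l) (hδ : 0 < δ) :
    ∃ z ∈ S.M, e * z = z ∧ z * e = z ∧ z S.ξ ≠ 0 ∧ ∀ y ∈ S.M,
      ‖⟪star z S.ξ, star y S.ξ⟫_ℂ - l * ⟪y S.ξ, z S.ξ⟫_ℂ‖ ≤
        δ * ‖z S.ξ‖ * (‖y S.ξ‖ + ‖star y S.ξ‖) := by
  have heM : e ∈ S.M := (S.mem_C.1 he).1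
  have hξ : S.ξ ≠ 0 := norm_ne_zero_iff.1 (by rw [S.norm_ξ]; exact one_ne_zero)
  have hsep : ∀ x ∈ S.M, x S.ξ = 0 → x = 0 := fun x hx h => S.sep hx h
  obtain ⟨v, hv, h1, h2⟩ := equiv_one hM hsep hp heM (not_noPI hM hin hsep hξ hp heM h0)
  have hve : v * e = v := by rw [← h1, ← mul_assoc, h2, one_mul]
  have hev : e * star v = star v := by rw [← h1, mul_assoc, h2, mul_one]
  have hne : ‖e‖ ≤ 1 := hp.norm_le e
  have hnv : ∀ ζ, ‖v ζ‖ ≤ ‖ζ‖ := fun ζ => by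
    rw [corner_norm (b := e) (by rw [h1, hp.isSelfAdjoint.star_eq, hp.isIdempotentElem.eq])]
    exact (e.le_of_opNorm_le hne ζ).trans_eq (one_mul _)
  have hnv' : ∀ ζ, ‖star v ζ‖ = ‖ζ‖ := fun ζ =>
    corner_norm (b := 1) (by rw [star_star, h2, star_one, mul_one]) ζ
  have hye : ∀ y ∈ S.M, ‖y (e S.ξ)‖ ≤ ‖y S.ξ‖ := fun y hy => by
    rw [← S.ρ_C he, S.ρ_comm_apply hy heM]
    exact ((S.ρ e).le_of_opNorm_le ((S.norm_ρ e).trans_le hne) _).trans_eq (one_mul _)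
  have hc : 0 < ‖v S.ξ‖ := norm_pos_iff.2 fun h => h0 (by rw [← h1, S.sep hv h, mul_zero])
  obtain ⟨η, hη, hvη⟩ : ∃ η : H, ‖η‖ = 1 ∧ v S.ξ = (‖v S.ξ‖ : ℂ) • η :=
    ⟨(‖v S.ξ‖⁻¹ : ℂ) • v S.ξ, norm_smul_inv_norm (norm_pos_iff.1 hc), by
      rw [smul_inv_smul₀ (Complex.ofReal_ne_zero.2 hc.ne')]⟩
  generalize ‖v S.ξ‖ = c at hc hvη
  obtain ⟨x, hx, h3, h4⟩ := hin PUnit (fun _ => η) (by simp [hη])
    (fun x hx h => by
      have h5 : x * v = 0 := S.sep (mul_mem hx hv) (by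
        rw [mul_apply_eq_comp, hvη, map_smul, h PUnit.unit, smul_zero])
      rw [← mul_one x, ← h2, ← mul_assoc, h5, zero_mul]) l δ hl hδ
  simp only [tsum_fintype, Finset.univ_unique, Finset.sum_singleton,
    Real.sqrt_sq (norm_nonneg _)] at h3 h4
  have hzM : star v * x * v ∈ S.M := mul_mem (mul_mem (star_mem hv) hx) hv
  have hez : e * (star v * x * v) = star v * x * v := by rw [← mul_assoc, ← mul_assoc, hev]
  have hze : star v * x * v * e = star v * x * v := by rw [mul_assoc, hve]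
  have hn : ∀ ζ : H, ‖(c : ℂ) • ζ‖ = c * ‖ζ‖ := fun ζ => by
    rw [norm_smul, Complex.norm_real, Real.norm_of_nonneg hc.le]
  have hz : ‖(star v * x * v) S.ξ‖ = c := by
    rw [mul_apply_eq_comp, mul_apply_eq_comp, hnv', hvη, map_smul, hn,
      (pow_eq_one_iff_of_nonneg (norm_nonneg _) two_ne_zero).1 h3, mul_one]
  refine ⟨_, hzM, hez, hze, norm_pos_iff.1 (hz ▸ hc), fun y hy => ?_⟩
  have h5 := h4 (v * y * star v) (mul_mem (mul_mem hv hy) (star_mem hv))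
  have h6 : ∀ w : Op H, (c : ℂ) • (v * w * star v) η = v (w (e S.ξ)) := fun w => by
    rw [← map_smul, ← hvη, ← h1]
    rfl
  have h7 : star (v * y * star v) = v * star y * star v := by
    rw [star_mul, star_mul, star_star, mul_assoc]
  have h8 : ⟪star (star v * x * v) S.ξ, star y S.ξ⟫_ℂ =
      c * (c * ⟪star x η, (v * star y * star v) η⟫_ℂ) := by
    have a1 := S.inner_C he (mul_mem hzM (star_mem hy))
    rw [← mul_assoc e, hez] at a1
    rw [← inner_smul_right, h6, ← Complex.conj_ofReal c, ← inner_smul_left,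
      ← map_smul, ← hvη, corner_inner, corner_inner x, corner_inner' v]
    exact a1.symm
  have h9 : ⟪y S.ξ, (star v * x * v) S.ξ⟫_ℂ = c * (c * ⟪(v * y * star v) η, x η⟫_ℂ) := by
    have a1 := S.inner_C he (mul_mem (star_mem hy) hzM)
    rw [mul_assoc _ _ e, hze] at a1
    rw [← inner_smul_right, ← map_smul, ← hvη, ← Complex.conj_ofReal c, ← inner_smul_left,
      h6, corner_inner' y, corner_inner' v, corner_inner' y, corner_inner' e,
      hp.isSelfAdjoint.star_eq]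
    exact a1
  have h10 : ∀ w ∈ S.M, c * ‖(v * w * star v) η‖ ≤ ‖w S.ξ‖ := fun w hw => by
    rw [← hn, h6]
    exact (hnv _).trans (hye w hw)
  rw [h7] at h5
  rw [h8, h9, mul_left_comm (l : ℂ), mul_left_comm (l : ℂ), ← mul_sub, ← mul_sub, norm_mul,
    norm_mul, Complex.norm_real, Real.norm_of_nonneg hc.le, hz]
  have h11 := add_le_add (h10 y hy) (h10 _ (star_mem hy))
  calc _ ≤ c * (c * (δ * (‖(v * y * star v) η‖ + ‖(v * star y * star v) η‖))) := by gcongr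
    _ = δ * c * (c * ‖(v * y * star v) η‖ + c * ‖(v * star y * star v) η‖) := by ring
    _ ≤ _ := by gcongr

theorem SF.corner_R (S : SF H) {z : Op H} (hz : z ∈ S.M) {s K : ℝ} (hK : 0 ≤ K)
    (h : ∀ y ∈ S.M, ‖⟪star z S.ξ, star y S.ξ⟫_ℂ - (Real.exp s : ℝ) * ⟪y S.ξ, z S.ξ⟫_ℂ‖ ≤
      K * (‖y S.ξ‖ + ‖star y S.ξ‖)) : ‖S.R (z S.ξ) - (rr s : ℂ) • z S.ξ‖ ≤ 3 * K := by
  have h1 : ∀ ζ, ‖⟪ζ, (2 - S.R) (z S.ξ) - ((Real.exp s : ℝ) : ℂ) • S.R (z S.ξ)⟫_ℂ‖ ≤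
      3 * K * ‖ζ‖ := fun ζ => by
    have hcl : IsClosed {p : H × H | ‖⟪star z S.ξ, p.2⟫_ℂ - (Real.exp s : ℝ) * ⟪p.1, z S.ξ⟫_ℂ‖ ≤
        K * (‖p.1‖ + ‖p.2‖)} := isClosed_le (by fun_prop) (by fun_prop)
    have h2 := closure_minimal (fun p hp => by
      obtain ⟨y, hy, rfl⟩ := hp
      exact h y hy) hcl (S.core ζ)
    have h3 : ⟪star z S.ξ, S.J (S.T ζ)⟫_ℂ = ⟪ζ, (2 - S.R) (z S.ξ)⟫_ℂ := by
      rw [← S.half z hz, ← S.JJ (star z S.ξ), S.inner_J, S.JJ, corner_inner', S.T_sa.star_eq]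
    rw [Set.mem_ofPred_eq, h3, corner_inner' S.R, S.R_sa.star_eq, S.norm_J] at h2
    rw [inner_sub_right, inner_smul_right]
    have h4 := S.R.le_of_opNorm_le S.norm_R_le ζ
    have h5 := S.T.le_of_opNorm_le S.norm_T_le ζ
    exact h2.trans ((mul_le_mul_of_nonneg_left (add_le_add h4 h5) hK).trans_eq (by ring))
  have h6 := h1 ((2 - S.R) (z S.ξ) - ((Real.exp s : ℝ) : ℂ) • S.R (z S.ξ))
  have hl := Real.exp_pos s
  have h7 : (2 - S.R) (z S.ξ) - ((Real.exp s : ℝ) : ℂ) • S.R (z S.ξ) =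
      ((-(1 + Real.exp s) : ℝ) : ℂ) • (S.R (z S.ξ) - (rr s : ℂ) • z S.ξ) := by
    have h8 : ((-(1 + Real.exp s) : ℝ) : ℂ) * (rr s : ℂ) = -2 := by
      rw [← Complex.ofReal_mul, rr, neg_mul, mul_div_cancel₀ _ (by positivity)]
      simp
    rw [smul_sub, smul_smul, h8, sub_apply, ← one_add_one_eq_two, add_apply, one_apply_eq_self]
    push_cast
    module
  have h9 : ‖S.R (z S.ξ) - (rr s : ℂ) • z S.ξ‖ ≤
      ‖(2 - S.R) (z S.ξ) - ((Real.exp s : ℝ) : ℂ) • S.R (z S.ξ)‖ := by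
    rw [h7, norm_smul, Complex.norm_real, norm_neg, Real.norm_of_nonneg (by positivity)]
    exact le_mul_of_one_le_left (norm_nonneg _) (by linarith)
  refine h9.trans ?_
  rw [inner_self_eq_norm_sq_to_K, norm_pow, RCLike.norm_ofReal, abs_norm, sq] at h6
  rcases (norm_nonneg ((2 - S.R) (z S.ξ) - ((Real.exp s : ℝ) : ℂ) • S.R (z S.ξ))).eq_or_lt with
    h0 | h0
  · rw [← h0]
    positivity
  · exact le_of_mul_le_mul_right h6 h0

/-- Let `v* v = e`, `v v* = 1` (`equiv_one`, `not_noPI`). Apply `Hin` to the single vector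
`‖e ξ‖⁻¹ • v ξ` and `l = μ⁻¹ ^ 2 = exp s`, put `y₀ = v* x v`. For `y ∈ M` test with `v y v*`; since
`e` is in the centralizer, `|⟪y₀* ξ, y* ξ⟫ - l ⟪y ξ, y₀ ξ⟫| ≤ δ ‖y₀ ξ‖ (‖y ξ‖ + ‖y* ξ‖)`. By `core`
and `half`, `‖(2 - (1 + l) R) y₀ ξ‖ ≤ 3 δ ‖y₀ ξ‖`. Apply `ae` with `N = {y₀}`, `G_conj`. -/
theorem SF.eig_corner (S : SF H) (hM : IsFactor S.M) (hin : Hin S.M) {e : Op H} (he : e ∈ S.C)
    (hp : IsStarProjection e) (h0 : e ≠ 0) {μ : ℝ} (hμ : 0 < μ) : S.Eig μ e e := by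
  intro δ hδ
  have hε : 0 < min (1 / 2) (δ / 2) := by positivity
  obtain ⟨δ', hδ', hae⟩ := S.ae (-2 * Real.log μ) hε
  obtain ⟨z, hz, h1, h2, h3, h4⟩ := S.corner_vec hM hin he hp h0
    (Real.exp_pos (-2 * Real.log μ)) (show 0 < δ' / 3 by positivity)
  have h5 := S.corner_R hz (by positivity) h4
  obtain ⟨x, hx, h6, h7⟩ := hae {z} (z S.ξ) (fun x hx => hx ▸ hz)
    (subset_closure ⟨z, rfl, rfl⟩) h3 (h5.trans_eq (by ring))
  obtain rfl : x = z := hx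
  rw [show -(-2 * Real.log μ) / 2 = Real.log μ by ring, Real.exp_log hμ] at h7
  have hσ := (S.mem_C.1 he).2
  have hn := norm_pos_iff.2 h3
  have h8 : ‖x S.ξ‖ / 2 ≤ ‖S.G (-2 * Real.log μ) 1 x S.ξ‖ := by
    have h9 := norm_sub_norm_le (x S.ξ) (S.G (-2 * Real.log μ) 1 x S.ξ)
    rw [norm_sub_rev] at h9
    have h10 := mul_le_mul_of_nonneg_right (min_le_left (1 / 2) (δ / 2)) hn.le
    linarith
  refine ⟨_, S.G_mem _ one_pos x fun t => S.σ_M x hz t, ?_, ?_, fun h => ?_, h7.trans ?_⟩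
  · simpa using S.G_conj (-2 * Real.log μ) one_pos x (a := e) (b := 1) (c := 1) (d := 1) fun t => by
      rw [mul_one, mul_one, one_mul, ← hσ t, ← S.σ_mul, h1]
  · simpa using S.G_conj (-2 * Real.log μ) one_pos x (a := 1) (b := e) (c := 1) (d := 1) fun t => by
      rw [mul_one, one_mul, ← hσ t, ← S.σ_mul, h2]
  · rw [h, zero_apply, norm_zero] at h8
    linarith
  · have h10 := mul_le_mul_of_nonneg_right (min_le_right (1 / 2) (δ / 2)) hn.le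
    have h11 := mul_le_mul_of_nonneg_left h8 hδ.le
    linarith

end Vale.Agent.P132
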