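import Vale.Agent.P132.Av
import Vale.Agent.P132.Bic
import Vale.Agent.P132.Sm

/-! P132: ergodic averages of the modular group. -/

namespace Vale.Agent.P132

open scoped InnerProductSpace BoundedContinuousFunction
open Filter Topology MeasureTheory Vale.Agent.P104

universe u

variable {H : Type u} [NormedAddCommGroup H] [InnerProductSpace ℂ H] [CompleteSpace H]

omit [CompleteSpace H] in
theorem erg_map {E : Type*} [NormedAddCommGroup E] [NormedSpace ℝ E] (L : H →L[ℝ] E)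
    {l : Filter Av} {v : ℝ → H} {y : H} (h : Tendsto (fun m => avg m v) l (𝓝 y)) :
    Tendsto (fun m => avg m fun t => L (v t)) l (𝓝 (L y)) :=
  ((L.continuous.tendsto y).comp h).congr fun m => (avg_map m (L : H →ₗ[ℝ] E) v).symm

omit [CompleteSpace H] in
theorem erg_inner (η : H) {l : Filter Av} {v : ℝ → H} {y : H}
    (h : Tendsto (fun m => avg m v) l (𝓝 y)) :
    Tendsto (fun m => avg m fun t => ⟪η, v t⟫_ℂ) l (𝓝 ⟪η, y⟫_ℂ) :=
  erg_map ((innerSL ℂ η).restrictScalars ℝ) h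

omit [CompleteSpace H] in
theorem erg_re (η : H) {l : Filter Av} {v : ℝ → H} {y : H}
    (h : Tendsto (fun m => avg m v) l (𝓝 y)) :
    Tendsto (fun m => avg m fun t => (⟪η, v t⟫_ℂ).re) l (𝓝 (⟪η, y⟫_ℂ).re) :=
  erg_map (Complex.reCLM.comp ((innerSL ℂ η).restrictScalars ℝ)) h

omit [CompleteSpace H] in
theorem erg_im (η : H) {l : Filter Av} {v : ℝ → H} {y : H}
    (h : Tendsto (fun m => avg m v) l (𝓝 y)) :
    Tendsto (fun m => avg m fun t => (⟪η, v t⟫_ℂ).im) l (𝓝 (⟪η, y⟫_ℂ).im) :=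
  erg_map (Complex.imCLM.comp ((innerSL ℂ η).restrictScalars ℝ)) h

theorem erg_const {E : Type*} [NormedAddCommGroup E] [NormedSpace ℝ E] {l : Filter Av} [l.NeBot]
    {f : ℝ → E} {y c : E} (h : Tendsto (fun m => avg m f) l (𝓝 y)) (hc : ∀ t, f t = c) :
    y = c := by
  have e : f = fun _ => c := funext hc
  simp only [e, avg_const] at h
  exact tendsto_nhds_unique h tendsto_const_nhds

theorem erg_sa_iff (T : Op H) : IsSelfAdjoint T ↔ ∀ η, (⟪η, T η⟫_ℂ).im = 0 := by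
  rw [ContinuousLinearMap.isSelfAdjoint_iff_isSymmetric,
    LinearMap.isSymmetric_iff_inner_map_self_real]
  refine forall_congr' fun η => ?_
  rw [Complex.conj_eq_iff_im, ← inner_conj_symm, Complex.conj_im, neg_eq_zero]
  rfl

theorem erg_norm_exp (t s : ℝ) : ‖Complex.exp (-(Complex.I * t * s))‖ = 1 := by
  rw [show -(Complex.I * t * s) = ((-(t * s) : ℝ) : ℂ) * Complex.I by push_cast; ring,
    Complex.norm_exp_ofReal_mul_I]

theorem erg_conj_exp (t s : ℝ) :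
    star (Complex.exp (Complex.I * t * s)) = Complex.exp (-(Complex.I * t * s)) := by
  rw [Complex.star_def, ← Complex.exp_conj]
  simp

theorem erg_exp_mul (t s : ℝ) :
    Complex.exp (Complex.I * t * s) * Complex.exp (-(Complex.I * t * s)) = 1 := by
  rw [← Complex.exp_add, add_neg_cancel, Complex.exp_zero]

theorem erg_inner_σ (F : FC H) (t : ℝ) (x : Op H) (η : H) :
    ⟪η, F.σ t x η⟫_ℂ = ⟪F.Δ (-t) η, x (F.Δ (-t) η)⟫_ℂ := by
  rw [F.σ_apply, ← inner_star_left, F.star_Δ]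

namespace SF
variable (S : SF H)

/-- `met` for the group `exp (-I t s) • Δ t` gives convergence at `ξ`, hence on the dense set
`M' ξ`; identify the limit with a weak limit along an ultrafilter (`exists_wot_lim`), then use
`strong`. -/
theorem exists_lim {l : Filter Av} [l.NeBot] (hl : Inv l) {N : VonNeumannAlgebra H}
    (hN : ∀ x ∈ N, x ∈ S.M) {x : Op H} (hx : ∀ t, S.σ t x ∈ N) (s : ℝ) :
    ∃ y ∈ N, (∀ t : ℝ, S.σ t y = Complex.exp (Complex.I * t * s) • y) ∧ ∀ ζ,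
      Tendsto (fun m => avg m fun t => Complex.exp (-(Complex.I * t * s)) • S.σ t x ζ) l
        (𝓝 (y ζ)) := by
  obtain ⟨ζ₀, hfix, hlim⟩ := met hl (fun t => Complex.exp (-(Complex.I * t * s)) • S.Δ t)
    (by simp [S.Δ_zero])
    (fun t r => by
      rw [S.Δ_add, smul_mul_smul_comm, ← Complex.exp_add]
      congr 2
      push_cast
      ring)
    (fun t => by
      rw [star_smul, S.star_Δ]
      congr 1
      have h1 := erg_conj_exp (-t) s
      push_cast at h1 ⊢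
      rw [show -(Complex.I * t * s) = Complex.I * -t * s by ring, h1]) (x S.ξ)
  obtain ⟨A, hA⟩ : ∃ A : Av → Op H,
      A = fun m => avg m fun t => Complex.exp (-(Complex.I * t * s)) • S.σ t x := ⟨_, rfl⟩
  have hAN : ∀ m, A m ∈ N := fun m => by
    rw [hA]; exact avg_mem m fun t => SMulMemClass.smul_mem _ (hx t)
  have hAn : ∀ m, ‖A m‖ ≤ ‖x‖ := fun m => by
    rw [hA]
    refine norm_avg_le m fun t => ?_
    rw [norm_smul, erg_norm_exp, one_mul, S.norm_σ]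
  have hAa : ∀ m ζ, A m ζ = avg m fun t => Complex.exp (-(Complex.I * t * s)) • S.σ t x ζ :=
    fun m ζ => by rw [hA]; exact avg_apply m _ ζ
  have hξ : Tendsto (fun m => A m S.ξ) l (𝓝 ζ₀) := by
    refine hlim.congr fun m => ?_
    rw [hAa]
    simp only [S.σ_ξ, smul_apply]
  obtain ⟨L, hLn, hL⟩ := exists_wot_lim (Ultrafilter.of l) A ‖x‖ hAn
  have hLN : L ∈ N := by
    rw [mem_iff_comm]
    intro a ha
    ext ζ
    refine ext_inner_left ℂ fun η => ?_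
    have h1 := hL ζ (star a η)
    have h2 := hL (a ζ) η
    rw [inner_star_left] at h1
    refine tendsto_nhds_unique h1 (h2.congr fun m => ?_)
    rw [inner_star_left, ← mul_apply_eq_comp, ← mul_apply_eq_comp, comm_of_mem ha (hAN m)]
  have hLξ : L S.ξ = ζ₀ := by
    refine ext_inner_left ℂ fun η => ?_
    exact tendsto_nhds_unique (hL S.ξ η)
      ((tendsto_const_nhds.inner hξ).mono_left (Ultrafilter.of_le l))
  refine ⟨L, hLN, fun t => ?_, fun ζ => ?_⟩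
  · refine S.ext_ξ (S.σ_M _ (hN _ hLN) t) (SMulMemClass.smul_mem _ (hN _ hLN)) ?_
    rw [S.σ_ξ, smul_apply, hLξ]
    have h1 := hfix t
    rw [smul_apply] at h1
    conv_rhs => rw [← h1]
    rw [smul_smul, erg_exp_mul, one_smul]
  · have h1 := S.strong (l := l) (x := fun m => A m - L) (C := ‖x‖ + ‖x‖)
      (fun m => sub_mem (hN _ (hAN m)) (hN _ hLN))
      (fun m => (norm_sub_le _ _).trans (add_le_add (hAn m) hLn))
      (by
        have h2 := hξ.sub_const ζ₀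
        rw [sub_self] at h2
        refine h2.congr fun m => ?_
        rw [sub_apply, hLξ]) ζ
    have h3 := h1.add_const (L ζ)
    rw [zero_add] at h3
    refine h3.congr fun m => ?_
    rw [sub_apply, sub_add_cancel, hAa]

theorem erg_lim_zero {l : Filter Av} [l.NeBot] (hl : Inv l) {N : VonNeumannAlgebra H}
    (hN : ∀ x ∈ N, x ∈ S.M) {x : Op H} (hx : ∀ t, S.σ t x ∈ N) :
    ∃ y ∈ N, (∀ t : ℝ, S.σ t y = y) ∧ ∀ ζ,
      Tendsto (fun m => avg m fun t => S.σ t x ζ) l (𝓝 (y ζ)) := by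
  obtain ⟨y, hy, h1, h2⟩ := S.exists_lim hl hN hx 0
  refine ⟨y, hy, fun t => ?_, fun ζ => ?_⟩
  · simpa using h1 t
  · simpa using h2 ζ

theorem erg_avg_one {l : Filter Av} [l.NeBot] (hl : Inv l) {h : Op H} (hh : h ∈ S.M)
    (hs : IsSelfAdjoint h) : ∃ h' ∈ S.C, IsSelfAdjoint h' ∧ qf h' S.ξ = qf h S.ξ ∧
      ∀ η, Tendsto (fun m => avg m fun t => qf h (S.Δ (-t) η)) l (𝓝 (qf h' η)) := by
  obtain ⟨y, hy, h1, h2⟩ := S.erg_lim_zero hl (N := S.M) (fun _ h => h) (S.σ_M h hh)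
  have h3 : ∀ η, Tendsto (fun m => avg m fun t => qf h (S.Δ (-t) η)) l (𝓝 (qf y η)) := by
    intro η
    have h4 := erg_re η (h2 η)
    simp only [erg_inner_σ] at h4
    exact h4
  refine ⟨y, S.mem_C.2 ⟨hy, h1⟩, (erg_sa_iff y).2 fun η => ?_, ?_, h3⟩
  · refine erg_const (erg_im η (h2 η)) fun t => ?_
    rw [erg_inner_σ]
    exact (erg_sa_iff h).1 hs _
  · exact erg_const (h3 S.ξ) fun t => by rw [S.Δ_ξ]

/-- averaging an inequality which is invariant under the modular group -/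
theorem avg_pair {h k : Op H} (hh : h ∈ S.M) (hk : k ∈ S.M) (hs : IsSelfAdjoint h)
    (ks : IsSelfAdjoint k) : ∃ h' ∈ S.C, ∃ k' ∈ S.C, IsSelfAdjoint h' ∧ IsSelfAdjoint k' ∧
      qf h' S.ξ = qf h S.ξ ∧ qf k' S.ξ = qf k S.ξ ∧ ∀ (η : H) (c : ℝ),
        (∀ t, 0 ≤ qf h (S.Δ t η) + qf k (S.J (S.Δ t η)) + c) → 0 ≤ qf h' η + qf k' (S.J η) + c := by
  obtain ⟨𝒰, hU⟩ := exists_inv
  obtain ⟨h', h1, h2, h3, h4⟩ := S.erg_avg_one hU hh hs
  obtain ⟨k', k1, k2, k3, k4⟩ := S.erg_avg_one hU hk ks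
  refine ⟨h', h1, k', k1, h2, k2, h3, k3, fun η c hc => ?_⟩
  refine ge_of_tendsto' (((h4 η).add (k4 (S.J η))).add_const c) fun m => ?_
  have h5 := avg_mono m (f := fun _ => (0 : ℝ))
    (g := fun t => qf h (S.Δ (-t) η) + qf k (S.Δ (-t) (S.J η)) + c) fun t => by
      rw [← S.J_Δ]; exact hc (-t)
  rw [avg_const, avg_add m (fun t => qf h (S.Δ (-t) η) + qf k (S.Δ (-t) (S.J η))) (fun _ => c),
    avg_add, avg_const] at h5
  exact h5

theorem erg (h : S.Erg) {l : Filter Av} [l.NeBot] (hl : Inv l) {b : Op H} (hb : b ∈ S.B) (ζ : H) :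
    Tendsto (fun m => avg m fun t => S.σ t b ζ) l (𝓝 (⟪S.ξ, b S.ξ⟫_ℂ • ζ)) := by
  obtain ⟨y, hy, h1, h2⟩ := S.erg_lim_zero hl (N := S.B) (fun _ h => S.B_le h) (S.σ_B hb)
  obtain ⟨c, rfl⟩ := h y hy h1
  have h3 := erg_const (erg_inner S.ξ (h2 S.ξ)) fun t => S.inner_σ t b
  rw [smul_apply, one_apply_eq_self, inner_smul_right,
    inner_self_eq_norm_sq_to_K, S.norm_ξ] at h3
  have h4 : c = ⟪S.ξ, b S.ξ⟫_ℂ := by simpa using h3
  rw [← h4]
  exact h2 ζ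

theorem erg_left (h : S.Erg) {l : Filter Av} [l.NeBot] (hl : Inv l) {b : Op H} (hb : b ∈ S.B)
    (ζ : H) : Tendsto (fun m => avg m fun t => ‖S.σ t b ζ‖ ^ 2) l (𝓝 (‖b S.ξ‖ ^ 2 * ‖ζ‖ ^ 2)) := by
  have h1 := erg_re ζ (S.erg h hl (mul_mem (star_mem hb) hb) ζ)
  have e1 : ∀ t, (⟪ζ, S.σ t (star b * b) ζ⟫_ℂ).re = ‖S.σ t b ζ‖ ^ 2 := fun t => by
    rw [S.σ_mul, S.σ_star]
    exact qf_star_mul_self _ _
  have e2 : (⟪ζ, ⟪S.ξ, (star b * b) S.ξ⟫_ℂ • ζ⟫_ℂ).re = ‖b S.ξ‖ ^ 2 * ‖ζ‖ ^ 2 := by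
    rw [inner_smul_right, mul_apply_eq_comp, inner_star_right, inner_self_eq_norm_sq_to_K,
      inner_self_eq_norm_sq_to_K]
    norm_cast
  simp only [e1, e2] at h1
  exact h1

/-- use the reflected filter -/
theorem erg_right (h : S.Erg) {l : Filter Av} [l.NeBot] (hl : Inv l) {b : Op H} (hb : b ∈ S.B)
    (ζ : H) : Tendsto (fun m => avg m fun t => ‖b (S.Δ t ζ)‖ ^ 2) l (𝓝 (‖b S.ξ‖ ^ 2 * ‖ζ‖ ^ 2)) := by
  have h1 := S.erg_left h hl.refl hb ζ
  rw [tendsto_map'_iff] at h1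
  refine h1.congr fun m => ?_
  simp only [Function.comp_apply, avg_refl, S.σ_apply, S.norm_Δ, neg_neg]

/-- Take `b ∈ B` with `⟪η, b ξ⟫ ≠ 0` and `y` from `exists_lim`: `⟪η, y ξ⟫ = ⟪η, b ξ⟫`. Then `y* y`
and `y y*` are scalars of the same norm, so `‖y ξ‖ = ‖y* ξ‖ = ‖ρ y ξ‖ = exp (s/2) ‖y ξ‖`
(`eig_of_Δ`, `ρ_of_eig`). -/
theorem noeig (h : S.Erg) {s : ℝ} (hs : s ≠ 0) {η : H} (hη : S.E η = η)
    (he : S.R η = (rr s : ℂ) • η) : η = 0 := by
  by_contra h0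
  have hb : ∃ b ∈ S.B, ⟪η, b S.ξ⟫_ℂ ≠ 0 := by
    by_contra hn
    push Not at hn
    have h1 : closure (orb (S.B : Set (Op H)) S.ξ) ⊆ {ζ | ⟪η, ζ⟫_ℂ = 0} := by
      refine closure_minimal ?_ (isClosed_eq (continuous_const.inner continuous_id) continuous_const)
      rintro _ ⟨b, hb, rfl⟩
      exact hn b hb
    exact h0 (inner_self_eq_zero.1 (h1 (S.E_iff.1 hη)))
  obtain ⟨b, hb, hb0⟩ := hb
  obtain ⟨𝒰, hU⟩ := exists_inv
  obtain ⟨y, hy, h1, h2⟩ := S.exists_lim hU (N := S.B) (fun _ h => S.B_le h) (S.σ_B hb) s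
  have h3 : ⟪η, y S.ξ⟫_ℂ = ⟪η, b S.ξ⟫_ℂ := by
    refine erg_const (erg_inner η (h2 S.ξ)) fun t => ?_
    have h4 : S.Δ (-t) η = Complex.exp (-(Complex.I * t * s)) • η := by
      have h5 := S.eig he (eB (-t))
      rw [eB_apply] at h5
      push_cast at h5
      rw [show -(Complex.I * t * s) = Complex.I * -t * s by ring]
      exact h5
    rw [inner_smul_right, S.σ_ξ, ← inner_star_left, S.star_Δ, h4, inner_smul_left,
      ← erg_conj_exp, ← mul_assoc]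
    have h6 : (starRingEnd ℂ) (star (Complex.exp (Complex.I * t * s))) =
        Complex.exp (Complex.I * t * s) := star_star _
    rw [h6, erg_conj_exp, mul_comm (Complex.exp _), erg_exp_mul, one_mul]
  have hy0 : y S.ξ ≠ 0 := fun h4 => hb0 (by rw [← h3, h4, inner_zero_right])
  obtain ⟨c, hc⟩ := h _ (mul_mem (star_mem hy) hy) fun t => by
    rw [S.σ_mul, S.σ_star, h1, star_smul, smul_mul_smul_comm, erg_conj_exp, mul_comm (Complex.exp _),
      erg_exp_mul, one_smul]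
  obtain ⟨c', hc'⟩ := h _ (mul_mem hy (star_mem hy)) fun t => by
    rw [S.σ_mul, S.σ_star, h1, star_smul, smul_mul_smul_comm, erg_conj_exp, erg_exp_mul, one_smul]
  have hcc : c = c' := by
    have h4 : y * (star y * y) = y * star y * y := (mul_assoc _ _ _).symm
    rw [hc, hc', mul_smul_comm, smul_mul_assoc, mul_one, one_mul] at h4
    have h5 : c • y S.ξ = c' • y S.ξ := congrArg (fun a : Op H => a S.ξ) h4
    exact smul_left_injective ℂ hy0 h5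
  have h6 : ‖star y S.ξ‖ ^ 2 = ‖y S.ξ‖ ^ 2 := by
    rw [← qf_star_mul_self, ← qf_star_mul_self, star_star, hc, hc', hcc]
  have h7 : S.R (y S.ξ) = (rr s : ℂ) • y S.ξ :=
    S.eig_of_Δ fun t => by rw [← S.σ_ξ, h1, smul_apply]
  have h8 := congrArg norm (S.ρ_of_eig (S.B_le hy) h7)
  rw [S.ρ_ξ, S.norm_J, norm_smul, Real.norm_of_nonneg (Real.exp_pos _).le,
    (sq_eq_sq₀ (norm_nonneg _) (norm_nonneg _)).1 h6] at h8
  have h9 : Real.exp (s / 2) = 1 :=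
    mul_right_cancel₀ (norm_ne_zero_iff.2 hy0) (by rw [one_mul]; exact h8.symm)
  rw [Real.exp_eq_one_iff] at h9
  exact hs (by linarith)

/-- Let `Z` be the centre, `P = projOn (orb Z ξ)`. If `R x ξ ≠ x ξ` for some `x ∈ Z`, then `sp`
(with `f = 1 - rB`) and `ae` give `x' = G s 1 x₀ ∈ Z`, `s ≠ 0`, with `x' ξ ≈ exp (-s/2) ξ x'`,
although `‖x' ξ‖ = ‖x'* ξ‖`. -/
theorem factor_B (h : S.Erg) : IsFactor S.B := by
  intro x hx hx'
  by_cases hR : S.R (x S.ξ) = x S.ξ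
  · exact h x hx (S.mem_C.1 (S.C_of_R (S.B_le hx) hR)).2
  exfalso
  obtain ⟨Z, hZ⟩ : ∃ Z : VonNeumannAlgebra H, ∀ z, z ∈ Z ↔ z ∈ S.B ∧ ∀ a ∈ S.B, a * z = z * a := by
    refine ⟨inter S.B S.B, fun z => ?_⟩
    rw [mem_inter]
    exact and_congr Iff.rfl ⟨fun h a ha => (h a ha).1, fun h a ha => ⟨h a ha, h _ (star_mem ha)⟩⟩
  have hZσ : ∀ z ∈ Z, ∀ t, S.σ t z ∈ Z := by
    intro z hz t
    obtain ⟨h1, h2⟩ := (hZ z).1 hz
    refine (hZ _).2 ⟨S.σ_B h1 t, fun a ha => ?_⟩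
    have h3 := congrArg (S.σ t) (h2 _ (S.σ_B ha (-t)))
    rwa [S.σ_mul, S.σ_mul, S.σ_σ, add_neg_cancel, S.σ_zero] at h3
  have hΔ : ∀ t, ∀ η ∈ orb (Z : Set (Op H)) S.ξ, S.Δ t η ∈ closure (orb (Z : Set (Op H)) S.ξ) := by
    rintro t _ ⟨z, hz, rfl⟩
    exact subset_closure ⟨S.σ t z, hZσ z hz t, (S.σ_ξ t z).symm⟩
  have hP : ∀ g, projOn (orb Z S.ξ) * S.Θ g = S.Θ g * projOn (orb Z S.ξ) := fun g =>
    (S.comm_of_Δ (fun t => projOn_comm' (hΔ t) (by rw [S.star_Δ]; exact hΔ (-t))) g).symm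
  have hxZ : x ∈ Z := (hZ x).2 ⟨hx, fun a ha => (comm_of_mem hx' ha).symm⟩
  obtain ⟨s, hs, hsp⟩ := S.sp (projOn_proj _) hP (f := 1 - rB) (η := x S.ξ)
    (projOn_apply_of_mem ⟨x, hxZ, rfl⟩) (by
      rw [map_sub, map_one, sub_apply, one_apply_eq_self, sub_ne_zero]
      exact fun h1 => hR h1.symm)
  have hs0 : s ≠ 0 := by
    rintro rfl
    exact hs (by simp [rr_zero])
  have ha : 0 < |1 - Real.exp (-s / 2)| := by
    rw [abs_pos, sub_ne_zero, ne_comm, Ne, Real.exp_eq_one_iff]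
    intro h1
    exact hs0 (by linarith)
  obtain ⟨ε, hε, hε'⟩ : ∃ ε : ℝ, 0 < ε ∧ ε * (1 + |1 - Real.exp (-s / 2)|) <
      |1 - Real.exp (-s / 2)| := by
    refine ⟨|1 - Real.exp (-s / 2)| / (2 * (1 + |1 - Real.exp (-s / 2)|)), by positivity, ?_⟩
    generalize |1 - Real.exp (-s / 2)| = a at ha
    rw [div_mul_eq_mul_div, div_lt_iff₀ (by positivity)]
    nlinarith
  obtain ⟨δ, hδ, hae⟩ := S.ae s hε
  obtain ⟨ζ, hζ1, hζ2, hζ3⟩ := hsp δ hδ
  obtain ⟨z, hz, h1, h2⟩ := hae Z ζ (fun z hz => S.B_le ((hZ z).1 hz).1)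
    ((projOn_orb_iff _ _ _).1 hζ2) (by rw [← norm_ne_zero_iff, hζ1]; exact one_ne_zero)
    (by rw [hζ1, mul_one]; exact hζ3)
  have hG : S.G s 1 z ∈ Z := S.G_mem s one_pos z (hZσ z hz)
  generalize S.G s 1 z = y at h1 h2 hG
  rw [hζ1, mul_one] at h1 h2
  obtain ⟨hy1, hy2⟩ := (hZ y).1 hG
  have h6 : ‖star y S.ξ‖ ^ 2 = ‖y S.ξ‖ ^ 2 := by
    rw [← qf_star_mul_self, ← qf_star_mul_self, star_star, hy2 _ (star_mem hy1)]
  have h7 : ‖S.ρ y S.ξ‖ = ‖y S.ξ‖ := by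
    rw [S.ρ_ξ, S.norm_J, (sq_eq_sq₀ (norm_nonneg _) (norm_nonneg _)).1 h6]
  have h8 : |1 - Real.exp (-s / 2)| * ‖y S.ξ‖ ≤ ε := by
    have h9 := abs_norm_sub_norm_le (y S.ξ) (Real.exp (-s / 2) • S.ρ y S.ξ)
    rw [norm_smul, Real.norm_of_nonneg (Real.exp_pos _).le, h7, ← one_sub_mul, abs_mul,
      abs_norm] at h9
    exact h9.trans h2
  have h10 : 1 - ε ≤ ‖y S.ξ‖ := by
    have h11 := norm_sub_norm_le ζ (y S.ξ)
    rw [norm_sub_rev, hζ1] at h11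
    linarith
  nlinarith [mul_le_mul_of_nonneg_left h10 ha.le]

end SF

end Vale.Agent.P132
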