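import Vale.Agent.P132.RvD

/-! P132: from the spectrum of the modular operator to weak approximate eigenvectors. -/

namespace Vale.Agent.P132

open scoped InnerProductSpace BoundedContinuousFunction
open Filter Topology MeasureTheory Vale.Agent.P104

universe u

variable {H : Type u} [NormedAddCommGroup H] [InnerProductSpace ℂ H] [CompleteSpace H]

section aux

variable {A : Type u} [Ring A] [StarRing A] [Algebra ℂ A] [StarModule ℂ A] {Λ : A →ₗ[ℂ] H}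

omit [CompleteSpace H] [StarModule ℂ A] in
theorem hyp_add {p q : H × H} (hp : p ∈ graphS Λ) (hq : q ∈ graphS Λ) : p + q ∈ graphS Λ := by
  refine map_mem_closure₂ (f := fun p q : H × H => p + q) continuous_add hp hq ?_
  rintro _ ⟨x, rfl⟩ _ ⟨y, rfl⟩
  exact ⟨x + y, by simp⟩

omit [CompleteSpace H] in
theorem hyp_smul (c : ℂ) {p : H × H} (hp : p ∈ graphS Λ) :
    (c • p.1, (starRingEnd ℂ) c • p.2) ∈ graphS Λ := by
  refine map_mem_closure (f := fun p : H × H => (c • p.1, (starRingEnd ℂ) c • p.2))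
    (by fun_prop) hp ?_
  rintro _ ⟨x, rfl⟩
  exact ⟨c • x, by simp⟩

/-- the images of the selfadjoint elements -/
def hypW (Λ : A →ₗ[ℂ] H) : Submodule ℝ H where
  carrier := {η | ∃ a, star a = a ∧ η = Λ a}
  add_mem' := by
    rintro _ _ ⟨x, hx, rfl⟩ ⟨y, hy, rfl⟩
    exact ⟨x + y, by rw [star_add, hx, hy], (map_add _ _ _).symm⟩
  zero_mem' := ⟨0, star_zero _, (map_zero _).symm⟩
  smul_mem' := by
    rintro r _ ⟨x, hx, rfl⟩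
    exact ⟨(r : ℂ) • x, by simp [hx], by rw [map_smul]; rfl⟩

theorem hyp_core (Λ : A →ₗ[ℂ] H) : ∃ (R : Op H) (B : H →L⋆[ℂ] H), IsSelfAdjoint R ∧
    (∀ ζ, (R ζ, B ζ) ∈ graphS Λ) ∧ ∀ ζ, ∀ q ∈ graphS Λ, ⟪q.2, B ζ⟫_ℂ = ⟪(2 - R) ζ, q.1⟫_ℂ := by
  obtain ⟨R, B, h⟩ := exists_rvd (hypW Λ)
  have h1 : ∀ k ∈ closure (hypW Λ : Set H), (k, k) ∈ graphS Λ := fun k hk => by
    refine map_mem_closure (f := fun k : H => (k, k)) (by fun_prop) hk ?_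
    rintro _ ⟨x, hx, rfl⟩
    exact ⟨x, by rw [hx]⟩
  refine ⟨R, B, h.sa, fun ζ => ?_, fun ζ q hq => ?_⟩
  · obtain ⟨k₁, m1, k₂, m2, e1, e2⟩ := h.dec ζ
    have := hyp_add (h1 _ m1) (hyp_smul Complex.I (h1 _ m2))
    rw [e1, e2]
    simpa [sub_eq_add_neg] using this
  · refine (isClosed_eq (f := fun q : H × H => ⟪q.2, B ζ⟫_ℂ)
      (g := fun q : H × H => ⟪(2 - R) ζ, q.1⟫_ℂ) (by fun_prop) (by fun_prop)).closure_subset_iff.2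
      ?_ hq
    rintro _ ⟨x, rfl⟩
    have m1 : Λ (x + star x) ∈ hypW Λ := ⟨_, by rw [star_add, star_star, add_comm], rfl⟩
    have m2 : Λ (Complex.I • (x - star x)) ∈ hypW Λ :=
      ⟨_, by simp [smul_sub, sub_eq_add_neg, add_comm], rfl⟩
    have e1 := h.inner_A (subset_closure m1) ζ
    have e2 := h.inner_A (subset_closure m2) ζ
    simp only [map_add, map_smul, map_sub, inner_add_left, inner_add_right, inner_smul_left,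
      inner_smul_right, inner_sub_left (Λ x), inner_sub_right, Complex.conj_I] at e1 e2
    change ⟪Λ (star x), B ζ⟫_ℂ = ⟪(2 - R) ζ, Λ x⟫_ℂ
    linear_combination (1 / 2) * e1 - (Complex.I / 2) * e2 +
      (1 / 2) * (⟪Λ x, B ζ⟫_ℂ - ⟪Λ (star x), B ζ⟫_ℂ + ⟪(2 - R) ζ, Λ x⟫_ℂ -
        ⟪(2 - R) ζ, Λ (star x)⟫_ℂ) * (-Complex.I_sq)

theorem hyp_form {R : Op H} {B : H →L⋆[ℂ] H} (h1 : ∀ ζ, (R ζ, B ζ) ∈ graphS Λ)
    (h2 : ∀ ζ, ∀ q ∈ graphS Λ, ⟪q.2, B ζ⟫_ℂ = ⟪(2 - R) ζ, q.1⟫_ℂ) {p : H × H}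
    (hp : p ∈ graphDelta Λ) : ∃ ζ, p.1 = R ζ ∧ p.2 = (2 - R) ζ := by
  obtain ⟨η, m1, m2⟩ := hp
  refine ⟨(1 / 2 : ℂ) • (p.1 + p.2), ?_⟩
  set ζ := (1 / 2 : ℂ) • (p.1 + p.2) with hζ
  have e0 : (2 - R) ζ = p.1 + p.2 - R ζ := by
    have : (2 - R) ζ = (2 : ℂ) • ζ - R ζ := by rw [two_smul, ← one_add_one_eq_two]; rfl
    rw [this, hζ, smul_smul]
    norm_num
  have m3 : (p.1 - R ζ, η - B ζ) ∈ graphS Λ := by
    simpa [sub_eq_add_neg] using hyp_add m1 (hyp_smul (-1) (h1 ζ))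
  have e1 : ⟪η - B ζ, η - B ζ⟫_ℂ = -⟪p.1 - R ζ, p.1 - R ζ⟫_ℂ := by
    rw [inner_sub_right, m2 _ m3, h2 ζ _ m3, ← inner_sub_left, ← inner_neg_left, e0]
    congr 1
    abel
  have e2 := congrArg Complex.re e1
  rw [Complex.neg_re] at e2
  have e3 : (⟪η - B ζ, η - B ζ⟫_ℂ).re = ‖η - B ζ‖ ^ 2 := inner_self_eq_norm_sq (𝕜 := ℂ) _
  have e4 : (⟪p.1 - R ζ, p.1 - R ζ⟫_ℂ).re = ‖p.1 - R ζ‖ ^ 2 := inner_self_eq_norm_sq (𝕜 := ℂ) _
  have e5 : p.1 = R ζ := by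
    rw [← sub_eq_zero, ← norm_eq_zero, ← sq_eq_zero_iff]
    nlinarith [sq_nonneg ‖η - B ζ‖, sq_nonneg ‖p.1 - R ζ‖]
  exact ⟨e5, by rw [e0, ← e5]; abel⟩

theorem hyp_unit {D : Op H} (hD : IsSelfAdjoint D) {c : ℝ} (hc : 0 < c)
    (h : ∀ ζ, c * ‖ζ‖ ≤ ‖D ζ‖) : IsUnit D := by
  rw [← isUnit_mul_self_iff]
  refine ContinuousLinearMap.isUnit_of_forall_le_norm_inner_map _ (c := ⟨c ^ 2, sq_nonneg c⟩)
    (by exact pow_pos hc 2) fun ζ => ?_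
  have e : ⟪(D * D) ζ, ζ⟫_ℂ = ⟪D ζ, D ζ⟫_ℂ := by
    rw [← inner_star_left D (D ζ) ζ, hD.star_eq]; rfl
  rw [e, inner_self_eq_norm_sq_to_K]
  have := pow_le_pow_left₀ (by positivity) (h ζ) 2
  simp only [norm_pow, Complex.coe_algebraMap, Complex.norm_real, norm_norm]
  change ‖ζ‖ ^ 2 * c ^ 2 ≤ _
  linarith [mul_pow c ‖ζ‖ 2]

theorem hyp_approx {R : Op H} {B : H →L⋆[ℂ] H} (hR : IsSelfAdjoint R)
    (h1 : ∀ ζ, (R ζ, B ζ) ∈ graphS Λ)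
    (h2 : ∀ ζ, ∀ q ∈ graphS Λ, ⟪q.2, B ζ⟫_ℂ = ⟪(2 - R) ζ, q.1⟫_ℂ) {l : ℝ}
    (hs : (l : ℂ) ∈ specOf (graphDelta Λ)) {c : ℝ} (hc : 0 < c) :
    ∃ ζ, ‖ζ‖ = 1 ∧ ‖(2 - R) ζ - (l : ℂ) • R ζ‖ < c := by
  by_contra hn
  push Not at hn
  have hD : IsSelfAdjoint (2 - R - (l : ℂ) • R) := by
    refine ((IsSelfAdjoint.ofNat 2).sub hR).sub ?_
    rw [IsSelfAdjoint, star_smul, hR.star_eq]
    simp
  obtain ⟨u, hu⟩ := hyp_unit hD hc fun ζ => by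
    rcases eq_or_ne ζ 0 with rfl | h0
    · simp
    · have hp := norm_pos_iff.2 h0
      have := hn (((‖ζ‖⁻¹ : ℝ) : ℂ) • ζ) (by simp [norm_smul, hp.ne'])
      rw [map_smul, map_smul, smul_comm, ← smul_sub, norm_smul, Complex.norm_real, norm_inv,
        norm_norm, le_inv_mul_iff₀ hp, mul_comm] at this
      exact this
  have hu1 : ∀ ζ, (2 - R) ((u⁻¹ : (Op H)ˣ).1 ζ) - (l : ℂ) • R ((u⁻¹ : (Op H)ˣ).1 ζ) = ζ :=
    fun ζ => by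
      have := congrArg (fun a : Op H => a ζ) u.mul_inv
      rw [hu] at this
      exact this
  have hu2 : ∀ ζ, (u⁻¹ : (Op H)ˣ).1 ((2 - R) ζ - (l : ℂ) • R ζ) = ζ := fun ζ => by
    have := congrArg (fun a : Op H => a ζ) u.inv_mul
    rw [hu] at this
    exact this
  refine hs ⟨R * (u⁻¹ : (Op H)ˣ).1, fun ζ => ⟨B ((u⁻¹ : (Op H)ˣ).1 ζ), h1 _, fun q hq => ?_⟩,
    fun p hp => ?_⟩
  · rw [h2 _ q hq, eq_add_of_sub_eq (hu1 ζ)]
    rfl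
  · obtain ⟨ζ, e1, e2⟩ := hyp_form h1 h2 hp
    rw [e1, e2, mul_apply_eq_comp, hu2]

end aux

/-- Let `R, A` be given by `exists_rvd` for `W = Λ (selfadjoint elements)`. Then
`(R ζ, A ζ) ∈ graphS` (`dec`), `(R ζ, (2 - R) ζ) ∈ graphDelta` (`inner_A`), and every element of
`graphDelta` has this form (it is a subspace and `⟪p.2, p.1⟫ = ‖η‖² ≥ 0` on it). If the selfadjoint
operator `2 - (1 + l) R` is bounded below it is invertible and `R (2 - (1 + l) R)⁻¹` is a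
resolvent. Otherwise take a unit vector `ζ` with `(2 - R) ζ ≈ l R ζ`, approximate `(R ζ, A ζ)` by
`(Λ x, Λ x*)` and normalise. -/
theorem weak_eig {A : Type u} [Ring A] [StarRing A] [Algebra ℂ A] [StarModule ℂ A] {ψ : A → ℂ}
    {Λ : A →ₗ[ℂ] H} (h : IsGNS ψ Λ) {l : ℝ} (hl : 0 < l) (hs : (l : ℂ) ∈ specOf (graphDelta Λ))
    {δ : ℝ} (hδ : 0 < δ) : ∃ x, ‖Λ x‖ = 1 ∧
      ∀ y, ‖ψ (x * star y) - l * ψ (star y * x)‖ ≤ δ * (‖Λ y‖ + ‖Λ (star y)‖) := by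
  obtain ⟨R, B, hR, h1, h2⟩ := hyp_core Λ
  obtain ⟨c, hc, hc1, hc2⟩ : ∃ c : ℝ, 0 < c ∧ 2 * (1 + l) * c ≤ 1 ∧ 2 * (1 + l) ^ 2 * c ≤ δ := by
    refine ⟨min (1 / (2 * (1 + l))) (δ / (2 * (1 + l) ^ 2)), by positivity, ?_, ?_⟩
    · rw [← le_div_iff₀' (by positivity)]; exact min_le_left _ _
    · rw [← le_div_iff₀' (by positivity)]; exact min_le_right _ _
  obtain ⟨ζ, n1, n2⟩ := hyp_approx hR h1 h2 hs hc
  obtain ⟨_, ⟨x, rfl⟩, hx⟩ := Metric.mem_closure_iff.1 (h1 ζ) c hc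
  rw [Prod.dist_eq, max_lt_iff, dist_eq_norm, dist_eq_norm] at hx
  obtain ⟨a1, a2⟩ := hx
  dsimp only at a1 a2
  have b1 : 2 ≤ c + (1 + l) * ‖R ζ‖ := by
    have e : (2 : ℂ) • ζ = ((2 - R) ζ - (l : ℂ) • R ζ) + ((1 + l : ℝ) : ℂ) • R ζ := by
      have : (2 - R) ζ = (2 : ℂ) • ζ - R ζ := by rw [two_smul, ← one_add_one_eq_two]; rfl
      rw [this]
      push_cast
      module
    have := norm_add_le ((2 - R) ζ - (l : ℂ) • R ζ) (((1 + l : ℝ) : ℂ) • R ζ)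
    rw [← e, norm_smul, norm_smul, n1, Complex.norm_real, Real.norm_of_nonneg (by positivity)]
      at this
    simp only [Complex.norm_ofNat] at this
    linarith
  have b2 : 1 ≤ (1 + l) * ‖Λ x‖ := by
    have := norm_sub_norm_le (R ζ) (Λ x)
    nlinarith
  have b3 : 0 < ‖Λ x‖ := by
    by_contra hh
    nlinarith [norm_nonneg (Λ x)]
  refine ⟨((‖Λ x‖⁻¹ : ℝ) : ℂ) • x, by simp [norm_smul, b3.ne'], fun y => ?_⟩
  have e1 := h.2 (star (((‖Λ x‖⁻¹ : ℝ) : ℂ) • x)) (star y)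
  rw [star_star] at e1
  have e2 := congrArg (starRingEnd ℂ) (h2 ζ _ (subset_closure ⟨y, rfl⟩))
  rw [inner_conj_symm, inner_conj_symm] at e2
  dsimp only at e2
  have e3 : ψ (((‖Λ x‖⁻¹ : ℝ) : ℂ) • x * star y) - l * ψ (star y * ((‖Λ x‖⁻¹ : ℝ) : ℂ) • x) =
      ((‖Λ x‖⁻¹ : ℝ) : ℂ) * (⟪Λ y, (2 - R) ζ - (l : ℂ) • R ζ⟫_ℂ + l * ⟪Λ y, R ζ - Λ x⟫_ℂ -
        ⟪B ζ - Λ (star x), Λ (star y)⟫_ℂ) := by
    rw [← e1, ← h.2, star_smul, map_smul, map_smul, inner_smul_left, inner_smul_right,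
      inner_sub_right, inner_sub_right, inner_sub_left, inner_smul_right, e2]
    simp only [Complex.star_def, Complex.conj_ofReal]
    ring
  have c1 := (norm_inner_le_norm (𝕜 := ℂ) (Λ y) ((2 - R) ζ - (l : ℂ) • R ζ)).trans
    (mul_le_mul_of_nonneg_left n2.le (norm_nonneg _))
  have c2 := (norm_inner_le_norm (𝕜 := ℂ) (Λ y) (R ζ - Λ x)).trans
    (mul_le_mul_of_nonneg_left a1.le (norm_nonneg _))
  have c3 := (norm_inner_le_norm (𝕜 := ℂ) (B ζ - Λ (star x)) (Λ (star y))).trans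
    (mul_le_mul_of_nonneg_right a2.le (norm_nonneg _))
  have c4 : ‖⟪Λ y, (2 - R) ζ - (l : ℂ) • R ζ⟫_ℂ + l * ⟪Λ y, R ζ - Λ x⟫_ℂ -
      ⟪B ζ - Λ (star x), Λ (star y)⟫_ℂ‖ ≤ (1 + l) * c * (‖Λ y‖ + ‖Λ (star y)‖) := by
    refine (norm_sub_le _ _).trans ((add_le_add_left (norm_add_le _ _) _).trans ?_)
    rw [norm_mul, Complex.norm_real, Real.norm_of_nonneg hl.le]
    have c5 := mul_le_mul_of_nonneg_left c2 hl.le
    have c6 : 0 ≤ l * c * ‖Λ (star y)‖ := by positivity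
    nlinarith
  rw [e3, norm_mul, Complex.norm_real, norm_inv, norm_norm, inv_mul_le_iff₀ b3]
  refine c4.trans ?_
  rw [← mul_assoc]
  refine mul_le_mul_of_nonneg_right ?_ (by positivity)
  have c7 := mul_le_mul_of_nonneg_left b2 (by positivity : 0 ≤ (1 + l) * c)
  have c8 := mul_le_mul_of_nonneg_left hc2 b3.le
  nlinarith

end Vale.Agent.P132
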