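import Vale.Agent.P132.Key
import Vale.Agent.P132.Beta2
import Vale.Agent.P132.Abs2

/-! P132: the flow is trivial. -/

namespace Vale.Agent.P132

open scoped InnerProductSpace BoundedContinuousFunction
open Filter Topology MeasureTheory Vale.Agent.P104

universe u

variable {H : Type u} [NormedAddCommGroup H] [InnerProductSpace ℂ H] [CompleteSpace H]

namespace SF
variable (S : SF H)

theorem EE_key2 (η : H) : S.E (S.E η) = S.E η := by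
  rw [← mul_apply_eq_comp, S.E_proj.isIdempotentElem.eq]

theorem inner_E_key2 (η ζ : H) : ⟪η, S.E ζ⟫_ℂ = ⟪S.E η, ζ⟫_ℂ := by
  rw [← inner_star_right, S.E_proj.isSelfAdjoint.star_eq]

theorem dens_key2 {ζ : H} {C : ℝ} (hC : 0 ≤ C)
    (h : ∀ x ∈ S.B, ‖⟪x S.ξ, ζ⟫_ℂ‖ ≤ C * ‖x S.ξ‖) : ‖S.E ζ‖ ≤ C := by
  have h1 : closure (orb (S.B : Set (Op H)) S.ξ) ⊆ {η | ‖⟪η, ζ⟫_ℂ‖ ≤ C * ‖η‖} := by
    refine closure_minimal ?_ (isClosed_le (by fun_prop) (by fun_prop))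
    rintro _ ⟨x, hx, rfl⟩
    exact h x hx
  have h2 : ‖⟪S.E ζ, ζ⟫_ℂ‖ ≤ C * ‖S.E ζ‖ := h1 (S.E_iff.1 (S.EE_key2 ζ))
  rw [← S.EE_key2 ζ, ← S.inner_E_key2, S.EE_key2, inner_self_eq_norm_sq_to_K, norm_pow,
    RCLike.norm_ofReal, abs_norm] at h2
  by_contra hn
  nlinarith [not_le.1 hn]

theorem lim_key2 (h : S.Erg) {l : Filter Av} [l.NeBot] (hl : Inv l) {x : Op H} (hx : x ∈ S.B)
    (ζ : H) {w : ℝ → H} {u : Av → ℂ} {u₀ : ℂ} {a : Av → ℝ} {a₀ : ℝ} (h0 : 0 ≤ a₀)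
    (hu : Tendsto u l (𝓝 u₀)) (e : ∀ m, u m = avg m fun t => ⟪S.σ t x ζ, w t⟫_ℂ)
    (ha : Tendsto a l (𝓝 (a₀ ^ 2))) (hw : ∀ᶠ m in l, (avg m fun t => ‖w t‖ ^ 2) ≤ a m) :
    ‖u₀‖ ≤ ‖ζ‖ * a₀ * ‖x S.ξ‖ := by
  have h1 := (S.erg_left h hl hx ζ).sqrt.mul ha.sqrt
  rw [← mul_pow, Real.sqrt_sq (by positivity), Real.sqrt_sq h0] at h1
  refine (le_of_tendsto_of_tendsto hu.norm h1 ?_).trans (le_of_eq (by ring))
  filter_upwards [hw] with m hm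
  rw [e]
  exact (norm_avg_inner_le _ _ _).trans
    (mul_le_mul_of_nonneg_left (Real.sqrt_le_sqrt hm) (Real.sqrt_nonneg _))

theorem exists_L_key2 (𝒰 : Ultrafilter Av) (hl : Inv (𝒰 : Filter Av)) {b z : Op H}
    (hz : z ∈ S.M) (hbz : b S.ξ = S.ρ z S.ξ) : ∃ L : Op H, (∀ f, S.Θ f * L = L * S.Θ f) ∧
      ∀ x ∈ S.M, ∀ ζ, Tendsto (fun m => avg m fun t => ⟪S.σ t x (b S.ξ), b (S.Δ t ζ)⟫_ℂ) 𝒰
        (𝓝 ⟪x S.ξ, L ζ⟫_ℂ) := by
  obtain ⟨a, ha⟩ : ∃ a, a = star (S.ρ z) * b := ⟨_, rfl⟩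
  obtain ⟨L, -, hL⟩ := exists_wot_lim 𝒰 (fun m => avg m fun t => S.σ (-t) a) ‖a‖
    fun m => norm_avg_le m fun t => (S.norm_σ _ _).le
  simp only [avg_apply, inner_avg] at hL
  refine ⟨L, S.comm_of_Δ fun s => (S.σ_eq_iff s L).1 ?_, fun x hx ζ => ?_⟩
  · refine ContinuousLinearMap.ext fun ζ => ext_inner_left ℂ fun η => ?_
    have h1 := (hl.tendsto (f := fun t => ⟪η, S.σ (-t) a ζ⟫_ℂ) (C := ‖η‖ * (‖a‖ * ‖ζ‖))
      (fun t => (norm_inner_le_norm _ _).trans (mul_le_mul_of_nonneg_left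
        (S.norm_σ (-t) a ▸ (S.σ (-t) a).le_opNorm ζ) (norm_nonneg _))) (-s)).add (hL ζ η)
    have h2 : ∀ y : Op H, ⟪η, S.σ s y ζ⟫_ℂ = ⟪S.Δ (-s) η, y (S.Δ (-s) ζ)⟫_ℂ := fun y => by
      rw [FC.σ_apply, ← S.star_Δ s, inner_star_left]
    rw [zero_add] at h1
    rw [h2]
    refine tendsto_nhds_unique (hL _ _) (h1.congr fun m => ?_)
    rw [sub_add_cancel]
    congr 1
    funext t
    rw [← h2, S.σ_σ, neg_add, neg_neg, add_comm]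
  · refine (hL ζ (x S.ξ)).congr fun m => ?_
    congr 1
    funext t
    rw [FC.σ_apply, neg_neg, ← S.star_Δ t, inner_star_right, ha, mul_apply_eq_comp,
      inner_star_right, ← S.σ_ξ, ← S.ρ_comm_apply (S.σ_M x hx t) hz, hbz]

theorem loc_key2 (h : S.Erg) {l : Filter Av} [l.NeBot] (hl : Inv l) {b c L x : Op H}
    (hL : ∀ x ∈ S.M, ∀ ζ, Tendsto (fun m => avg m fun t => ⟪S.σ t x (b S.ξ), b (S.Δ t ζ)⟫_ℂ) l
      (𝓝 ⟪x S.ξ, L ζ⟫_ℂ)) (hx : x ∈ S.B) {ε : ℝ} (hε : 0 ≤ ε)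
    (hk : ∀ᶠ m in l,
      avg m (fun t => ‖(b * S.σ t x - S.σ t x * c) S.ξ‖ ^ 2) ≤ (ε * ‖x S.ξ‖) ^ 2) :
    ‖S.E (L (x S.ξ)) - ⟪b S.ξ, c S.ξ⟫_ℂ • x S.ξ‖ ≤ ‖b S.ξ‖ * (ε * ‖x S.ξ‖) := by
  have e : S.E (L (x S.ξ)) - ⟪b S.ξ, c S.ξ⟫_ℂ • x S.ξ =
      S.E (L (x S.ξ) - ⟪b S.ξ, c S.ξ⟫_ℂ • x S.ξ) := by rw [map_sub, map_smul, S.E_B hx]
  rw [e]
  refine S.dens_key2 (by positivity) fun y hy => ?_
  have h1 := (tendsto_const_nhds (x := b S.ξ)).inner (𝕜 := ℂ)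
    (S.erg h hl (mul_mem (star_mem hy) hx) (c S.ξ))
  have h2 := (hL y (S.B_le hy) (x S.ξ)).sub h1
  rw [inner_smul_right, mul_apply_eq_comp, inner_star_right, mul_comm, ← inner_smul_right,
    ← inner_sub_right] at h2
  refine S.lim_key2 h hl hy (b S.ξ) (by positivity) h2 (fun m => ?_) tendsto_const_nhds hk
  rw [inner_avg, ← avg_sub]
  congr 1
  funext t
  rw [S.σ_mul, S.σ_star, mul_apply_eq_comp, inner_star_right, ← S.σ_ξ, ← inner_sub_right]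
  rfl

/-- `T = E L E` with `L` the weak limit of `avg m (Δ (-t) (ρ z)* b Δ t)`, where `b ξ = ρ z ξ`.
It commutes with `Δ` (`Inv.tendsto`), the norm bound follows from `norm_avg_inner_le`, `erg_left`,
`erg_right` and density; the local estimate from `ae`, `key` and `erg` applied to `x'* x`. -/
theorem exists_T (h : S.Erg) {U : ℝ → Op H}
    (hU : ∀ s, ∀ b ∈ S.B, ∃ c ∈ S.B, S.Itw (Real.exp (-s / 2)) b c ∧ U s (b S.ξ) = c S.ξ)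
    (𝒰 : Ultrafilter Av) (hl : Inv (𝒰 : Filter Av)) {b z : Op H} (hb : b ∈ S.B) (hz : z ∈ S.M)
    (hbz : b S.ξ = S.ρ z S.ξ) :
    ∃ T, Loc S.toFC S.E T (fun s => ⟪b S.ξ, U s (b S.ξ)⟫_ℂ) (‖b S.ξ‖ ^ 2) ∧ ∀ x ∈ S.B,
      Tendsto (fun m => avg m fun t => ⟪S.σ t x (b S.ξ), b (S.σ t x S.ξ)⟫_ℂ) 𝒰
        (𝓝 ⟪x S.ξ, T (x S.ξ)⟫_ℂ) := by
  obtain ⟨L, hΘ, hL⟩ := S.exists_L_key2 𝒰 hl hz hbz
  have hEE : S.E * S.E = S.E := S.E_proj.isIdempotentElem.eq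
  have hn : ‖S.E * L * S.E‖ ≤ ‖b S.ξ‖ ^ 2 := by
    refine ContinuousLinearMap.opNorm_le_bound _ (by positivity) fun ζ => ?_
    have h1 : ‖S.E (L (S.E ζ))‖ ≤ ‖b S.ξ‖ * (‖b S.ξ‖ * ‖S.E ζ‖) :=
      S.dens_key2 (by positivity) fun x hx => S.lim_key2 h hl hx (b S.ξ) (by positivity)
        (hL x (S.B_le hx) _) (fun _ => rfl) (mul_pow ‖b S.ξ‖ ‖S.E ζ‖ 2 ▸ S.erg_right h hl hb _)
        (Eventually.of_forall fun _ => le_rfl)
    refine h1.trans ?_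
    rw [← mul_assoc, ← sq]
    exact mul_le_mul_of_nonneg_left (abs1_proj_le S.E_proj ζ) (by positivity)
  refine ⟨S.E * L * S.E, ⟨by rw [← mul_assoc, ← mul_assoc, hEE], by rw [mul_assoc, hEE],
    fun f => ?_, hn, fun s ε hε => ?_⟩, fun x hx => ?_⟩
  · rw [← mul_assoc, ← mul_assoc, ← S.E_Θ, mul_assoc S.E, hΘ, mul_assoc, mul_assoc, ← S.E_Θ]
    simp only [mul_assoc]
  · obtain ⟨c, -, hc, e⟩ := hU s b hb
    simp only [e]
    obtain ⟨g, hg⟩ : ∃ g, g = ⟪b S.ξ, c S.ξ⟫_ℂ := ⟨_, rfl⟩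
    have p1 : 0 < 4 * (‖b S.ξ‖ + 1) := by positivity
    have p2 : 0 < 2 * (‖b S.ξ‖ ^ 2 + ‖g‖ + 1) := by positivity
    obtain ⟨δ, hδ, hk⟩ := S.key h (Real.exp_pos _) (S.B_le hb) hc (div_pos hε p1)
    obtain ⟨ε', hε', q1, q2, q3⟩ : ∃ ε' : ℝ, 0 < ε' ∧ ε' ≤ 1 / 2 ∧ ε' ≤ δ / 2 ∧
        ε' ≤ ε / (2 * (‖b S.ξ‖ ^ 2 + ‖g‖ + 1)) :=
      ⟨min (1 / 2) (min (δ / 2) _), lt_min one_half_pos (lt_min (half_pos hδ) (div_pos hε p2)),
        min_le_left _ _, (min_le_right _ _).trans (min_le_left _ _),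
        (min_le_right _ _).trans (min_le_right _ _)⟩
    obtain ⟨δ', hδ', ha⟩ := S.ae s hε'
    refine ⟨δ', hδ', fun η e1 e2 => ?_⟩
    by_cases h0 : η = 0
    · simp [h0]
    obtain ⟨x₀, hx₀, a1, a2⟩ := ha S.B η (fun _ => S.B_le) (S.E_iff.1 e1) h0 e2
    have hx : S.G s 1 x₀ ∈ S.B := S.G_mem s one_pos x₀ (S.σ_B hx₀)
    generalize S.G s 1 x₀ = x at a1 a2 hx
    have n0 := norm_nonneg η
    have a3 := abs_le.1 ((abs_norm_sub_norm_le _ _).trans a1)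
    have a4 : ‖η‖ ≤ 2 * ‖x S.ξ‖ := by nlinarith [a3.1]
    have a5 : ‖x S.ξ‖ ≤ 2 * ‖η‖ := by nlinarith [a3.2]
    have a6 := S.loc_key2 h hl hL hx (div_pos hε p1).le (hk x hx (by nlinarith) _ hl)
    rw [← hg] at a6 ⊢
    have a7 : (S.E * L * S.E) η - g • η = (S.E (L (x S.ξ)) - g • x S.ξ) -
        ((S.E * L * S.E) (x S.ξ - η) - g • (x S.ξ - η)) := by
      rw [map_sub, smul_sub, mul_apply_eq_comp _ _ (x S.ξ), S.E_B hx, mul_apply_eq_comp S.E L]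
      abel
    have a8 : ‖(S.E * L * S.E) (x S.ξ - η) - g • (x S.ξ - η)‖ ≤
        (‖b S.ξ‖ ^ 2 + ‖g‖ + 1) * (ε' * ‖η‖) := by
      refine (norm_sub_le _ _).trans ?_
      rw [norm_smul]
      have b1 := ((S.E * L * S.E).le_opNorm (x S.ξ - η)).trans
        (mul_le_mul hn a1 (norm_nonneg _) (by positivity))
      have b2 := mul_le_mul_of_nonneg_left a1 (norm_nonneg g)
      have b3 : 0 ≤ ε' * ‖η‖ := by positivity
      linarith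
    have a9 : ‖b S.ξ‖ * (ε / (4 * (‖b S.ξ‖ + 1)) * ‖x S.ξ‖) ≤ ε / 2 * ‖η‖ := by
      have b1 : ‖b S.ξ‖ * (ε / (4 * (‖b S.ξ‖ + 1))) ≤ ε / 4 := by
        rw [← mul_div_assoc, div_le_iff₀ p1]
        nlinarith
      rw [← mul_assoc]
      refine (mul_le_mul b1 a5 (norm_nonneg _) (by positivity)).trans (le_of_eq (by ring))
    rw [le_div_iff₀ p2] at q3
    rw [a7]
    refine (norm_sub_le _ _).trans ?_
    nlinarith [mul_le_mul_of_nonneg_right q3 n0]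
  · simp only [S.σ_ξ]
    rw [mul_apply_eq_comp, mul_apply_eq_comp, S.inner_E_key2, S.E_B hx]
    exact hL x (S.B_le hx) _

/-- `Sym.dichotomy` for `D = B`, `v b = G 0 1 b ξ` (`G_analytic`, `dense_range`), `T` from an
invariant ultrafilter and `T'` from its reflection; `noeig`. In the first case `B ⊆ C`. -/
theorem dichotomy (h : S.Erg) (hW : S.HasW) : (∀ b ∈ S.B, ∃ c : ℂ, b = c • (1 : Op H)) ∨
    ∀ μ : ℝ, 0 < μ → ∀ b ∈ S.B, S.Itw μ b b := by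
  obtain ⟨U, u0, u1, u2, u3, u4, hU⟩ := exists_U hW
  obtain ⟨𝒰, hl⟩ := exists_inv
  have hG : ∀ d : {x // x ∈ S.B}, S.G 0 1 d ∈ S.B := fun d => S.G_mem 0 one_pos _ (S.σ_B d.2)
  choose z hz hbz using fun d : {x // x ∈ S.B} => S.G_analytic (S.B_le d.2)
  choose T hT hT1 using fun d => S.exists_T h hU 𝒰 hl (hG d) (hz d) (hbz d)
  choose T' hT' hT1' using fun d => S.exists_T h hU (𝒰.map Av.refl) hl.refl (hG d) (hz d) (hbz d)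
  have hS : Sym S.toFC S.E U (fun d : {x // x ∈ S.B} => S.G 0 1 d S.ξ) T T' := by
    refine ⟨S.E_proj, S.E_Θ, u0, u1, u2, u3, u4, fun d => S.E_B (hG d), fun η hη => ?_, hT, hT',
      fun d d' => ?_⟩
    · rw [← closure_closure]
      refine Metric.mem_closure_iff.2 fun ε hε => ?_
      obtain ⟨ζ, e1, e2⟩ := S.dense_range (f := gB 0 1)
        (fun u => Complex.ofReal_ne_zero.2 (gau_pos 0 1 u).ne') S.E_proj S.E_Θ hη (half_pos hε)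
      refine ⟨S.Θ (gB 0 1) ζ, map_mem_closure (S.Θ (gB 0 1)).continuous (S.E_iff.1 e1) ?_, ?_⟩
      · rintro _ ⟨x, hx, rfl⟩
        exact ⟨⟨x, hx⟩, S.G_ξ 0 one_pos x⟩
      · rw [dist_eq_norm]
        linarith
    · have h1 := (Complex.continuous_conj.tendsto _).comp (tendsto_map'_iff.1 (hT1' d _ (hG d')))
      refine tendsto_nhds_unique (hT1 d' _ (hG d)) (h1.congr fun m => ?_)
      simp only [Function.comp_apply, avg_refl]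
      refine (avg_map m Complex.conjAe.toLinearMap _).symm.trans ?_
      congr 1
      funext t
      refine (inner_conj_symm _ _).trans ?_
      rw [← S.inner_Δ t, S.σ_ξ, S.σ_ξ, FC.σ_apply, FC.σ_apply, neg_neg,
        ← mul_apply_eq_comp (S.Δ t) (S.Δ (-t)), S.Δ_mul_neg, one_apply_eq_self]
  rcases hS.dichotomy fun s hs η e1 e2 => S.noeig h hs e1 e2 with h1 | h1
  · exact Or.inl fun b hb => h b hb (S.mem_C.1 (S.C_of_R (S.B_le hb) (h1 _ (S.E_B hb)))).2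
  · refine Or.inr fun μ hμ b hb => ?_
    obtain ⟨c, hc, i1, i2⟩ := hU (-2 * Real.log μ) b hb
    rw [h1, S.E_B hb] at i2
    rw [show -(-2 * Real.log μ) / 2 = Real.log μ by ring, Real.exp_log hμ,
      ← S.ext_ξ (S.B_le hb) (S.B_le hc) i2] at i1
    exact i1

end SF

end Vale.Agent.P132
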