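import Vale.Agent.P132.Last
import Vale.Agent.P132.Key2
import Vale.Agent.P132.B1
import Vale.Agent.P132.Corner
import Vale.Agent.P132.Tom3
import Vale.Agent.P132.Hyp
import Vale.Agent.P132.Gns

/-! P132: assembly. -/

namespace Vale.Agent.P132

open scoped InnerProductSpace BoundedContinuousFunction
open Filter Topology MeasureTheory Vale.Agent.P104

universe u

variable {H : Type u} [NormedAddCommGroup H] [InnerProductSpace ℂ H] [CompleteSpace H]

theorem SF.core_thm (S : SF H) (hM : IsFactor S.M) (hin : Hin S.M) {a : Op H} (ha : a ∈ S.B) :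
    ∃ c : ℂ, a = c • (1 : Op H) := by
  have hE : ∀ e ∈ S.C, IsStarProjection e → e ≠ 0 → ∀ μ : ℝ, 0 < μ → S.Eig μ e e :=
    fun e he hp h0 μ hμ => S.eig_corner hM hin he hp h0 hμ
  have hW : S.HasW := fun μ ε hμ hε => by
    obtain ⟨ι, _, x, hx, -⟩ := S.exists_good hE (one_mem _) (IsStarProjection.one _) hμ hε
    exact ⟨ι, _, x, hx⟩
  have h : S.Erg := S.erg_of_eig fun e he f hf pe pf e0 f0 => S.eig_one hM hE he hf pe pf e0 f0
  rcases S.dichotomy h hW with h1 | h1
  · exact h1 a ha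
  · exact S.last h hW h1 ha

section
variable {M : VonNeumannAlgebra H} {K : Type u} [NormedAddCommGroup K] [InnerProductSpace ℂ K]
  [CompleteSpace K] {N : VonNeumannAlgebra K} {π : M.toStarSubalgebra →⋆ₐ[ℂ] Op K}
  (hN : ∀ y, y ∈ N ↔ ∃ x, π x = y) (hπ : ∀ x, ‖π x‖ = ‖x‖)
include hN hπ

omit hN in
theorem final_inj {x y : M.toStarSubalgebra} (h : π x = π y) : x = y := by
  rw [← sub_eq_zero, ← norm_eq_zero, ← hπ, map_sub, h, sub_self, norm_zero]

theorem factor_of (hM : IsFactor M) : IsFactor N := by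
  intro x hx hx'
  obtain ⟨a, rfl⟩ := (hN x).1 hx
  obtain ⟨c, hc⟩ := hM a a.2 (VonNeumannAlgebra.mem_commutant_iff.2 fun b hb => by
    have e : (⟨b, hb⟩ : M.toStarSubalgebra) * a = a * ⟨b, hb⟩ := final_inj hπ (by
      rw [map_mul, map_mul]
      exact (comm_of_mem hx' ((hN _).2 ⟨_, rfl⟩)).symm)
    exact congrArg Subtype.val e)
  have e : a = c • (1 : M.toStarSubalgebra) := Subtype.ext hc
  exact ⟨c, by rw [e, map_smul, map_one]⟩

/-- `ψ = ∑' ω i` converges in norm, so it is in the closed subspace `predual M`; `weak_eig` -/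
theorem hin_of (hF : FullSpectrum M)
    (hn : ∀ η : K, ∃ ω ∈ predual M, ∀ x, ω x = ⟪η, π x η⟫_ℂ) : Hin N := by
  intro I η h1 hsep l δ hl hδ
  choose ω hω hω' using hn
  have hs : Summable fun i => ω (η i) := by
    refine Summable.of_norm_bounded h1.summable fun i => ?_
    refine ContinuousLinearMap.opNorm_le_bound _ (sq_nonneg _) fun x => ?_
    rw [hω', ← hπ x]
    calc _ ≤ ‖η i‖ * (‖π x‖ * ‖η i‖) := (norm_inner_le_norm _ _).trans
          (mul_le_mul_of_nonneg_left ((π x).le_opNorm _) (norm_nonneg _))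
      _ = _ := by ring
  have hψ : ∀ x, HasSum (fun i => ⟪η i, π x (η i)⟫_ℂ) ((∑' i, ω (η i)) x) := fun x => by
    simpa only [ContinuousLinearMap.apply_apply, hω'] using
      (ContinuousLinearMap.apply ℂ ℂ x).hasSum hs.hasSum
  have hψ2 : ∀ x y, HasSum (fun i => ⟪π x (η i), π y (η i)⟫_ℂ) ((∑' i, ω (η i)) (star x * y)) :=
    fun x y => by
      simpa only [map_mul, map_star, mul_apply_eq_comp, inner_star_right] using hψ (star x * y)
  have hψ3 : ∀ x, HasSum (fun i => ((‖π x (η i)‖ ^ 2 : ℝ) : ℂ)) ((∑' i, ω (η i)) (star x * x)) :=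
    fun x => by simpa [inner_self_eq_norm_sq_to_K] using hψ2 x x
  have hψ4 : ∀ x, Summable fun i => ‖π x (η i)‖ ^ 2 := fun x =>
    Complex.summable_ofReal.1 (hψ3 x).summable
  have hψ5 : ∀ x, (∑' i, ω (η i)) (star x * x) = ((∑' i, ‖π x (η i)‖ ^ 2 : ℝ) : ℂ) := fun x => by
    rw [Complex.ofReal_tsum, (hψ3 x).tsum_eq]
  have hst : IsFNState M (∑' i, ω (η i)) := by
    refine ⟨?_, ?_, fun x => ?_, fun x hx => ?_⟩
    · exact isClosed_closure.mem_of_tendsto hs.hasSum (Eventually.of_forall fun s =>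
        (Submodule.topologicalClosure _).sum_mem fun i _ => hω (η i))
    · have e := hψ5 1
      rw [star_one, mul_one, map_one π] at e
      rw [e]
      simp only [one_apply_eq_self, h1.tsum_eq, Complex.ofReal_one]
    · rw [hψ5]
      exact Complex.zero_le_real.2 (tsum_nonneg fun i => sq_nonneg _)
    · rw [hψ5, Complex.ofReal_eq_zero] at hx
      refine final_inj hπ ?_
      rw [map_zero]
      refine hsep _ ((hN _).2 ⟨_, rfl⟩) fun i => ?_
      have := (hψ4 x).le_tsum i fun j _ => sq_nonneg _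
      rw [hx] at this
      exact norm_eq_zero.1 (pow_eq_zero_iff two_ne_zero |>.1 (le_antisymm this (sq_nonneg _)))
  obtain ⟨K', _, _, _, Λ, hΛ, hsp⟩ := hF _ hst l hl
  obtain ⟨x, hx1, hx⟩ := weak_eig hΛ hl hsp hδ
  have hΛn : ∀ y, ∑' i, ‖π y (η i)‖ ^ 2 = ‖Λ y‖ ^ 2 := fun y => by
    have e := hΛ.2 y y
    rw [hψ5, inner_self_eq_norm_sq_to_K] at e
    exact (Complex.ofReal_injective (by rw [← e]; simp)).symm
  refine ⟨π x, (hN _).2 ⟨_, rfl⟩, by rw [hΛn, hx1, one_pow], fun y hy => ?_⟩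
  obtain ⟨y, rfl⟩ := (hN y).1 hy
  have e := hx y
  rw [← star_star x, ← (hψ2 _ _).tsum_eq, star_star, ← (hψ2 _ _).tsum_eq] at e
  rw [← map_star, ← map_star, hΛn, hΛn, Real.sqrt_sq (norm_nonneg _), Real.sqrt_sq (norm_nonneg _)]
  exact e

end

/-- `mem_B_of_seq`, `norm_comm_le`, `predual_tendsto` -/
theorem bicentralizer_scalar {M : VonNeumannAlgebra H} (hM : IsFactor M) (hF : FullSpectrum M)
    {φ : M.toStarSubalgebra →L[ℂ] ℂ} (hφ : IsFNState M φ) {a : M.toStarSubalgebra}
    (ha : a ∈ bicentralizer M φ) : ∃ c : ℂ, a = c • (1 : M.toStarSubalgebra) := by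
  obtain ⟨K, _, _, _, N, ξ, π, hN, hπ, h1, hc, hc', hφπ, hn⟩ := exists_gns M hφ
  obtain ⟨S, rfl, rfl⟩ := exists_sf N h1 hc hc'
  have hB : π a ∈ S.B := by
    refine S.mem_B_of_seq ((hN _).2 ⟨_, rfl⟩) fun w hw hw1 hD => ?_
    choose v hv using fun n => (hN _).1 (hw n)
    have hv1 : ∀ n, ‖v n‖ ≤ 1 := fun n => by rw [← hπ, hv]; exact hw1 n
    have hac : AsCent M φ v := by
      refine ⟨⟨1, hv1⟩, squeeze_zero (fun n => norm_nonneg _) (fun n => ?_)
        (by simpa using hD.norm.const_mul 2)⟩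
      refine ContinuousLinearMap.opNorm_le_bound _ (by positivity) fun y => ?_
      have := S.norm_comm_le (hw n) ((hN _).2 ⟨y, rfl⟩)
      rw [hπ, ← hv, ← map_mul, ← map_mul, ← hφπ, ← hφπ, hv] at this
      exact this
    have hu := ha v hac
    have hb : ∀ n, ‖star (a * v n - v n * a) * (a * v n - v n * a)‖ ≤ (2 * ‖a‖) * (2 * ‖a‖) :=
      fun n => by
        have k : ‖a * v n - v n * a‖ ≤ 2 * ‖a‖ := by
          have k1 := norm_sub_le (a * v n) (v n * a)
          have k2 := norm_mul_le a (v n)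
          have k3 := norm_mul_le (v n) a
          nlinarith [hv1 n, norm_nonneg a]
        refine (norm_mul_le _ _).trans ?_
        rw [norm_star]
        exact mul_le_mul k k (norm_nonneg _) (by positivity)
    have ht := predual_tendsto hφ.1 (y := 0) (l := atTop) hb fun η ζ => by
      have := (hu η).inner (𝕜 := ℂ) (hu ζ)
      simpa only [MulMemClass.coe_mul, StarMemClass.coe_star, mul_apply_eq_comp, inner_star_right,
        inner_zero_right, ZeroMemClass.coe_zero, zero_apply] using this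
    rw [map_zero] at ht
    simp only [hφπ, map_mul, map_star, map_sub, hv, mul_apply_eq_comp, inner_star_right,
      inner_self_eq_norm_sq_to_K] at ht
    rw [tendsto_zero_iff_norm_tendsto_zero] at ht ⊢
    have := ht.sqrt
    simpa using this
  obtain ⟨c, hc⟩ := S.core_thm (factor_of hN hπ hM) (hin_of hN hπ hF hn) hB
  exact ⟨c, final_inj hπ (by rw [hc, map_smul, map_one])⟩

end Vale.Agent.P132
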