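import Vale.Agent.P132.L2

/-! P132: a Hahn-Banach separation for pairs of vector functionals. -/

namespace Vale.Agent.P132

open scoped InnerProductSpace BoundedContinuousFunction
open Filter Topology MeasureTheory Vale.Agent.P104

universe u

variable {H : Type u} [NormedAddCommGroup H] [InnerProductSpace ℂ H] [CompleteSpace H]

/-- the vector functional `⟪η, · ζ⟫` on `N` -/
noncomputable def hbW (N : VonNeumannAlgebra H) (η ζ : H) : N.toStarSubalgebra →L[ℂ] ℂ :=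
  LinearMap.mkContinuous
    { toFun := fun z => ⟪η, (z : Op H) ζ⟫_ℂ
      map_add' := fun x y => by simp
      map_smul' := fun c x => by simp } (‖η‖ * ‖ζ‖) fun z => by
    refine (norm_inner_le_norm _ _).trans ?_
    rw [mul_assoc, mul_comm ‖ζ‖]
    exact mul_le_mul_of_nonneg_left ((z : Op H).le_opNorm ζ) (norm_nonneg _)

theorem hbW_apply (N : VonNeumannAlgebra H) (η ζ : H) (z : N.toStarSubalgebra) :
    hbW N η ζ z = ⟪η, (z : Op H) ζ⟫_ℂ := rfl

theorem norm_hbW_le (N : VonNeumannAlgebra H) (η ζ : H) : ‖hbW N η ζ‖ ≤ ‖η‖ * ‖ζ‖ :=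
  LinearMap.mkContinuous_norm_le _ (by positivity) _

theorem hb_rep (N : VonNeumannAlgebra H) (Φ : (N.toStarSubalgebra →L[ℂ] ℂ) →L[ℂ] ℂ) :
    ∃ T ∈ N, ∀ η ζ : H, ⟪T η, ζ⟫_ℂ = Φ (hbW N η ζ) := by
  let B : H →L⋆[ℂ] H →L[ℂ] ℂ := LinearMap.mkContinuous₂
    (LinearMap.mk₂'ₛₗ (starRingEnd ℂ) (RingHom.id ℂ) (fun η ζ => Φ (hbW N η ζ))
      (fun a b c => by
        rw [← map_add]
        congr 1
        ext z
        simp [hbW_apply])
      (fun a b c => by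
        rw [← map_smul]
        congr 1
        ext z
        simp [hbW_apply, mul_comm])
      (fun a b c => by
        rw [← map_add]
        congr 1
        ext z
        simp [hbW_apply])
      (fun a b c => by
        rw [← map_smul]
        congr 1
        ext z
        simp [hbW_apply])) ‖Φ‖ fun η ζ => by
      refine (Φ.le_opNorm _).trans ?_
      rw [mul_assoc]
      exact mul_le_mul_of_nonneg_left (norm_hbW_le N η ζ) (norm_nonneg _)
  have hT : ∀ η ζ : H, ⟪InnerProductSpace.continuousLinearMapOfBilin B η, ζ⟫_ℂ =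
      Φ (hbW N η ζ) := fun η ζ => InnerProductSpace.continuousLinearMapOfBilin_apply B η ζ
  refine ⟨_, (mem_iff_comm N).2 fun s hs => ?_, hT⟩
  ext η
  refine ext_inner_right ℂ fun ζ => ?_
  rw [mul_apply_eq_comp, mul_apply_eq_comp, ← inner_star_right, hT, hT]
  congr 1
  ext z
  have h := comm_of_mem (star_mem hs) (show (z : Op H) ∈ N from z.2)
  rw [hbW_apply, hbW_apply, ← inner_star_right, ← mul_apply_eq_comp,
    ← mul_apply_eq_comp, h]

/-- a bounded real functional on the dual of `N` is given on vector functionals by an element of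
`N`: the sesquilinear form `Λ ω - I Λ (I ω)`, `ω = ⟪η, · ζ⟫`, is given by an operator which commutes
with the commutant -/
theorem dual_rep (N : VonNeumannAlgebra H) (Λ : (N.toStarSubalgebra →L[ℂ] ℂ) →L[ℝ] ℝ) :
    ∃ h ∈ N, IsSelfAdjoint h ∧ ∀ (η : H) (ω : N.toStarSubalgebra →L[ℂ] ℂ),
      (∀ z, ω z = ⟪η, (z : Op H) η⟫_ℂ) → Λ ω = qf h η := by
  obtain ⟨T, hT, h⟩ := hb_rep N (StrongDual.extendRCLike (𝕜 := ℂ) Λ)
  refine ⟨(1 / 2 : ℝ) • (T + star T), vn_rsmul_mem _ (add_mem hT (star_mem hT)),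
    (IsSelfAdjoint.all _).smul (IsSelfAdjoint.add_star_self T), fun η ω hω => ?_⟩
  have e : ω = hbW N η η := ContinuousLinearMap.ext hω
  have h1 : (⟪T η, η⟫_ℂ).re = Λ ω := by
    rw [h, e]
    exact StrongDual.re_extendRCLike_apply (𝕜 := ℂ) Λ _
  have h2 : qf T η = Λ ω := by
    rw [← h1, qf, ← inner_conj_symm, Complex.conj_re]
  have h3 : qf (star T) η = Λ ω := by
    rw [← h1, qf, inner_star_right]
  rw [qf_rsmul, qf_add, h2, h3]
  ring

/-- the convex cone of the separation argument -/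
def hbK {E X : Type*} [AddCommGroup E] [Module ℝ E] (A B : X → E) (p q : X → ℝ) :
    Set (E × E × ℝ × ℝ) :=
  {x | ∃ (ι : Type) (_ : Fintype ι) (c : ι → ℝ) (e : ι → X), (∀ j, 0 ≤ c j) ∧
    x.1 = ∑ j, c j • A (e j) ∧ x.2.1 = ∑ j, c j • B (e j) ∧
    ∑ j, c j * p (e j) ≤ x.2.2.1 ∧ ∑ j, c j * q (e j) ≤ x.2.2.2}

section Cone
variable {E X : Type*} [NormedAddCommGroup E] [NormedSpace ℝ E] {A B : X → E} {p q : X → ℝ}

theorem hbK_add {x y : E × E × ℝ × ℝ} (hx : x ∈ hbK A B p q) (hy : y ∈ hbK A B p q) :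
    x + y ∈ hbK A B p q := by
  obtain ⟨ι, _, c, e, h0, h1, h2, h3, h4⟩ := hx
  obtain ⟨κ, _, c', e', h0', h1', h2', h3', h4'⟩ := hy
  refine ⟨ι ⊕ κ, inferInstance, Sum.elim c c', Sum.elim e e', ?_, ?_, ?_, ?_, ?_⟩
  · rintro (j | j)
    exacts [h0 j, h0' j]
  · simp [h1, h1']
  · simp [h2, h2']
  · simpa using add_le_add h3 h3'
  · simpa using add_le_add h4 h4'

theorem hbK_smul {x : E × E × ℝ × ℝ} (hx : x ∈ hbK A B p q) {r : ℝ} (hr : 0 ≤ r) :
    r • x ∈ hbK A B p q := by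
  obtain ⟨ι, _, c, e, h0, h1, h2, h3, h4⟩ := hx
  refine ⟨ι, inferInstance, fun j => r * c j, e, fun j => mul_nonneg hr (h0 j), ?_, ?_, ?_, ?_⟩
  · simp [h1, Finset.smul_sum, mul_smul]
  · simp [h2, Finset.smul_sum, mul_smul]
  · simpa [Finset.mul_sum, mul_assoc] using mul_le_mul_of_nonneg_left h3 hr
  · simpa [Finset.mul_sum, mul_assoc] using mul_le_mul_of_nonneg_left h4 hr

theorem hbK_zero {s t : ℝ} (hs : 0 ≤ s) (ht : 0 ≤ t) : (0, 0, s, t) ∈ hbK A B p q :=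
  ⟨Empty, inferInstance, Empty.elim, Empty.elim, fun j => j.elim, by simp, by simp, by simpa,
    by simpa⟩

theorem hbK_one (i : X) : (A i, B i, p i, q i) ∈ hbK A B p q :=
  ⟨Unit, inferInstance, fun _ => 1, fun _ => i, fun _ => zero_le_one, by simp, by simp, by simp,
    by simp⟩

theorem hbK_sep {x₀ : E × E × ℝ × ℝ}
    (h : ∀ f : (E × E × ℝ × ℝ) →L[ℝ] ℝ, (∀ x ∈ hbK A B p q, 0 ≤ f x) → 0 ≤ f x₀) :
    x₀ ∈ closure (hbK A B p q) := by
  by_contra hx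
  have hc : Convex ℝ (hbK A B p q) := fun x hx y hy a b ha hb _ =>
    hbK_add (hbK_smul hx ha) (hbK_smul hy hb)
  obtain ⟨f, u, h1, h2⟩ := geometric_hahn_banach_point_closed hc.closure isClosed_closure hx
  have h3 : u < 0 := by
    have := h2 _ (subset_closure (hbK_zero le_rfl le_rfl))
    rwa [show ((0, 0, 0, 0) : E × E × ℝ × ℝ) = 0 from rfl, map_zero] at this
  refine absurd (h f fun x hx => not_lt.1 fun h4 => ?_) (by linarith)
  have h5 := h2 _ (subset_closure (hbK_smul hx (div_pos_of_neg_of_neg h3 h4).le))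
  rw [map_smul, smul_eq_mul, div_mul_cancel₀ _ h4.ne] at h5
  exact lt_irrefl _ h5

theorem hbK_sep' {x y : E} {q₀ : ℝ}
    (h : ∀ (f g : E →L[ℝ] ℝ) (κ κ' : ℝ), 0 ≤ κ → 0 ≤ κ' →
      (∀ i, 0 ≤ f (A i) + g (B i) + κ * p i + κ' * q i) → 0 ≤ f x + g y + κ' * q₀)
    {ε : ℝ} (hε : 0 < ε) :
    ∃ (ι : Type) (_ : Fintype ι) (c : ι → ℝ) (e : ι → X), (∀ j, 0 ≤ c j) ∧
      ‖∑ j, c j • A (e j) - x‖ ≤ ε ∧ ‖∑ j, c j • B (e j) - y‖ ≤ ε ∧
      ∑ j, c j * p (e j) ≤ ε ∧ ∑ j, c j * q (e j) ≤ q₀ + ε := by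
  have key : (x, y, (0 : ℝ), q₀) ∈ closure (hbK A B p q) := by
    refine hbK_sep fun f hf => ?_
    have e : ∀ (u v : E) (s t : ℝ), f (u, v, s, t) = f.comp (ContinuousLinearMap.inl ℝ _ _) u +
        f.comp ((ContinuousLinearMap.inr ℝ _ _).comp (ContinuousLinearMap.inl ℝ _ _)) v +
        f (0, 0, 1, 0) * s + f (0, 0, 0, 1) * t := fun u v s t => by
      rw [mul_comm _ s, mul_comm _ t, ← smul_eq_mul, ← smul_eq_mul, ← map_smul, ← map_smul]
      simp only [ContinuousLinearMap.comp_apply, ← map_add]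
      congr 1
      simp
    have h1 := h _ _ _ _ (hf _ (hbK_zero zero_le_one le_rfl))
      (hf _ (hbK_zero le_rfl zero_le_one)) fun i => by
        rw [← e]
        exact hf _ (hbK_one i)
    rw [e]
    linarith
  obtain ⟨z, ⟨ι, _, c, e, h0, h1, h2, h3, h4⟩, hz⟩ := Metric.mem_closure_iff.1 key ε hε
  rw [dist_comm] at hz
  simp only [Prod.dist_eq, max_lt_iff] at hz
  obtain ⟨d1, d2, d3, d4⟩ := hz
  rw [h1, dist_eq_norm] at d1
  rw [h2, dist_eq_norm] at d2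
  rw [Real.dist_eq, abs_lt] at d3 d4
  exact ⟨ι, inferInstance, c, e, h0, d1.le, d2.le, by linarith [d3.2], by linarith [d4.2]⟩

end Cone

theorem hb_near (N : VonNeumannAlgebra H) (ξ : H) {ι : Type*} [Fintype ι] {c : ι → ℝ}
    (hc : ∀ j, 0 ≤ c j) (v : ι → H) {ε : ℝ}
    (h : ‖∑ j, c j • hbW N (v j) (v j) - hbW N ξ ξ‖ ≤ ε) :
    Near N ξ (fun j => √(c j) • v j) ε := by
  intro z hz
  have h1 := ((∑ j, c j • hbW N (v j) (v j) - hbW N ξ ξ).le_opNorm ⟨z, hz⟩).trans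
    (mul_le_mul_of_nonneg_right h (norm_nonneg _))
  have e : ∀ j, ⟪√(c j) • v j, z (√(c j) • v j)⟫_ℂ = c j • ⟪v j, z (v j)⟫_ℂ := fun j => by
    rw [ContinuousLinearMap.map_smul_of_tower, ← Complex.coe_smul, ← Complex.coe_smul,
      inner_smul_left, inner_smul_right, Complex.conj_ofReal, ← mul_assoc, ← Complex.ofReal_mul,
      Real.mul_self_sqrt (hc j), Complex.real_smul]
  simp only [e]
  simpa [hbW_apply, sum_apply] using h1

/-- `geometric_hahn_banach_point_closed` in `N* × N* × ℝ × ℝ` for the closure of the convex cone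
generated by the `(ω (a i), ω (b i), p i, q i)`, `(0, 0, 1, 0)`, `(0, 0, 0, 1)` and the point
`(ω ξ, ω ξ, 0, q₀)` -/
theorem hb (N : VonNeumannAlgebra H) (ξ : H) {X : Type*} (a b : X → H) (p q : X → ℝ) (q₀ : ℝ)
    (h : ∀ h ∈ N, ∀ k ∈ N, IsSelfAdjoint h → IsSelfAdjoint k → ∀ κ κ' : ℝ, 0 ≤ κ → 0 ≤ κ' →
      (∀ i, 0 ≤ qf h (a i) + qf k (b i) + κ * p i + κ' * q i) → 0 ≤ qf h ξ + qf k ξ + κ' * q₀)
    {ε : ℝ} (hε : 0 < ε) :
    ∃ (ι : Type) (_ : Fintype ι) (c : ι → ℝ) (e : ι → X), (∀ j, 0 ≤ c j) ∧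
      Near N ξ (fun j => √(c j) • a (e j)) ε ∧ Near N ξ (fun j => √(c j) • b (e j)) ε ∧
      ∑ j, c j * p (e j) ≤ ε ∧ ∑ j, c j * q (e j) ≤ q₀ + ε := by
  obtain ⟨ι, _, c, e, h0, d1, d2, d3, d4⟩ := hbK_sep' (A := fun i => hbW N (a i) (a i))
    (B := fun i => hbW N (b i) (b i)) (p := p) (q := q) (x := hbW N ξ ξ) (y := hbW N ξ ξ) (q₀ := q₀)
    (fun f g κ κ' hκ hκ' hi => by
      obtain ⟨h₁, m₁, s₁, r₁⟩ := dual_rep N f
      obtain ⟨h₂, m₂, s₂, r₂⟩ := dual_rep N g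
      rw [r₁ ξ _ (hbW_apply N ξ ξ), r₂ ξ _ (hbW_apply N ξ ξ)]
      refine h h₁ m₁ h₂ m₂ s₁ s₂ κ κ' hκ hκ' fun i => ?_
      rw [← r₁ _ _ (hbW_apply N _ _), ← r₂ _ _ (hbW_apply N _ _)]
      exact hi i) hε
  exact ⟨ι, inferInstance, c, e, h0, hb_near N ξ h0 _ d1, hb_near N ξ h0 _ d2, d3, d4⟩

end Vale.Agent.P132
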