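import Vale.Agent.P132.Lift

/-! P132: joint approximate eigenvalues of an abelian von Neumann algebra. -/

namespace Vale.Agent.P132

open scoped InnerProductSpace BoundedContinuousFunction
open Filter Topology MeasureTheory Vale.Agent.P104

universe u

variable {H : Type u} [NormedAddCommGroup H] [InnerProductSpace ℂ H] [CompleteSpace H]

/-- the bicommutant of a commuting selfadjoint family is abelian -/
theorem bicomm_comm {X : Set (Op H)} (hs : ∀ a ∈ X, star a ∈ X)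
    (hc : ∀ a ∈ X, ∀ b ∈ X, a * b = b * a) :
    (∀ a ∈ X, a ∈ (vnComm X).commutant) ∧
      ∀ a ∈ (vnComm X).commutant, ∀ b ∈ (vnComm X).commutant, a * b = b * a := by
  have h1 : ∀ a ∈ X, a ∈ vnComm X := fun a ha =>
    mem_vnComm.2 fun s h => ⟨hc s h a ha, hc _ (hs s h) a ha⟩
  have h2 : ∀ a ∈ (vnComm X).commutant, a ∈ vnComm X := fun a ha =>
    mem_vnComm.2 fun s h => ⟨(comm_of_mem ha (h1 s h)).symm, (comm_of_mem ha (h1 _ (hs s h))).symm⟩
  exact ⟨fun a ha => VonNeumannAlgebra.mem_commutant_iff.2 fun g hg =>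
    ((mem_vnComm.1 hg a ha).1).symm, fun a ha b hb => comm_of_mem ha (h2 b hb)⟩

/-- an abelian von Neumann algebra as a type -/
def JAlg (A : VonNeumannAlgebra H) (_hc : ∀ a ∈ A, ∀ b ∈ A, a * b = b * a) : Type u :=
  A.toStarSubalgebra

noncomputable instance (A : VonNeumannAlgebra H) (hc : ∀ a ∈ A, ∀ b ∈ A, a * b = b * a) :
    CommCStarAlgebra (JAlg A hc) :=
  { StarSubalgebra.cstarAlgebra A.toStarSubalgebra (h_closed := vn_isClosed A) with
    mul_comm := fun a b => Subtype.ext (hc _ a.2 _ b.2) }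

/-- the inclusion -/
noncomputable def jinc (A : VonNeumannAlgebra H) (hc : ∀ a ∈ A, ∀ b ∈ A, a * b = b * a) :
    JAlg A hc →⋆ₐ[ℂ] Op H := A.toStarSubalgebra.subtype

theorem jp_char {B : Type*} [CommCStarAlgebra B] {y : B} (h0 : 0 < ‖y‖) :
    ∃ φ : WeakDual.characterSpace ℂ B, ‖φ y‖ = ‖y‖ := by
  have hn : ‖WeakDual.gelfandTransform ℂ B y‖ = ‖y‖ :=
    (gelfandTransform_isometry B).norm_map_of_map_zero (map_zero _) y
  by_contra hcon
  push Not at hcon
  have h1 := (ContinuousMap.norm_lt_iff _ h0).2 fun φ =>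
    lt_of_le_of_ne (((WeakDual.gelfandTransform ℂ B y).norm_coe_le_norm φ).trans hn.le) (hcon φ)
  exact h1.ne hn

theorem jp_vec {B : Type*} [CommCStarAlgebra B] (ι : B →⋆ₐ[ℂ] Op H)
    (hι : ∀ z, IsUnit (ι z) → ∃ w, z * w = 1)
    (φ : WeakDual.characterSpace ℂ B) (s : Finset B) {ε : ℝ} (hε : 0 < ε) :
    ∃ η : H, ‖η‖ = 1 ∧ ∀ a ∈ s, ‖ι a η - φ a • η‖ ≤ ε := by
  by_contra hcon
  push Not at hcon
  let d : B → B := fun a => a - φ a • 1
  have hd : ∀ a η, ι (d a) η = ι a η - φ a • η := fun a η => by simp [d]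
  have hz : φ (∑ a ∈ s, star (d a) * d a) = 0 := by
    rw [map_sum]
    exact Finset.sum_eq_zero fun a _ => by simp [d]
  have hin : ∀ η : H, ⟪ι (∑ a ∈ s, star (d a) * d a) η, η⟫_ℂ =
      ((∑ a ∈ s, ‖ι (d a) η‖ ^ 2 : ℝ) : ℂ) := fun η => by
    rw [map_sum, sum_apply, sum_inner, Complex.ofReal_sum]
    refine Finset.sum_congr rfl fun a _ => ?_
    rw [map_mul, map_star, mul_apply_eq_comp, ContinuousLinearMap.star_eq_adjoint,
      ContinuousLinearMap.adjoint_inner_left, inner_self_eq_norm_sq_to_K]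
    simp
  have hu : IsUnit (ι (∑ a ∈ s, star (d a) * d a)) := by
    refine ContinuousLinearMap.isUnit_of_forall_le_norm_inner_map _ (c := ⟨ε ^ 2, sq_nonneg _⟩)
      (show (0 : ℝ) < ε ^ 2 by positivity) fun η => ?_
    rw [hin, Complex.norm_real, Real.norm_of_nonneg (Finset.sum_nonneg fun _ _ => sq_nonneg _)]
    by_cases h0 : η = 0
    · simp [h0]
    · have hn : 0 < ‖η‖ := norm_pos_iff.2 h0
      obtain ⟨a, ha, h1⟩ := hcon ((‖η‖⁻¹ : ℂ) • η) (norm_smul_inv_norm h0)
      rw [← hd, map_smul, norm_smul, norm_inv, Complex.norm_real, norm_norm,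
        lt_inv_mul_iff₀ hn] at h1
      refine le_trans ?_ (Finset.single_le_sum (f := fun a => ‖ι (d a) η‖ ^ 2)
        (fun _ _ => sq_nonneg _) ha)
      show ‖η‖ ^ 2 * ε ^ 2 ≤ _
      rw [← mul_pow]
      exact pow_le_pow_left₀ (by positivity) h1.le 2
  obtain ⟨w, h3⟩ := hι _ hu
  have h4 := congrArg φ h3
  rw [map_mul, hz, zero_mul, map_one] at h4
  exact zero_ne_one h4

/-- Gelfand theory for the commutative C*-algebra `A` gives a character with `‖χ y‖ = ‖y‖`. For a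
finite `s ⊆ A` the element `∑ a ∈ s, (a - χ a)* (a - χ a)` is killed by `χ`, so it is not
invertible in `A`, hence not bounded below. The sets of unit vectors with `‖a η - χ a η‖ ≤ ε`,
`a ∈ s`, form a filter basis. -/
theorem exists_jp (A : VonNeumannAlgebra H) (hc : ∀ a ∈ A, ∀ b ∈ A, a * b = b * a) {y : Op H}
    (hy : y ∈ A) (h0 : y ≠ 0) : ∃ p : JP A, ‖p.χ y‖ = ‖y‖ := by
  classical
  obtain ⟨φ, hφ⟩ := jp_char (B := JAlg A hc) (y := ⟨y, hy⟩) (norm_pos_iff.2 h0 :)
  have hι : ∀ z, IsUnit (jinc A hc z) → ∃ w, z * w = 1 := fun z hz => by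
    obtain ⟨w, h1, h2⟩ := isUnit_iff_exists.1 hz
    exact ⟨⟨w, vn_inv_mem z.2 h1 h2⟩, Subtype.ext h1⟩
  choose η h1 h2 using fun i : Finset (JAlg A hc) × ℕ =>
    jp_vec (jinc A hc) hι φ i.1 (Nat.one_div_pos_of_nat (α := ℝ) (n := i.2))
  refine ⟨⟨fun a => if h : a ∈ A then φ (show JAlg A hc from ⟨a, h⟩) else 0, map η atTop,
    map_neBot, eventually_map.2 (Eventually.of_forall h1), fun a ha => ?_⟩, ?_⟩
  · rw [dif_pos ha, tendsto_map'_iff, tendsto_zero_iff_norm_tendsto_zero]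
    refine squeeze_zero' (Eventually.of_forall fun _ => norm_nonneg _) ?_
      (tendsto_one_div_add_atTop_nhds_zero_nat.comp
        (show Tendsto (Prod.snd : Finset (JAlg A hc) × ℕ → ℕ) atTop atTop by
          rw [← prod_atTop_atTop_eq]; exact tendsto_snd))
    filter_upwards [eventually_ge_atTop (({⟨a, ha⟩} : Finset (JAlg A hc)), 0)] with i hi
    exact h2 i _ (hi.1 (Finset.mem_singleton_self _))
  · simp only [dif_pos hy]
    exact hφ

namespace JP
variable {A : VonNeumannAlgebra H} (p : JP A) {a b : Op H}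

theorem eq_of_lim (ha : a ∈ A) {c : ℂ} (h : Tendsto (fun η => a η - c • η) p.l (𝓝 0)) :
    p.χ a = c := by
  have := p.ne
  have h1 := (h.sub (p.lim a ha)).norm
  rw [sub_zero, norm_zero] at h1
  refine sub_eq_zero.1 (norm_eq_zero.1 (tendsto_nhds_unique_of_eventuallyEq
    tendsto_const_nhds h1 (p.unit.mono fun η hη => ?_)))
  simp only [sub_sub_sub_cancel_left, ← sub_smul, norm_smul, hη, mul_one]

theorem tendsto_norm (ha : a ∈ A) : Tendsto (fun η => ‖a η‖) p.l (𝓝 ‖p.χ a‖) := by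
  refine tendsto_iff_dist_tendsto_zero.2 (squeeze_zero' (Eventually.of_forall fun _ => dist_nonneg)
    (p.unit.mono fun η hη => ?_) (tendsto_zero_iff_norm_tendsto_zero.1 (p.lim a ha)))
  have h1 := abs_norm_sub_norm_le (a η) (p.χ a • η)
  rwa [norm_smul, hη, mul_one] at h1

theorem tendsto_inner (ha : a ∈ A) : Tendsto (fun η => ⟪η, a η⟫_ℂ) p.l (𝓝 (p.χ a)) := by
  refine tendsto_iff_norm_sub_tendsto_zero.2 (squeeze_zero'
    (Eventually.of_forall fun _ => norm_nonneg _)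
    (p.unit.mono fun η hη => ?_) (tendsto_zero_iff_norm_tendsto_zero.1 (p.lim a ha)))
  have h1 := norm_inner_le_norm (𝕜 := ℂ) η (a η - p.χ a • η)
  rwa [inner_sub_right, inner_smul_right, inner_self_eq_norm_sq_to_K, hη, one_mul, RCLike.ofReal_one,
    one_pow, mul_one] at h1

theorem map_one : p.χ 1 = 1 := by
  exact p.eq_of_lim (one_mem _) (by simpa using tendsto_const_nhds)

theorem map_add (ha : a ∈ A) (hb : b ∈ A) : p.χ (a + b) = p.χ a + p.χ b := by
  refine p.eq_of_lim (add_mem ha hb) ?_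
  have h1 := (p.lim a ha).add (p.lim b hb)
  rw [add_zero] at h1
  refine h1.congr fun η => ?_
  rw [add_apply, add_smul]
  abel

theorem map_sub (ha : a ∈ A) (hb : b ∈ A) : p.χ (a - b) = p.χ a - p.χ b := by
  refine p.eq_of_lim (sub_mem ha hb) ?_
  have h1 := (p.lim a ha).sub (p.lim b hb)
  rw [sub_zero] at h1
  refine h1.congr fun η => ?_
  rw [sub_apply, sub_smul]
  abel

theorem map_mul (ha : a ∈ A) (hb : b ∈ A) : p.χ (a * b) = p.χ a * p.χ b := by
  refine p.eq_of_lim (mul_mem ha hb) ?_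
  have h1 := ((a.continuous.tendsto 0).comp (p.lim b hb)).add ((p.lim a ha).const_smul (p.χ b))
  rw [map_zero, smul_zero, add_zero] at h1
  refine h1.congr fun η => ?_
  simp only [Function.comp, _root_.map_sub, _root_.map_smul, smul_sub,
    mul_apply_eq_comp, smul_smul, mul_comm]
  abel

theorem map_smul (c : ℂ) (ha : a ∈ A) : p.χ (c • a) = c * p.χ a := by
  refine p.eq_of_lim (SMulMemClass.smul_mem (S := StarSubalgebra ℂ (Op H))
    (s := A.toStarSubalgebra) c ha) ?_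
  have h1 := (p.lim a ha).const_smul c
  rw [smul_zero] at h1
  refine h1.congr fun η => ?_
  rw [smul_apply, smul_sub, smul_smul]

theorem map_star (ha : a ∈ A) : p.χ (star a) = (starRingEnd ℂ) (p.χ a) := by
  have := p.ne
  refine tendsto_nhds_unique (p.tendsto_inner (star_mem ha))
    (((Complex.continuous_conj.tendsto _).comp (p.tendsto_inner ha)).congr fun η => ?_)
  rw [Function.comp, inner_conj_symm, ContinuousLinearMap.star_eq_adjoint,
    ContinuousLinearMap.adjoint_inner_right]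

theorem norm_le (ha : a ∈ A) : ‖p.χ a‖ ≤ ‖a‖ := by
  have := p.ne
  refine le_of_tendsto (p.tendsto_norm ha) (p.unit.mono fun η hη => ?_)
  simpa [hη] using a.le_opNorm η

/-- polynomial approximation on `[-‖a‖, ‖a‖]` -/
theorem map_cfc (ha : a ∈ A) (hs : IsSelfAdjoint a) {φ : ℝ → ℝ} (hφ : Continuous φ) :
    p.χ (cfc φ a) = (φ (p.χ a).re : ℂ) := by
  have : IsClosed (A.toStarSubalgebra : Set (Op H)) := vn_isClosed A
  let ψ : A.toStarSubalgebra →⋆ₐ[ℂ] ℂ :=
    { toFun := fun x => p.χ x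
      map_one' := p.map_one
      map_mul' := fun x y => p.map_mul x.2 y.2
      map_zero' := by simpa using p.map_smul 0 (one_mem A)
      map_add' := fun x y => p.map_add x.2 y.2
      commutes' := fun c => by
        simpa [Algebra.algebraMap_eq_smul_one, p.map_one] using p.map_smul c (one_mem A)
      map_star' := fun x => p.map_star x.2 }
  have hs' : IsSelfAdjoint (⟨a, ha⟩ : A.toStarSubalgebra) := Subtype.ext hs
  have h1 := StarAlgHom.map_cfc A.toStarSubalgebra.subtype φ ⟨a, ha⟩ hφ.continuousOn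
    continuous_subtype_val hs' hs
  have h2 := StarAlgHom.map_cfc ψ φ ⟨a, ha⟩ hφ.continuousOn (map_continuous ψ) hs' (hs'.map ψ)
  have h3 : ψ ⟨a, ha⟩ = algebraMap ℝ ℂ (p.χ a).re :=
    (Complex.conj_eq_iff_re.1 (hs'.map ψ)).symm
  rw [h3, cfc_algebraMap] at h2
  exact (congrArg p.χ h1.symm).trans h2

/-- `χ R` is real and `χ R (2 - χ R) = (χ T)² > 0`; then `exists_rr` and `FC.cf` -/
theorem exists_pt (F : FC H) (hA : ∀ f, F.Θ f ∈ A) (h : p.χ F.T ≠ 0) :
    ∃ s, ∀ f, p.χ (F.Θ f) = f s := by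
  have := p.ne
  have hR : F.R ∈ A := hA _
  have hT : F.T ∈ A := hA _
  have h2 : p.χ 2 = 2 := by
    rw [← one_add_one_eq_two, p.map_add (one_mem _) (one_mem _), p.map_one, one_add_one_eq_two]
  have h3 : p.χ F.T * p.χ F.T = p.χ F.R * (2 - p.χ F.R) := by
    have h4 : (2 : Op H) ∈ A := by
      rw [← one_add_one_eq_two]
      exact add_mem (one_mem _) (one_mem _)
    rw [← p.map_mul hT hT, F.T_mul_T, p.map_mul hR (sub_mem h4 hR), p.map_sub h4 hR, h2]
  obtain ⟨r, hr⟩ : ∃ r : ℝ, (r : ℂ) = p.χ F.R :=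
    ⟨_, Complex.conj_eq_iff_re.1 (by rw [← p.map_star hR, F.R_sa.star_eq])⟩
  obtain ⟨t, ht⟩ : ∃ t : ℝ, (t : ℂ) = p.χ F.T :=
    ⟨_, Complex.conj_eq_iff_re.1 (by rw [← p.map_star hT, F.T_sa.star_eq])⟩
  rw [← hr, ← ht] at h3
  have h5 : t * t = r * (2 - r) := by exact_mod_cast h3
  have h6 : 0 < t * t := mul_self_pos.2 fun h0 => h (by rw [← ht, h0, Complex.ofReal_zero])
  obtain ⟨s, hs⟩ := exists_rr (r := r) (by nlinarith) (by nlinarith)
  refine ⟨s, fun f => p.eq_of_lim (hA f) (NormedAddGroup.tendsto_nhds_zero.2 fun ε hε => ?_)⟩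
  obtain ⟨K, hK, h7⟩ := F.cf f s (half_pos hε)
  have h8 := (tendsto_zero_iff_norm_tendsto_zero.1 (p.lim _ hR)).const_mul K
  rw [mul_zero] at h8
  filter_upwards [p.unit, h8.eventually (gt_mem_nhds (half_pos hε))] with η h9 h10
  have h11 := h7 η
  rw [h9, hs, hr] at h11
  linarith

end JP

end Vale.Agent.P132
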