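import Vale.Agent.P132.Beta
import Vale.Agent.P132.Abs1

/-! P132: the flow governs the commutation of `b` with `σ t x` for most `t`. -/

namespace Vale.Agent.P132

open scoped InnerProductSpace BoundedContinuousFunction
open Filter Topology MeasureTheory Vale.Agent.P104

universe u

variable {H : Type u} [NormedAddCommGroup H] [InnerProductSpace ℂ H] [CompleteSpace H]

namespace SF
variable (S : SF H)

/-- the averaging family -/
noncomputable def keyFam (m : Av) (x : Op H) (i : m.ι) : Op H :=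
  (√(Fintype.card m.ι : ℝ))⁻¹ • S.σ (m.t i) x

theorem key_mem (m : Av) {x : Op H} (hx : x ∈ S.M) (i : m.ι) : S.keyFam m x i ∈ S.M :=
  SMulMemClass.smul_mem (((√(Fintype.card m.ι : ℝ))⁻¹ : ℝ) : ℂ) (S.σ_M x hx _)

theorem key_gram (m : Av) (x : Op H) (ζ : H) :
    gram (S.keyFam m x) ζ = avg m fun t => S.σ t (star x * x) ζ := by
  have hn : (0 : ℝ) ≤ Fintype.card m.ι := Nat.cast_nonneg _
  simp only [gram, keyFam, avg, star_smul, star_trivial, smul_mul_smul_comm, ← mul_inv,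
    Real.mul_self_sqrt hn, ← S.toFC.σ_star, ← S.toFC.σ_mul, ← Finset.smul_sum, smul_apply,
    sum_apply]

theorem key_flip (m : Av) (μ : ℝ) (x : Op H) (i : m.ι) :
    μ • star (S.keyFam m x i) = S.keyFam m (μ • star x) i := by
  have e : S.σ (m.t i) (μ • star x) = μ • S.σ (m.t i) (star x) := S.toFC.σ_smul _ (μ : ℂ) _
  rw [keyFam, keyFam, e, star_smul, star_trivial, smul_comm, S.toFC.σ_star]

theorem key_Dn (m : Av) (μ : ℝ) (x : Op H) : S.Dn (S.keyFam m x) (fun _ => μ) = ‖S.D μ x‖ := by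
  refine (pow_left_inj₀ (l2_nonneg _) (norm_nonneg _) two_ne_zero).1 ?_
  simp only [keyFam, S.D_rsmul, S.D_σ]
  rw [l2_avg m fun t => S.Δ t (S.D μ x)]
  simp only [S.toFC.norm_Δ, avg_const]

theorem key_near (h : S.Erg) {l : Filter Av} [l.NeBot] (hl : Inv l) {x : Op H} (hx : x ∈ S.B)
    {δ δ' : ℝ} (hδ : 0 < δ) (h1 : |‖x S.ξ‖ ^ 2 - 1| ≤ δ') :
    ∀ᶠ m in l, Near S.M S.ξ (fun k => S.J (S.keyFam m x k S.ξ)) (δ + δ') := by
  have ht := S.erg h hl (mul_mem (star_mem hx) hx) S.ξ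
  have e : ⟪S.ξ, (star x * x) S.ξ⟫_ℂ = ((‖x S.ξ‖ ^ 2 : ℝ) : ℂ) := by
    rw [mul_apply_eq_comp, inner_star_right, inner_self_eq_norm_sq_to_K]
    simp
  rw [e] at ht
  filter_upwards [Metric.tendsto_nhds.1 ht δ hδ] with m hm
  refine S.near_J (S.key_mem m (S.B_le hx)) ?_
  rw [dist_eq_norm, ← S.key_gram] at hm
  have h2 : ‖((‖x S.ξ‖ ^ 2 : ℝ) : ℂ) • S.ξ - S.ξ‖ ≤ δ' := by
    have e2 : ((‖x S.ξ‖ ^ 2 : ℝ) : ℂ) • S.ξ - S.ξ = ((‖x S.ξ‖ ^ 2 - 1 : ℝ) : ℂ) • S.ξ := by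
      rw [Complex.ofReal_sub, sub_smul, Complex.ofReal_one, one_smul]
    rw [e2, norm_smul, S.norm_ξ, mul_one, Complex.norm_real]
    exact h1
  linarith [norm_sub_le_norm_sub_add_norm_sub (gram (S.keyFam m x) S.ξ)
    (((‖x S.ξ‖ ^ 2 : ℝ) : ℂ) • S.ξ) S.ξ]

theorem key_bin (h : S.Erg) {l : Filter Av} [l.NeBot] (hl : Inv l) {x : Op H} (hx : x ∈ S.B)
    (h1 : ‖x S.ξ‖ = 1) {μ δ : ℝ} (hδ : 0 < δ) (hδ1 : δ ≤ 1 / 4) (hD : ‖S.D μ x‖ ≤ δ) :
    ∀ᶠ m in l, S.Bin S.M (S.keyFam m x) (8 * δ) := by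
  have hx' : μ • star x ∈ S.B := SMulMemClass.smul_mem (μ : ℂ) (star_mem hx)
  have h2 : |‖(μ • star x) S.ξ‖ ^ 2 - 1| ≤ 3 * δ := by
    rw [← S.norm_J, S.J_flip]
    have k1 := norm_sub_le (x S.ξ) (S.D μ x)
    have k2 := norm_sub_norm_le (x S.ξ) (S.D μ x)
    have k3 := norm_nonneg (x S.ξ - S.D μ x)
    rw [h1] at k1 k2
    rw [abs_le]
    constructor <;> nlinarith
  filter_upwards [S.key_near h hl hx hδ (δ' := 0) (by simp [h1]), S.key_near h hl hx' hδ h2]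
    with m m1 m2
  refine ⟨?_, m1.mono (fun z hz => hz) (by linarith)⟩
  refine (m2.perturb S.norm_ξ (δ := δ) (by linarith) (by linarith) (by linarith) ?_).mono
    (fun z hz => hz) (by linarith)
  simp only [← S.key_flip, S.J_flip, sub_sub_cancel]
  exact (S.key_Dn m μ x).le.trans hD

theorem key_one (h : S.Erg) {μ : ℝ} (hμ : 0 < μ) {b c : Op H} (hc : S.Itw μ b c)
    {ε : ℝ} (hε : 0 < ε) : ∃ δ > 0, ∀ x ∈ S.B, ‖x S.ξ‖ = 1 → ‖S.D μ x‖ ≤ δ →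
      ∀ (l : Filter Av) [l.NeBot], Inv l → ∀ᶠ m in l,
        l2 (fun i => (b * S.keyFam m x i - S.keyFam m x i * c) S.ξ) ≤ ε := by
  obtain ⟨K, hK, hK'⟩ := hc.2 2 (ε / 4) (by positivity)
  obtain ⟨_, ⟨y', hy', rfl⟩, hy⟩ := S.cyc'.exists_dist_lt (c S.ξ) (ε := ε / 8) (by positivity)
  rw [dist_eq_norm] at hy
  have hP : 0 < K + ‖b‖ + ‖y'‖ + 1 := by positivity
  obtain ⟨ε₁, hε₁, hnl⟩ := S.nl (η := ε / 2 / (K + ‖b‖ + ‖y'‖ + 1)) (by positivity)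
  set η := ε / 2 / (K + ‖b‖ + ‖y'‖ + 1) with hη
  have hη0 : 0 < η := by positivity
  have hη1 : (K + ‖b‖ + ‖y'‖ + 1) * η = ε / 2 := by rw [hη]; field_simp
  refine ⟨min (ε₁ / 8) (1 / 4), by positivity, fun x hx h1 hD l _ hl => ?_⟩
  have ht := S.erg_left h hl hx (c S.ξ - y' S.ξ)
  have hlt : ‖x S.ξ‖ ^ 2 * ‖c S.ξ - y' S.ξ‖ ^ 2 < (ε / 8) ^ 2 := by
    rw [h1, one_pow, one_mul]
    exact pow_lt_pow_left₀ hy (norm_nonneg _) two_ne_zero
  filter_upwards [S.key_bin h hl hx h1 (by positivity) (min_le_right _ _) hD,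
    ht.eventually (gt_mem_nhds hlt)] with m m1 m2
  have hm := min_le_left (ε₁ / 8) (1 / 4)
  have hX := S.key_mem m (S.B_le hx)
  obtain ⟨y, hyM, ycol, yrow, yD, yx⟩ := hnl S.M (fun z hz => hz) m.ι (S.keyFam m x) (fun _ => μ)
    hX (fun _ => hμ) ⟨m1.1.mono (fun z hz => hz) (by linarith),
      m1.2.mono (fun z hz => hz) (by linarith)⟩ (by rw [S.key_Dn]; linarith)
  have a1 := hK' m.ι y hyM (ycol.mono one_le_two) yrow
  have a2 := l2_op_le b fun i => (y i - S.keyFam m x i) S.ξ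
  have a3 := l2_op_le y' fun i => (y i - S.keyFam m x i) S.ξ
  have a4 := ycol (c S.ξ - y' S.ξ)
  have a5 : l2 (fun i => S.keyFam m x i (c S.ξ - y' S.ξ)) ≤ ε / 8 := by
    refine (pow_le_pow_iff_left₀ (l2_nonneg _) (by positivity) two_ne_zero).1 ?_
    simp only [keyFam, smul_apply]
    rw [l2_avg m fun t => S.σ t x (c S.ξ - y' S.ξ)]
    exact m2.le
  have e : ∀ i, (b * S.keyFam m x i - S.keyFam m x i * c) S.ξ =
      ((b * y i - y i * c) S.ξ - b ((y i - S.keyFam m x i) S.ξ)) +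
        ((y i (c S.ξ - y' S.ξ) - S.keyFam m x i (c S.ξ - y' S.ξ)) +
          y' ((y i - S.keyFam m x i) S.ξ)) := fun i => by
    have k1 : y i (y' S.ξ) = y' (y i S.ξ) := by
      rw [← mul_apply_eq_comp, ← comm_of_mem hy' (hyM i), mul_apply_eq_comp]
    have k2 : S.keyFam m x i (y' S.ξ) = y' (S.keyFam m x i S.ξ) := by
      rw [← mul_apply_eq_comp, ← comm_of_mem hy' (hX i), mul_apply_eq_comp]
    simp only [sub_apply, mul_apply_eq_comp, map_sub, k1, k2]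
    abel
  simp only [e]
  refine (l2_add_le _ _).trans ((add_le_add (l2_sub_le _ _)
    ((l2_add_le _ _).trans (add_le_add_left (l2_sub_le _ _) _))).trans ?_)
  nlinarith [mul_le_mul_of_nonneg_left yD hK, mul_le_mul_of_nonneg_left yx (norm_nonneg b),
    mul_le_mul_of_nonneg_left yx (norm_nonneg y')]

/-- The family `x i = (√card)⁻¹ ‖x ξ‖⁻¹ • σ (t i) x` has `gram ξ → ξ` (`erg`, `near_J`), its flip
has `gram ξ → κ ξ` with `κ = μ² ‖x* ξ‖² / ‖x ξ‖² ∈ [(1 - δ)², (1 + δ)²]`, so it is binormal up to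
`O δ` (`J_flip`, `Near.perturb`). Apply `nl` (with `N = M`) and `Itw`; to compare `x i` and `y i`
at the vector `c ξ` approximate it by some `y' ξ`, `y'` in the commutant (fixed in advance), and use
`erg_left`. -/
theorem key (h : S.Erg) {μ : ℝ} (hμ : 0 < μ) {b c : Op H} (hb : b ∈ S.M) (hc : S.Itw μ b c)
    {ε : ℝ} (hε : 0 < ε) : ∃ δ > 0, ∀ x ∈ S.B, ‖S.D μ x‖ ≤ δ * ‖x S.ξ‖ →
      ∀ (l : Filter Av) [l.NeBot], Inv l → ∀ᶠ m in l,
        avg m (fun t => ‖(b * S.σ t x - S.σ t x * c) S.ξ‖ ^ 2) ≤ (ε * ‖x S.ξ‖) ^ 2 := by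
  obtain ⟨δ, hδ, hk⟩ := S.key_one h hμ hc hε
  refine ⟨δ, hδ, fun x hx hD l _ hl => ?_⟩
  by_cases h0 : x S.ξ = 0
  · have e : ∀ t, S.σ t x = 0 := fun t => by
      rw [S.sep (S.B_le hx) h0, FC.σ, mul_zero, zero_mul]
    refine Eventually.of_forall fun m => ?_
    simp only [e, mul_zero, zero_mul, sub_zero, zero_apply, norm_zero, avg_const]
    exact pow_le_pow_left₀ le_rfl (by positivity) 2
  have hn : 0 < ‖x S.ξ‖ := norm_pos_iff.2 h0
  have hx' : ‖x S.ξ‖⁻¹ • x ∈ S.B := SMulMemClass.smul_mem ((‖x S.ξ‖⁻¹ : ℝ) : ℂ) hx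
  filter_upwards [hk _ hx' (by rw [smul_apply, norm_smul, norm_inv, norm_norm, inv_mul_cancel₀ hn.ne'])
    (by rw [S.D_rsmul, norm_smul, norm_inv, norm_norm, inv_mul_le_iff₀ hn, mul_comm]; exact hD) l hl]
    with m hm
  rw [← l2_avg m fun t => (b * S.σ t x - S.σ t x * c) S.ξ]
  refine pow_le_pow_left₀ (l2_nonneg _) ((l2_le_mul hn.le fun i => le_of_eq ?_).trans
    ((mul_le_mul_of_nonneg_left hm hn.le).trans (mul_comm _ _).le)) 2
  have e : S.σ (m.t i) (‖x S.ξ‖⁻¹ • x) = ‖x S.ξ‖⁻¹ • S.σ (m.t i) x :=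
    S.toFC.σ_smul _ ((‖x S.ξ‖⁻¹ : ℝ) : ℂ) _
  simp only [keyFam, e, mul_smul_comm, smul_mul_assoc, ← smul_sub, smul_apply, norm_smul, norm_inv,
    norm_norm]
  field_simp

end SF

end Vale.Agent.P132
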