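import Vale.Agent.P132.Q
import Vale.Agent.P132.Beta

/-! P132: a trivial flow forces a trivial bicentralizer. -/

namespace Vale.Agent.P132

open scoped InnerProductSpace BoundedContinuousFunction
open Filter Topology MeasureTheory Vale.Agent.P104

universe u

variable {H : Type u} [NormedAddCommGroup H] [InnerProductSpace ℂ H] [CompleteSpace H]

namespace SF
variable (S : SF H)

theorem last_gram {μ : ℝ} {b : Op H} (hb : b ∈ S.M) (hβ : S.Itw μ b b) (ζ : H) {η : ℝ}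
    (hη : 0 < η) : ∃ ε₀ > 0, ∀ (ε : ℝ) (ι : Type) [Fintype ι] (V : ι → Op H), ε ≤ ε₀ →
      S.Good μ ε V → ‖∑ j, star (V j) (b (V j ζ)) - b ζ‖ ≤ η := by
  obtain ⟨e1, p1, h1⟩ := hβ.approx S hb ζ (C := 2) zero_le_two (half_pos hη)
  obtain ⟨e2, p2, h2⟩ := S.good_gram (b ζ) (half_pos hη)
  refine ⟨min e1 e2, lt_min p1 p2, fun ε ι _ V hε hV => ?_⟩
  have k1 := h1 ι V hV.mem (hV.col.mono one_le_two) hV.row (hV.dn.trans (hε.trans (min_le_left _ _)))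
  have k2 := (h2 μ ε ι V (hε.trans (min_le_right _ _)) hV).1
  have k3 := hV.col.sum_star zero_le_one fun j => (b * V j - V j * b) ζ
  have e : ∑ j, star (V j) (b (V j ζ)) - b ζ =
      ∑ j, star (V j) ((b * V j - V j * b) ζ) + (gram V (b ζ) - b ζ) := by
    simp only [gram, _root_.sum_apply, _root_.sub_apply, mul_apply_eq_comp, map_sub,
      Finset.sum_sub_distrib]
    abel
  rw [e]
  refine (norm_add_le _ _).trans ?_
  linarith

theorem last_one (hW : S.HasW) (hβ : ∀ μ : ℝ, 0 < μ → ∀ b ∈ S.B, S.Itw μ b b) {a : Op H}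
    (ha : a ∈ S.B) {x : Op H} (hx : x ∈ S.B) {μ : ℝ} (hμ : 0 < μ) {η : ℝ} (hη : 0 < η) :
    ∃ (ι : Type) (_ : Fintype ι) (y : ι → Op H), (∀ j, y j ∈ S.M) ∧
      (∀ ζ, l2 (fun j => ((1 : ℝ) • star (y j)) ζ) ≤ 2 * ‖(μ • star x) ζ‖) ∧
      ‖gram y S.ξ - (star x * x) S.ξ‖ ≤ η ∧ ‖gram y (a S.ξ) - (star x * x) (a S.ξ)‖ ≤ η ∧
      S.Dn y (fun _ => 1) ≤ η + 2 * ‖S.D μ x‖ ∧
      ‖(a * x - x * a) S.ξ‖ ≤ η + l2 fun j => (a * y j - y j * a) S.ξ := by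
  have hμ' := inv_pos.2 hμ
  have hxM := S.B_le hx
  have haM := S.B_le ha
  have hb : star x * x ∈ S.B := mul_mem (star_mem hx) hx
  have hw : a * x - x * a ∈ S.M := sub_mem (mul_mem haM hxM) (mul_mem hxM haM)
  have hδ : 0 < η / 2 / (‖x‖ + 1) := by positivity
  have hδ' : ‖x‖ * (η / 2 / (‖x‖ + 1)) ≤ η / 2 := by
    rw [← mul_div_assoc, div_le_iff₀ (by positivity)]; nlinarith
  obtain ⟨e1, p1, h1⟩ := S.last_gram (S.B_le hb) (hβ _ hμ' _ hb) S.ξ hη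
  obtain ⟨e2, p2, h2⟩ := S.last_gram (S.B_le hb) (hβ _ hμ' _ hb) (a S.ξ) hη
  obtain ⟨e3, p3, h3⟩ := (hβ _ hμ' _ ha).approx S haM S.ξ (C := 2) zero_le_two hδ
  obtain ⟨ε, p, q1, q2, q3, q4, q5⟩ : ∃ ε > 0, ε ≤ e1 ∧ ε ≤ e2 ∧ ε ≤ e3 ∧
      ε ≤ η / 2 / (‖x‖ + 1) ∧ ε ≤ (η / 2) ^ 2 / (‖a * x - x * a‖ ^ 2 + 1) :=
    ⟨min e1 (min e2 (min e3 (min (η / 2 / (‖x‖ + 1)) ((η / 2) ^ 2 / (‖a * x - x * a‖ ^ 2 + 1))))),
      by positivity, by simp only [min_le_iff, le_refl, true_or, or_true, and_self]⟩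
  obtain ⟨ι, _, V, hV⟩ := hW μ⁻¹ ε hμ' p
  have eg : ∀ ζ, gram (fun j => x * V j) ζ = ∑ j, star (V j) ((star x * x) (V j ζ)) := fun ζ => by
    simp only [gram, _root_.sum_apply, star_mul, mul_apply_eq_comp]
  refine ⟨ι, inferInstance, fun j => x * V j, fun j => mul_mem hxM (hV.mem j), fun ζ => ?_, ?_, ?_,
    ?_, ?_⟩
  · refine le_of_eq_of_le (congrArg l2 (funext fun j => ?_)) (hV.row ((μ • star x) ζ))
    simp only [one_smul, star_mul, mul_apply_eq_comp, _root_.smul_apply,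
      ContinuousLinearMap.map_smul_of_tower, smul_smul, inv_mul_cancel₀ hμ.ne']
  · rw [eg]; exact h1 ε ι V q1 hV
  · rw [eg]; exact h2 ε ι V q2 hV
  · have e : ∀ j, S.D 1 (x * V j) = x (S.D μ⁻¹ (V j)) + (μ⁻¹ • S.ρ (V j)) (S.D μ x) := fun j => by
      rw [← mul_inv_cancel₀ hμ.ne', S.D_mul hxM (hV.mem j)]; rfl
    unfold Dn
    simp only [e]
    refine (l2_add_le _ _).trans (add_le_add ((l2_op_le x _).trans ?_) (S.row_ρ hV.row _))
    have := mul_le_mul_of_nonneg_left (hV.dn.trans q4) (norm_nonneg x)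
    exact this.trans (hδ'.trans (half_le_self hη.le))
  · have k1 := (abs_le.1 (hV.bin.1.sq hw)).1
    have k2 : ε * ‖a * x - x * a‖ ^ 2 ≤ (η / 2) ^ 2 := by
      rw [le_div_iff₀ (by positivity)] at q5
      nlinarith
    have k0 := l2_nonneg fun j => (a * x - x * a) (V j S.ξ)
    have k3 : ‖(a * x - x * a) S.ξ‖ ≤ η / 2 + l2 fun j => (a * x - x * a) (V j S.ξ) := by
      refine (pow_le_pow_iff_left₀ (norm_nonneg _) (by positivity) two_ne_zero).1 ?_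
      nlinarith
    have k4 := (l2_op_le x _).trans (mul_le_mul_of_nonneg_left
      (h3 ι V hV.mem (hV.col.mono one_le_two) hV.row (hV.dn.trans q3)) (norm_nonneg x))
    have k5 := l2_sub_le (fun j => (a * (x * V j) - x * V j * a) S.ξ)
      fun j => x ((a * V j - V j * a) S.ξ)
    have e : ∀ j, (a * (x * V j) - x * V j * a) S.ξ - x ((a * V j - V j * a) S.ξ) =
        (a * x - x * a) (V j S.ξ) := fun j => by
      simp only [_root_.sub_apply, mul_apply_eq_comp, map_sub]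
      abel
    simp only [e] at k5
    linarith

theorem last_l2 {ι : Type*} [Fintype ι] {E E' : Type*} [NormedAddCommGroup E]
    [NormedAddCommGroup E'] {v : ι → E} {w : ι → E'} {η c : ℝ} (hη : 0 ≤ η) (hc : 0 ≤ c)
    (h : ∀ k, ‖v k‖ ≤ η + c * ‖w k‖) : l2 v ≤ η * l2 (fun _ : ι => (1 : ℝ)) + c * l2 w := by
  have h1 := l2_mono (v := v) (w := fun k => η + c * ‖w k‖) fun k =>
    (h k).trans (le_abs_self _)
  refine h1.trans ((l2_add_le (fun _ => η) fun k => c * ‖w k‖).trans (add_le_add ?_ ?_))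
  · exact l2_le_mul hη fun k => by simp [abs_of_nonneg hη]
  · exact l2_le_mul hc fun k => by simp [abs_of_nonneg hc]

/-- For each `k` take a good family `V k` for `((μ k)⁻¹, ε)` with `ε` small and put
`y ⟨k, j⟩ = x k * V k j`. Then `Row y 1 4`; `gram y ζ ≈ gram x ζ` for `ζ = ξ, a ξ`
(`Itw.approx` for `(x k)* x k ∈ B`, `Col.sum_star`, `good_gram`);
`D 1 (x V) = x (D μ⁻¹ V) + μ⁻¹ ρ V (D μ x)`;
`[a, x V] ξ = [a, x] V ξ + x [a, V] ξ` and `l2 ([a, x] V ξ) ≈ ‖[a, x] ξ‖` (`Near.sq`). Use `u0`. -/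
theorem u1 (hW : S.HasW) (hβ : ∀ μ : ℝ, 0 < μ → ∀ b ∈ S.B, S.Itw μ b b) {a : Op H} (ha : a ∈ S.B)
    {ε : ℝ} (hε : 0 < ε) : ∃ K, 0 ≤ K ∧ ∀ (ι : Type) [Fintype ι] (x : ι → Op H) (μ : ι → ℝ),
      (∀ k, x k ∈ S.B) → (∀ k, 0 < μ k) → Col x 1 → Row x μ 2 →
        l2 (fun k => (a * x k - x k * a) S.ξ) ≤ ε + K * S.Dn x μ := by
  obtain ⟨K, hK, h0⟩ := S.u0 ha (‖a S.ξ‖ + 4) (half_pos hε)
  refine ⟨2 * K, by positivity, fun ι _ x μ hx hμ hc hr => ?_⟩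
  have hθ := l2_nonneg fun _ : ι => (1 : ℝ)
  set θ := l2 fun _ : ι => (1 : ℝ) with hθd
  obtain ⟨η, hη, q1, q2⟩ : ∃ η : ℝ, 0 < η ∧ Fintype.card ι * η ≤ 1 ∧ η * θ * (1 + K) ≤ ε / 2 := by
    refine ⟨min (1 / (Fintype.card ι + 1)) (ε / 2 / ((θ + 1) * (1 + K))), by positivity, ?_, ?_⟩
    · have := min_le_left (1 / (Fintype.card ι + 1 : ℝ)) (ε / 2 / ((θ + 1) * (1 + K)))
      have h1 : 0 < min (1 / (Fintype.card ι + 1 : ℝ)) (ε / 2 / ((θ + 1) * (1 + K))) := by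
        positivity
      rw [le_div_iff₀ (by positivity)] at this
      nlinarith
    · have := min_le_right (1 / (Fintype.card ι + 1 : ℝ)) (ε / 2 / ((θ + 1) * (1 + K)))
      have h1 : 0 < min (1 / (Fintype.card ι + 1 : ℝ)) (ε / 2 / ((θ + 1) * (1 + K))) := by
        positivity
      rw [le_div_iff₀ (by positivity)] at this
      nlinarith [mul_nonneg h1.le hK]
  choose α fin y m1 m2 m3 m4 m5 m6 using fun k => S.last_one hW hβ ha (hx k) (hμ k) hη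
  have nl2 : ∀ {κ : Type} [Fintype κ] (v : κ → H), ‖l2 v‖ = l2 v := fun v =>
    Real.norm_of_nonneg (l2_nonneg v)
  have hg : ∀ ζ, (∀ k, ‖gram (y k) ζ - (star (x k) * x k) ζ‖ ≤ η) →
      ‖gram (fun p : Σ k, α k => y p.1 p.2) ζ‖ ≤ ‖ζ‖ + 1 := by
    intro ζ h
    have e : gram (fun p : Σ k, α k => y p.1 p.2) ζ =
        gram x ζ + ∑ k, (gram (y k) ζ - (star (x k) * x k) ζ) := by
      simp only [gram, _root_.sum_apply, Finset.sum_sub_distrib, Fintype.sum_sigma]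
      abel
    rw [e]
    refine (norm_add_le _ _).trans (add_le_add ?_ ((norm_sum_le _ _).trans
      ((Finset.sum_le_sum fun k _ => h k).trans ?_)))
    · refine ((gram x).le_opNorm ζ).trans (mul_le_of_le_one_left (norm_nonneg _) ?_)
      simpa using hc.norm_gram zero_le_one
    · simpa using q1
  have k1 := h0 (Σ k, α k) (fun p => y p.1 p.2) (fun p => m1 p.1 p.2) (fun ζ => by
      rw [l2_sigma]
      have := l2_le_mul (v := fun k => l2 fun j => ((1 : ℝ) • star (y k j)) ζ)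
        (w := fun k => (μ k • star (x k)) ζ) zero_le_two fun k => by rw [nl2]; exact m2 k ζ
      refine this.trans ?_
      nlinarith [hr ζ, norm_nonneg ζ, norm_nonneg (a S.ξ)])
    ((hg _ m3).trans (by linarith [S.norm_ξ, norm_nonneg (a S.ξ)])) ((hg _ m4).trans (by linarith))
  have k2 : S.Dn (fun p : Σ k, α k => y p.1 p.2) (fun _ => 1) ≤ η * θ + 2 * S.Dn x μ := by
    unfold Dn
    rw [l2_sigma]
    exact last_l2 hη.le zero_le_two fun k => by rw [nl2]; exact m5 k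
  have k3 := last_l2 (v := fun k => (a * x k - x k * a) S.ξ)
    (w := fun k => l2 fun j => (a * y k j - y k j * a) S.ξ) hη.le zero_le_one
    fun k => by rw [nl2, one_mul]; exact m6 k
  rw [l2_sigma] at k1
  have k4 := mul_le_mul_of_nonneg_left k2 hK
  dsimp only at k1
  nlinarith

theorem last_min (η : H) (r : ℝ) :
    ‖(⟪S.ξ, η⟫_ℂ).re • S.ξ - η‖ ≤ ‖r • S.ξ - η‖ := by
  have key : ∀ r : ℝ, ‖r • S.ξ - η‖ ^ 2 = r ^ 2 - 2 * r * (⟪S.ξ, η⟫_ℂ).re + ‖η‖ ^ 2 := fun r => by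
    rw [@norm_sub_sq ℂ, norm_smul, S.norm_ξ, ← Complex.coe_smul, inner_smul_left]
    simp
    ring
  refine (pow_le_pow_iff_left₀ (norm_nonneg _) (norm_nonneg _) two_ne_zero).1 ?_
  rw [key, key]
  nlinarith [sq_nonneg (r - (⟪S.ξ, η⟫_ℂ).re)]

theorem last_zero (h : S.Erg) (hW : S.HasW) (hβ : ∀ μ : ℝ, 0 < μ → ∀ b ∈ S.B, S.Itw μ b b)
    {a z : Op H} (ha : a ∈ S.B) (hs : IsSelfAdjoint a) (hz : z ∈ S.M) (haz : a S.ξ = S.ρ z S.ξ)
    (hcont : Continuous fun t => S.σ t a) {c : ℝ} (hc0 : 0 ≤ c)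
    (hc : ∀ r : ℝ, c ≤ ‖r • S.ξ - a S.ξ‖) : c ≤ 0 := by
  refine le_of_forall_pos_le_add fun ε hε => ?_
  rw [zero_add]
  obtain ⟨K, hK, h1⟩ := S.u1 hW hβ ha hε
  have key : ∀ η : ℝ, 0 < η → c ^ 2 ≤ η + (ε + (K + ‖a - S.ρ z‖) * η) ^ 2 := by
    intro η hη
    obtain ⟨e, he, h2⟩ := S.nl hη
    obtain ⟨ι, _, x, μ, m1, m2, m3, m4⟩ := S.hb' S.B {p | p.1 ∈ S.B ∧ 0 < p.2}
      (fun p hp r => ⟨vn_rsmul_mem r hp.1, hp.2⟩) (a - S.ρ z) (c ^ 2)
      (fun h' hh k hk sh sk κ κ' hκ hκ' hq => S.qloc h ha hs hz haz hcont hc0 hc hh hk sh sk hκ hκ'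
        fun x hx μ hμ => hq (x, μ) ⟨hx, hμ⟩) (lt_min he hη)
    obtain ⟨y, n1, n2, n3, n4, n5⟩ := h2 S.B (fun x => S.B_le) ι x μ (fun k => (m1 k).1)
      (fun k => (m1 k).2) ⟨m2.1.mono (fun _ => id) (min_le_left _ _),
        m2.2.mono (fun _ => id) (min_le_left _ _)⟩ (m3.trans (min_le_left _ _))
    have k1 := h1 ι y μ n1 (fun k => (m1 k).2) n2 n3
    have k2 := l2_sub_le (fun k => (a * y k - y k * a) S.ξ) fun k => (a - S.ρ z) ((y k - x k) S.ξ)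
    have e1 : ∀ k, (a * y k - y k * a) S.ξ - (a - S.ρ z) ((y k - x k) S.ξ) =
        (a - S.ρ z) (x k S.ξ) := fun k => by
      simp only [_root_.sub_apply, mul_apply_eq_comp, map_sub, haz,
        S.ρ_comm_apply (S.B_le (n1 k)) hz]
      abel
    simp only [e1] at k2
    have k3 := (l2_op_le (a - S.ρ z) _).trans (mul_le_mul_of_nonneg_left n5 (norm_nonneg _))
    have k4 := mul_le_mul_of_nonneg_left n4 hK
    have k5 : l2 (fun k => (a - S.ρ z) (x k S.ξ)) ≤ ε + (K + ‖a - S.ρ z‖) * η := by linarith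
    linarith [pow_le_pow_left₀ (l2_nonneg _) k5 2, min_le_right e η]
  have hcts : Continuous fun η : ℝ => η + (ε + (K + ‖a - S.ρ z‖) * η) ^ 2 := by fun_prop
  have hlim := (hcts.tendsto 0).mono_left (nhdsWithin_le_nhds (s := Set.Ioi 0))
  have := ge_of_tendsto hlim (eventually_mem_nhdsWithin.mono key)
  simp only [mul_zero, add_zero, zero_add] at this
  exact (pow_le_pow_iff_left₀ hc0 hε.le two_ne_zero).1 this

theorem last_sa (h : S.Erg) (hW : S.HasW) (hβ : ∀ μ : ℝ, 0 < μ → ∀ b ∈ S.B, S.Itw μ b b)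
    {a : Op H} (ha : a ∈ S.B) (hs : IsSelfAdjoint a) : ∃ c : ℂ, a = c • (1 : Op H) := by
  obtain ⟨z, hz, haz⟩ := S.G_analytic (S.B_le ha)
  have h1 := S.last_zero h hW hβ (S.G_mem 0 one_pos a (S.σ_B ha))
    (by rw [IsSelfAdjoint, S.G_star 0 one_pos, neg_zero, hs.star_eq]) hz haz
    (S.continuous_σ_G one_pos a) (norm_nonneg _) (S.last_min _)
  set r := (⟪S.ξ, S.G 0 1 a S.ξ⟫_ℂ).re
  rw [norm_le_zero_iff, S.G_ξ 0 one_pos] at h1
  have h2 : (r : ℂ) • S.ξ - a S.ξ = 0 := by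
    refine S.inj_of_ne (f := gB 0 1) (fun u => by simpa using (gau_pos 0 1 u).ne') ?_
    rw [map_sub, map_smul, S.Θ_ξ, ← h1]
    simp [gau]
  exact ⟨r, S.ext_ξ (S.B_le ha) (SMulMemClass.smul_mem _ (one_mem _)) (sub_eq_zero.1 h2).symm⟩

/-- For selfadjoint `a₀ ∈ B` let `a = G 0 1 a₀`, `z` from `G_analytic`, `c` the distance from `a ξ`
to `ℝ ξ`. `hb'` (with `qloc`), `nl` (`N = B`) and `u1` give `c = 0`, so `a ξ = r ξ`, and
`inj_of_ne` for `gB 0 1` gives `a₀ ξ = r ξ`. -/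
theorem last (h : S.Erg) (hW : S.HasW) (hβ : ∀ μ : ℝ, 0 < μ → ∀ b ∈ S.B, S.Itw μ b b)
    {a : Op H} (ha : a ∈ S.B) : ∃ c : ℂ, a = c • (1 : Op H) := by
  obtain ⟨c, hc⟩ := S.last_sa h hW hβ (a := realPart a) (by
    rw [realPart_apply_coe]
    exact vn_rsmul_mem _ (add_mem ha (star_mem ha))) (realPart a).2
  obtain ⟨d, hd⟩ := S.last_sa h hW hβ (a := imaginaryPart a) (by
    rw [imaginaryPart_apply_coe]
    exact SMulMemClass.smul_mem _ (vn_rsmul_mem _ (sub_mem ha (star_mem ha)))) (imaginaryPart a).2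
  refine ⟨c + Complex.I * d, ?_⟩
  rw [add_smul, mul_smul, ← hc, ← hd, realPart_add_I_smul_imaginaryPart]

end SF

end Vale.Agent.P132
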