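import Vale.Agent.P132.SFB

/-! P132: resolvent truncation and normalisation of finite families. -/

namespace Vale.Agent.P132

open scoped InnerProductSpace BoundedContinuousFunction
open Filter Topology MeasureTheory Vale.Agent.P104

universe u

variable {H : Type u} [NormedAddCommGroup H] [InnerProductSpace ℂ H] [CompleteSpace H]

variable {ι : Type*} [Fintype ι]

/-- `r = (1 + G)⁻¹`, `G = gram x`. If `(1 + G) u = ∑ (x l)* (v l)` then
`‖u‖² + l2 (x · u)² = re ∑ ⟪x l u, v l⟫`. -/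
theorem exists_res (x : ι → Op H) : ∃ r : Op H, (1 + gram x) * r = 1 ∧ r * (1 + gram x) = 1 ∧
    IsSelfAdjoint r ∧ ‖r‖ ≤ 1 ∧ Col (fun k => x k * r) (1 / 2) ∧
    ∀ v : ι → H, l2 (fun k => x k (r (∑ l, star (x l) (v l)))) ≤ l2 v := by
  have h0 : 0 ≤ gram x := nonneg_iff_qf.2 ⟨gram_sa x, fun ζ => by rw [qf_gram]; positivity⟩
  obtain ⟨a, ha⟩ : IsUnit (1 + gram x) :=
    CStarAlgebra.isUnit_of_le 1 (le_add_of_nonneg_right h0) isStrictlyPositive_one
  have h1 : (1 + gram x) * (a⁻¹ : (Op H)ˣ) = 1 := by rw [← ha, Units.mul_inv]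
  have h2 : (a⁻¹ : (Op H)ˣ) * (1 + gram x) = 1 := by rw [← ha, Units.inv_mul]
  generalize ((a⁻¹ : (Op H)ˣ) : Op H) = r at h1 h2
  have key : ∀ w, ‖r w‖ ^ 2 + l2 (fun k => x k (r w)) ^ 2 ≤ ‖⟪r w, w⟫_ℂ‖ := fun w => by
    rw [← qf_one, ← qf_gram, ← qf_add, qf, ← mul_apply_eq_comp, h1, one_apply_eq_self]
    exact Complex.re_le_norm _
  refine ⟨r, h1, h2, ?_, r.opNorm_le_bound zero_le_one fun w => ?_, fun w => ?_, fun v => ?_⟩
  · have h3 := congrArg star h1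
    rw [star_mul, star_add, star_one, (gram_sa x).star_eq] at h3
    exact left_inv_eq_right_inv h3 h1
  · refine l2_cancel (norm_nonneg _) (by positivity) ?_
    have := norm_inner_le_norm (𝕜 := ℂ) (r w) w
    nlinarith [key w, sq_nonneg (l2 fun k => x k (r w))]
  · refine (abs_le_of_sq_le_sq' ?_ (by positivity)).2
    have := norm_inner_le_norm (𝕜 := ℂ) (r w) w
    change l2 (fun k => x k (r w)) ^ 2 ≤ _
    nlinarith [key w, sq_nonneg (‖r w‖ - ‖w‖ / 2)]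
  · refine l2_cancel (l2_nonneg _) (l2_nonneg _) ?_
    have h3 := key (∑ l, star (x l) (v l))
    generalize r (∑ l, star (x l) (v l)) = u at h3 ⊢
    simp only [inner_sum, inner_star_right] at h3
    nlinarith [norm_sum_inner_le (fun k => x k u) v, sq_nonneg ‖u‖]

namespace SF
variable (S : SF H)

/-- `r ξ - ξ r = r (ξ G - G ξ) r` and `ξ G - G ξ = ∑ (J D l) (x l) - (x l)* (D l)` -/
theorem rt {x : ι → Op H} (hx : ∀ k, x k ∈ S.M) (μ : ι → ℝ) {r : Op H}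
    (h1 : (1 + gram x) * r = 1) (h2 : r * (1 + gram x) = 1) :
    l2 (fun k => x k (S.D 1 r)) ≤ 5 / 4 * S.Dn x μ ∧
      S.Dn (fun k => x k * r) μ ≤ 9 / 4 * S.Dn x μ := by
  obtain ⟨r', -, h3, -, hr1, hc, hv⟩ := exists_res x
  obtain rfl : r' = r := left_inv_eq_right_inv h3 h1
  have hG : 1 + gram x ∈ S.M := add_mem (one_mem _) (gram_mem hx)
  have hr : r' ∈ S.M := vn_inv_mem hG h1 h2
  have hρ : ∀ v : ι → H, l2 (fun k => S.ρ r' (v k)) ≤ l2 v := fun v =>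
    (l2_op_le _ v).trans (mul_le_of_le_one_left (l2_nonneg v) (by rwa [S.norm_ρ]))
  have e1 := S.D_mul hG hr 1 1
  rw [mul_one, h1, S.D_one, one_smul, S.D_add, S.D_one, zero_add, gram, S.D_sum] at e1
  have e2 : ∀ l, S.D 1 (star (x l) * x l) =
      star (x l) (S.D (μ l) (x l)) - S.ρ (x l) (S.J (S.D (μ l) (x l))) := fun l => by
    have e3 : S.J (S.ρ (x l) S.ξ) = star (x l) S.ξ := by rw [S.ρ_ξ, S.JJ]
    simp only [D, map_sub, one_smul, S.J_rsmul, e3, S.J_apply (x l), S.J_ξ, S.ρ_mul,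
      ContinuousLinearMap.map_smul_of_tower, mul_apply_eq_comp,
      S.ρ_comm_apply (star_mem (hx l)) (hx l)]
    abel
  have e4 : S.D 1 r' = r' (S.J (∑ l, star (x l * r') (S.D (μ l) (x l)))) -
      S.ρ r' (r' (∑ l, star (x l) (S.D (μ l) (x l)))) := by
    have e5 := congrArg r' e1
    rw [map_zero, map_add, ← gram, ← mul_apply_eq_comp, h2, one_apply_eq_self] at e5
    rw [eq_neg_of_add_eq_zero_left e5.symm, ← S.ρ_comm_apply hr hr, ← map_sub, ← map_neg]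
    congr 1
    simp only [e2, map_sum, map_sub, Finset.sum_sub_distrib, neg_sub, S.J_apply, star_star,
      S.ρ_mul, mul_apply_eq_comp]
  have h4 : l2 (fun k => x k (S.D 1 r')) ≤ 5 / 4 * S.Dn x μ := by
    simp only [e4, map_sub, S.ρ_comm_apply (hx _) hr]
    have h5 := hc (S.J (∑ l, star (x l * r') (S.D (μ l) (x l))))
    have h6 := hc.sum_star (by norm_num) fun l => S.D (μ l) (x l)
    rw [S.norm_J] at h5
    have h7 := (hρ _).trans (hv fun l => S.D (μ l) (x l))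
    refine (l2_sub_le _ _).trans ((add_le_add h5 h7).trans ?_)
    unfold Dn
    linarith
  refine ⟨h4, ?_⟩
  have e6 : ∀ k, S.D (μ k) (x k * r') = x k (S.D 1 r') + S.ρ r' (S.D (μ k) (x k)) := fun k => by
    have := S.D_mul (hx k) hr (μ k) 1
    rwa [mul_one, one_smul] at this
  unfold Dn at h4 ⊢
  simp only [e6]
  refine (l2_add_le _ _).trans ?_
  linarith [hρ fun k => S.D (μ k) (x k)]

/-- One-sided normalisation `y k = 2 • x k * r`. Write `φ z = qf z ξ`, `δ = Dn x μ`. By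
`sum_inner_J` and `rt`, `φ G = 1 + O`, `φ (G r) = φ r + O`, `φ (r G r) = φ (r r) + O`; since
`G r = 1 - r` this gives `φ r = 1/2 + O`, `φ (r r) = 1/4 + O` and
`l2 ((y - x) ξ)² = φ G - 4 φ (G r) + 4 φ (r G r) = O`. -/
theorem nl1 {η : ℝ} (hη : 0 < η) : ∃ ε > 0, ∀ (N : VonNeumannAlgebra H), (∀ x ∈ N, x ∈ S.M) →
    ∀ (ι : Type) [Fintype ι] (x : ι → Op H) (μ : ι → ℝ), (∀ k, x k ∈ N) →
      Near N S.ξ (fun k => S.J (x k S.ξ)) ε → S.Dn x μ ≤ ε →
      ∃ y : ι → Op H, (∀ k, y k ∈ N) ∧ Col y 1 ∧ (∀ C, 0 ≤ C → Row x μ C → Row y μ (2 * C)) ∧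
        S.Dn y μ ≤ 9 / 2 * S.Dn x μ ∧ l2 (fun k => (y k - x k) S.ξ) ≤ η := by
  refine ⟨min 1 (η ^ 2 / 17), by positivity, fun N hN ι _ x μ hx hn hd => ?_⟩
  have hε1 := min_le_left 1 (η ^ 2 / 17)
  have hε2 := min_le_right 1 (η ^ 2 / 17)
  have hε0 : 0 < min 1 (η ^ 2 / 17) := by positivity
  generalize min 1 (η ^ 2 / 17) = ε at hn hd hε1 hε2 hε0
  obtain ⟨r, h1, h2, hs, hr1, hc, -⟩ := exists_res x
  have hr : r ∈ N := vn_inv_mem (add_mem (one_mem _) (gram_mem hx)) h1 h2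
  obtain ⟨h3, h4⟩ := S.rt (fun k => hN _ (hx k)) μ h1 h2
  refine ⟨fun k => (2 : ℝ) • (x k * r), fun k => vn_rsmul_mem _ (mul_mem (hx k) hr), fun ζ => ?_,
    fun C hC hrow ζ => ?_, ?_, ?_⟩
  · refine (l2_le_mul (w := fun k => (x k * r) ζ) zero_le_two fun k => ?_).trans (by linarith [hc ζ])
    rw [smul_apply, norm_smul, Real.norm_two]
  · refine (l2_le_mul (w := fun k => (μ k • star (x k)) ζ) zero_le_two fun k => ?_).trans
      (by linarith [hrow ζ])
    beta_reduce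
    rw [star_smul, star_trivial, smul_comm, smul_apply, norm_smul, Real.norm_two, star_mul,
      hs.star_eq, ← mul_smul_comm, mul_apply_eq_comp]
    exact mul_le_mul_of_nonneg_left ((r.le_opNorm _).trans
      (mul_le_of_le_one_left (norm_nonneg _) hr1)) zero_le_two
  · refine (l2_le_mul (w := fun k => S.D (μ k) (x k * r)) zero_le_two fun k => ?_).trans
      (by unfold Dn at h4 ⊢; linarith)
    rw [S.D_rsmul, norm_smul, Real.norm_two]
  have e1 : ∀ k, ((2 : ℝ) • (x k * r) - x k) S.ξ = x k ((r + r - 1) S.ξ) := fun k => by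
    rw [← mul_apply_eq_comp, two_smul, mul_sub, mul_add, mul_one]
  have hs' : star (r + r - 1) = r + r - 1 := by rw [star_sub, star_add, star_one, hs.star_eq]
  have e2 : star (r + r - 1) * gram x * (r + r - 1) + (3 : ℝ) • (star (r + r - 1) * (r + r - 1)) =
      gram x - 1 - (4 : ℝ) • (star r * gram x * r - star r * r) := by
    have a1 : gram x * r = 1 - r := by rw [← h1, add_mul, one_mul, add_sub_cancel_left]
    have a2 : r * gram x = 1 - r := by rw [← h2, mul_add, mul_one, add_sub_cancel_left]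
    rw [hs', hs.star_eq]
    simp only [add_mul, sub_mul, mul_add, mul_sub, one_mul, mul_one, a1, a2]
    module
  have e3 := congrArg (fun T => qf T S.ξ) e2
  simp only [qf_add, qf_sub, qf_rsmul, qf_conj, qf_star_mul_self, qf_gram, qf_one] at e3
  have n1 := (abs_le.1 (hn.sq (one_mem N))).2
  have n2 := (abs_le.1 (hn.sq hr)).1
  have n3 : ‖(1 : Op H)‖ ^ 2 ≤ 1 := pow_le_one₀ (norm_nonneg _) ContinuousLinearMap.norm_id_le
  have n4 : ‖r‖ ^ 2 ≤ 1 := pow_le_one₀ (norm_nonneg _) hr1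
  simp only [one_apply_eq_self] at n1
  rw [l2_congr (w := fun k => x k S.ξ) fun k => S.norm_J _] at n1
  have n5 : l2 (fun k => r (S.J (x k S.ξ))) ≤ l2 (fun k => x k (r S.ξ)) + 5 / 4 * ε := by
    have e4 : ∀ k, ‖r (S.J (x k S.ξ))‖ = ‖x k (r S.ξ) - x k (S.D 1 r)‖ := fun k => by
      rw [← map_sub, D, sub_sub_cancel, one_smul, S.ρ_comm_apply (hN _ (hx k)) (hN _ hr),
        S.norm_ρ_apply, hs.star_eq]
    rw [l2_congr e4]
    exact (l2_sub_le _ _).trans (by linarith)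
  have n6 : l2 (fun k => x k (r S.ξ)) ≤ 1 / 2 := by
    have := hc S.ξ
    rwa [S.norm_ξ, mul_one] at this
  have n7 := pow_le_pow_left₀ (l2_nonneg _) n5 2
  simp only [e1]
  refine (abs_le_of_sq_le_sq' ?_ hη.le).2
  nlinarith [sq_nonneg ‖(r + r - 1) S.ξ‖, mul_le_mul_of_nonneg_left n3 hε0.le,
    mul_le_mul_of_nonneg_left n4 hε0.le, mul_le_mul_of_nonneg_left n6 hε0.le,
    mul_le_mul_of_nonneg_left hε1 hε0.le]

/-- apply `nl1` to the flipped family `(μ • x*, μ⁻¹)` (`J_flip`, `Dn_flip`, `Near.perturb`), flip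
back, and apply `nl1` again -/
theorem nl {η : ℝ} (hη : 0 < η) : ∃ ε > 0, ∀ (N : VonNeumannAlgebra H), (∀ x ∈ N, x ∈ S.M) →
    ∀ (ι : Type) [Fintype ι] (x : ι → Op H) (μ : ι → ℝ), (∀ k, x k ∈ N) → (∀ k, 0 < μ k) →
      S.Bin N x ε → S.Dn x μ ≤ ε →
      ∃ y : ι → Op H, (∀ k, y k ∈ N) ∧ Col y 1 ∧ Row y μ 2 ∧ S.Dn y μ ≤ η ∧
        l2 (fun k => (y k - x k) S.ξ) ≤ η := by
  obtain ⟨ε₂, hε₂, H₂⟩ := S.nl1 (half_pos hη)
  obtain ⟨η₁, hη₁, a1, a2, a3⟩ : ∃ η₁ > 0, η₁ ≤ ε₂ / 8 ∧ η₁ ≤ η / 4 ∧ η₁ ≤ 1 / 2 :=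
    ⟨min (ε₂ / 8) (min (η / 4) (1 / 2)), by positivity, min_le_left _ _,
      (min_le_right _ _).trans (min_le_left _ _), (min_le_right _ _).trans (min_le_right _ _)⟩
  obtain ⟨ε₁, hε₁, H₁⟩ := S.nl1 hη₁
  refine ⟨min (ε₁ / 5) (η₁ / 6), by positivity, fun N hN ι _ x μ hx hμ hb hd => ?_⟩
  have a4 := min_le_left (ε₁ / 5) (η₁ / 6)
  have a5 := min_le_right (ε₁ / 5) (η₁ / 6)
  have a6 : 0 < min (ε₁ / 5) (η₁ / 6) := by positivity
  generalize min (ε₁ / 5) (η₁ / 6) = ε at hb hd a4 a5 a6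
  have hμ' : ∀ k, 0 < (μ k)⁻¹ := fun k => inv_pos.2 (hμ k)
  have hf : ∀ k (a : Op H), (μ k)⁻¹ • star (μ k • star a) = a := fun k a => by
    rw [star_smul, star_trivial, star_star, inv_smul_smul₀ (hμ k).ne']
  have d1 : S.Dn (fun k => μ k • star (x k)) (fun k => (μ k)⁻¹) ≤ ε := by rwa [S.Dn_flip hμ]
  obtain ⟨y, hy, hc, -, d2, d3⟩ := H₁ N hN ι (fun k => μ k • star (x k)) (fun k => (μ k)⁻¹)
    (fun k => vn_rsmul_mem _ (star_mem (hx k)))
    ((hb.1.perturb S.norm_ξ a6.le (by linarith) (δ := ε) (by linarith) ((l2_congr fun k => by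
      rw [S.J_flip, sub_sub_cancel_left, norm_neg]).trans_le hd)).mono (fun _ h => h) (by linarith))
    (by linarith)
  have d4 := S.Dn_flip (x := y) hμ'
  simp only [inv_inv] at d4
  have d5 : l2 (fun k => ((μ k)⁻¹ • star (y k) - x k) S.ξ) ≤ η₁ + 11 / 2 * ε := by
    have e : ∀ k, ‖((μ k)⁻¹ • star (y k) - x k) S.ξ‖ = ‖(y k - μ k • star (x k)) S.ξ -
        S.D (μ k)⁻¹ (y k) + S.D (μ k)⁻¹ (μ k • star (x k))‖ := fun k => by
      have e1 := S.J_flip (μ k)⁻¹ (μ k • star (x k))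
      rw [hf] at e1
      rw [← S.norm_J, sub_apply, map_sub, S.J_flip, e1, sub_apply]
      congr 1
      abel
    rw [l2_congr e]
    refine (l2_add_le _ _).trans ((add_le_add_left (l2_sub_le _ _) _).trans ?_)
    unfold Dn at d1 d2
    linarith
  obtain ⟨z, hz, hc', hr, d6, d7⟩ := H₂ N hN ι (fun k => (μ k)⁻¹ • star (y k)) μ
    (fun k => vn_rsmul_mem _ (star_mem (hy k)))
    ((Bin.perturb S hb a6.le (by linarith) (by linarith) d5).2.mono (fun _ h => h) (by linarith))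
    (by linarith)
  refine ⟨z, hz, hc', ?_, by linarith, ?_⟩
  · have := hr 1 zero_le_one (by
      unfold Row
      simpa only [star_smul, star_trivial, star_star, smul_inv_smul₀ (hμ _).ne'] using hc)
    rwa [mul_one] at this
  · have e : ∀ k, (z k - x k) S.ξ =
        (z k - (μ k)⁻¹ • star (y k)) S.ξ + ((μ k)⁻¹ • star (y k) - x k) S.ξ := fun k => by
      rw [← add_apply, sub_add_sub_cancel]
    simp only [e]
    exact (l2_add_le _ _).trans (by linarith)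

end SF

end Vale.Agent.P132
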