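import Vale.Agent.P132.W

/-! P132: binormal families in the bicentralizer which do not commute with a given element. -/

namespace Vale.Agent.P132

open scoped InnerProductSpace BoundedContinuousFunction
open Filter Topology MeasureTheory Vale.Agent.P104

universe u

variable {H : Type u} [NormedAddCommGroup H] [InnerProductSpace ℂ H] [CompleteSpace H]

namespace SF
variable (S : SF H)

theorem q_integrable {w : ℝ} (hw : 0 < w) {f : ℝ → ℝ} (hf : Continuous f) {C : ℝ}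
    (hC : ∀ t, |f t| ≤ C) : Integrable fun t => kap w t * f t :=
  (integrable_kap hw).mul_bdd hf.aestronglyMeasurable (Eventually.of_forall hC)

theorem q_int_qf {w : ℝ} (hw : 0 < w) (A : Op H) (η : H) :
    Integrable fun t => kap w t * qf A (S.Δ t η) :=
  q_integrable hw ((continuous_qf A).comp (S.continuous_Δ η)) (C := ‖A‖ * ‖η‖ ^ 2) fun t => by
    have := abs_qf_le A (S.Δ t η)
    rwa [S.norm_Δ] at this

theorem q_int_sq {w : ℝ} (hw : 0 < w) (T : Op H) (η : H) :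
    Integrable fun t => kap w t * ‖T (S.Δ t η)‖ ^ 2 := by
  simpa only [qf_star_mul_self] using S.q_int_qf hw (star T * T) η

theorem q_int {T h k : Op H} (sk : IsSelfAdjoint k) {κ κ' : ℝ}
    (hq : ∀ x ∈ S.B, ∀ μ : ℝ, 0 < μ → 0 ≤ qf h (x S.ξ) + qf k (S.J (x S.ξ)) +
      κ * ‖S.D μ x‖ ^ 2 - κ' * ‖T (x S.ξ)‖ ^ 2) {w : ℝ} (hw : 0 < w) {v : Op H} (hv : v ∈ S.B) :
    κ' * ∫ t, kap (√2 * w) t * ‖T (S.Δ t (v S.ξ))‖ ^ 2 ≤
      qf (S.G 0 (√2 * w) h) (v S.ξ) + qf (S.G 0 (√2 * w) k) (S.J (v S.ξ)) +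
        κ * eps w * ‖v S.ξ‖ ^ 2 := by
  have hw' : 0 < √2 * w := by positivity
  have hA : ∀ η, qf (h + S.ρ k - κ' • (star T * T)) η =
      qf h η + qf k (S.J η) - κ' * ‖T η‖ ^ 2 := fun η => by
    rw [qf_sub, qf_add, qf_rsmul, qf_star_mul_self, S.qf_J sk]
  have key := S.qineq (N := S.B) (fun x hx => S.B_le hx) (fun x hx t => S.σ_B hx t)
    (h + S.ρ k - κ' • (star T * T)) κ (fun x hx μ hμ => by
      have := hq x hx μ hμ
      rw [hA]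
      linarith) hw hv
  have e : ∀ t, kap (√2 * w) t * qf (h + S.ρ k - κ' • (star T * T)) (S.Δ t (v S.ξ)) =
      kap (√2 * w) t * qf h (S.Δ t (v S.ξ)) + kap (√2 * w) t * qf k (S.Δ t (S.J (v S.ξ))) -
        κ' * (kap (√2 * w) t * ‖T (S.Δ t (v S.ξ))‖ ^ 2) := fun t => by
    rw [hA, S.J_Δ]
    ring
  simp only [e] at key
  have i1 : Integrable fun t => kap (√2 * w) t * qf h (S.Δ t (v S.ξ)) +
      kap (√2 * w) t * qf k (S.Δ t (S.J (v S.ξ))) := (S.q_int_qf hw' _ _).add (S.q_int_qf hw' _ _)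
  rw [integral_sub i1 ((S.q_int_sq hw' _ _).const_mul _), integral_add (S.q_int_qf hw' _ _) (S.q_int_qf hw' _ _),
    integral_const_mul, ← S.toFC.qf_G hw', ← S.toFC.qf_G hw'] at key
  linarith

theorem q_cut {a p₀ : Op H} (ha : a ∈ S.B) (hs : IsSelfAdjoint a)
    (hcont : Continuous fun t => S.σ t a) (hp : IsStarProjection p₀) (hpB : p₀ ∈ S.B)
    (h0 : p₀ ≠ 0) (L : ℝ) {τ : ℝ} (hτ : 0 < τ) : ∃ p ∈ S.B, IsStarProjection p ∧ p ≠ 0 ∧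
      p₀ * p = p ∧ ∀ t ∈ Set.Icc (-L) L, ∃ r : ℝ, ‖p * S.σ (-t) a * p - r • p‖ ≤ 2 * τ := by
  have hc : Continuous fun t => S.σ (-t) a := hcont.comp continuous_neg
  obtain ⟨s, -, hs'⟩ := (isCompact_Icc (a := -L) (b := L)).elim_nhds_subcover
    (fun t => (fun t' => S.σ (-t') a) ⁻¹' Metric.ball (S.σ (-t) a) τ)
    fun t _ => hc.continuousAt.preimage_mem_nhds (Metric.ball_mem_nhds _ hτ)
  obtain ⟨p, hpB', hp', hp0, hle, hd⟩ := cut_many S.B hp hpB h0 s (fun t => S.σ (-t) a)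
    (fun t => S.σ_B ha _) (fun t => by
      rw [IsSelfAdjoint, ← S.toFC.σ_star, hs.star_eq]) hτ
  refine ⟨p, hpB', hp', hp0, hle, fun t ht => ?_⟩
  obtain ⟨t₀, h1, h2⟩ := Set.mem_iUnion₂.1 (hs' ht)
  obtain ⟨r, hr⟩ := hd t₀ h1
  refine ⟨r, ?_⟩
  have h3 : ‖S.σ (-t) a - S.σ (-t₀) a‖ ≤ τ := by
    have := Metric.mem_ball.1 h2
    rw [dist_eq_norm] at this
    exact this.le
  have h4 : ‖p * (S.σ (-t) a - S.σ (-t₀) a) * p‖ ≤ τ := by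
    have n1 := hp'.norm_le
    calc _ ≤ ‖p‖ * ‖S.σ (-t) a - S.σ (-t₀) a‖ * ‖p‖ :=
          (norm_mul_le _ _).trans (mul_le_mul_of_nonneg_right (norm_mul_le _ _) (norm_nonneg _))
      _ ≤ 1 * τ * 1 := by gcongr
      _ = τ := by ring
  have e : p * S.σ (-t) a * p - r • p =
      p * (S.σ (-t) a - S.σ (-t₀) a) * p + (p * S.σ (-t₀) a * p - r • p) := by
    rw [mul_sub, sub_mul]
    abel
  rw [e]
  linarith [norm_add_le (p * (S.σ (-t) a - S.σ (-t₀) a) * p) (p * S.σ (-t₀) a * p - r • p)]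

theorem q_l2_gram {ι : Type*} [Fintype ι] {v : ι → Op H} (hG : IsStarProjection (gram v)) (ζ : H) :
    l2 (fun i => v i ζ) = ‖gram v ζ‖ := by
  have h1 := qf_gram v ζ
  rw [polar_qf_proj hG] at h1
  exact ((pow_left_inj₀ (norm_nonneg _) (l2_nonneg _) two_ne_zero).1 h1).symm

theorem q_low {a z p : Op H} (ha : a ∈ S.M) (hz : z ∈ S.M) (haz : a S.ξ = S.ρ z S.ξ) {c : ℝ}
    (hc : ∀ r : ℝ, c ≤ ‖r • S.ξ - a S.ξ‖) (hp : IsStarProjection p) (hpM : p ∈ S.M) (h0 : p ≠ 0)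
    {ι : Type*} [Fintype ι] {v : ι → Op H} (hv : ∀ i, v i ∈ S.M) (hpv : ∀ i, p * v i = v i)
    (hG : IsStarProjection (gram v)) {τ : ℝ} (hτ1 : τ ≤ 1) (hGξ : ‖gram v S.ξ - S.ξ‖ ≤ τ)
    {t r : ℝ} (hr : ‖p * S.σ (-t) a * p - r • p‖ ≤ 2 * τ) :
    c - (‖a‖ + ‖z‖ + 4) * τ ≤ l2 fun i => (a - S.ρ z) (S.Δ t (v i S.ξ)) := by
  have hτ : 0 ≤ τ := (norm_nonneg _).trans hGξ
  have n1 : ‖p‖ = 1 := by
    have e := CStarRing.norm_star_mul_self (x := p)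
    rw [hp.isSelfAdjoint.star_eq, hp.isIdempotentElem.eq] at e
    exact (mul_left_cancel₀ (norm_ne_zero_iff.2 h0) (e.symm.trans (mul_one _).symm))
  have hr1 : |r| ≤ ‖a‖ + 2 := by
    have e : r • p = p * S.σ (-t) a * p - (p * S.σ (-t) a * p - r • p) := by abel
    have h1 : ‖r • p‖ = |r| := by rw [norm_smul, n1, mul_one, Real.norm_eq_abs]
    have h2 : ‖p * S.σ (-t) a * p‖ ≤ ‖a‖ := by
      calc _ ≤ ‖p‖ * ‖S.σ (-t) a‖ * ‖p‖ :=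
            (norm_mul_le _ _).trans (mul_le_mul_of_nonneg_right (norm_mul_le _ _) (norm_nonneg _))
        _ = ‖a‖ := by rw [n1, S.toFC.norm_σ]; ring
    have h3 := norm_sub_le (p * S.σ (-t) a * p) (p * S.σ (-t) a * p - r • p)
    rw [← e, h1] at h3
    linarith
  have hzt : S.σ (-t) z ∈ S.M := S.σ_M z hz _
  set y : Op H := r • (1 : Op H) - S.ρ (S.σ (-t) z) with hy
  have hyn : ‖y‖ ≤ ‖a‖ + ‖z‖ + 2 := by
    have h1 : ‖r • (1 : Op H)‖ ≤ |r| := by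
      rw [norm_smul, Real.norm_eq_abs]
      exact mul_le_of_le_one_right (abs_nonneg _) ContinuousLinearMap.norm_id_le
    have h2 := norm_sub_le (r • (1 : Op H)) (S.ρ (S.σ (-t) z))
    rw [S.norm_ρ, S.toFC.norm_σ] at h2
    linarith
  have hyc : ∀ x ∈ S.M, ∀ η, x (y η) = y (x η) := fun x hx η => by
    simp only [hy, sub_apply, smul_apply, one_apply_eq_self, map_sub, S.ρ_comm_apply hx hzt]
    rw [ContinuousLinearMap.map_smul_of_tower]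
  have hyξ : c ≤ ‖y S.ξ‖ := by
    have e : y S.ξ = S.Δ (-t) (r • S.ξ - a S.ξ) := by
      simp only [hy, sub_apply, smul_apply, one_apply_eq_self, map_sub]
      rw [ContinuousLinearMap.map_smul_of_tower, S.Δ_ξ, S.ρ_σ, S.σ_ξ, haz]
    rw [e, S.toFC.norm_Δ]
    exact hc r
  have h1 : c - (‖a‖ + ‖z‖ + 2) * τ ≤ l2 fun i => v i (y S.ξ) := by
    rw [q_l2_gram hG, hyc _ (gram_mem hv)]
    have e : y S.ξ = y (gram v S.ξ) - y (gram v S.ξ - S.ξ) := by rw [map_sub]; abel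
    have h2 := norm_sub_le (y (gram v S.ξ)) (y (gram v S.ξ - S.ξ))
    rw [← e] at h2
    have h3 : ‖y (gram v S.ξ - S.ξ)‖ ≤ (‖a‖ + ‖z‖ + 2) * τ :=
      (y.le_opNorm _).trans (mul_le_mul hyn hGξ (norm_nonneg _) (by positivity))
    linarith
  have h2 : l2 (fun i => v i S.ξ) ≤ 1 := by
    rw [q_l2_gram hG]
    exact ((gram v).le_opNorm _).trans (by rw [S.norm_ξ, mul_one]; exact hG.norm_le)
  have h3 : ∀ i, v i (y S.ξ) = p (S.Δ (-t) ((a - S.ρ z) (S.Δ t (v i S.ξ)))) -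
      (p * S.σ (-t) a * p - r • p) (v i S.ξ) := fun i => by
    have k1 : p (v i S.ξ) = v i S.ξ := by rw [← mul_apply_eq_comp, hpv]
    have k2 : S.Δ (-t) ((a - S.ρ z) (S.Δ t (v i S.ξ))) =
        S.σ (-t) a (v i S.ξ) - S.ρ (S.σ (-t) z) (v i S.ξ) := by
      rw [S.ρ_σ, FC.σ_apply, FC.σ_apply, neg_neg, sub_apply, map_sub]
    rw [hyc _ (hv i), k2]
    simp only [hy, sub_apply, smul_apply, one_apply_eq_self, map_sub, mul_apply_eq_comp, k1,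
      S.ρ_comm_apply hpM hzt]
    abel
  simp only [h3] at h1
  have h4 := l2_sub_le (fun i => p (S.Δ (-t) ((a - S.ρ z) (S.Δ t (v i S.ξ)))))
    fun i => (p * S.σ (-t) a * p - r • p) (v i S.ξ)
  have h5 := l2_op_le p fun i => S.Δ (-t) ((a - S.ρ z) (S.Δ t (v i S.ξ)))
  have h6 := l2_op_le (p * S.σ (-t) a * p - r • p) fun i => v i S.ξ
  have h7 : l2 (fun i => S.Δ (-t) ((a - S.ρ z) (S.Δ t (v i S.ξ)))) =
      l2 fun i => (a - S.ρ z) (S.Δ t (v i S.ξ)) := l2_congr fun i => S.toFC.norm_Δ _ _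
  rw [n1, one_mul, h7] at h5
  have h8 : ‖p * S.σ (-t) a * p - r • p‖ * l2 (fun i => v i S.ξ) ≤ 2 * τ * 1 :=
    mul_le_mul hr h2 (l2_nonneg _) (by positivity)
  linarith

theorem q_step (h : S.Erg) {a z : Op H} (ha : a ∈ S.B) (hs : IsSelfAdjoint a) (hz : z ∈ S.M)
    (haz : a S.ξ = S.ρ z S.ξ) (hcont : Continuous fun t => S.σ t a) {c : ℝ}
    (hc : ∀ r : ℝ, c ≤ ‖r • S.ξ - a S.ξ‖) {h k : Op H} (hh : h ∈ S.B) (hk : k ∈ S.B)
    (sh : IsSelfAdjoint h) (sk : IsSelfAdjoint k) {κ κ' : ℝ} (hκ : 0 ≤ κ) (hκ' : 0 ≤ κ')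
    (hq : ∀ x ∈ S.B, ∀ μ : ℝ, 0 < μ → 0 ≤ qf h (x S.ξ) + qf k (S.J (x S.ξ)) +
      κ * ‖S.D μ x‖ ^ 2 - κ' * ‖(a - S.ρ z) (x S.ξ)‖ ^ 2) {τ : ℝ} (hτ : 0 < τ) (hτ1 : τ ≤ 1) :
    κ' * ((1 - τ) * max (c - (‖a‖ + ‖z‖ + 4) * τ) 0 ^ 2) ≤
      qf h S.ξ + qf k S.ξ + (2 * ‖h‖ + ‖k‖ + κ + 3) * τ := by
  obtain ⟨w, hw, hw2⟩ := eps_small hτ
  have hw' : 0 < √2 * w := by positivity
  obtain ⟨L, -, hL⟩ := kap_tail hw' hτ
  have hqξ : ∀ x : Op H, qf (S.G 0 (√2 * w) x) S.ξ = qf x S.ξ := fun x => by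
    simp only [S.toFC.qf_G hw', S.Δ_ξ]
    rw [integral_mul_const, integral_kap hw', one_mul]
  have hsa : ∀ x : Op H, IsSelfAdjoint x → IsSelfAdjoint (S.G 0 (√2 * w) x) := fun x hx => by
    rw [IsSelfAdjoint, S.toFC.G_star _ hw', neg_zero, hx.star_eq]
  have hB : ∀ x ∈ S.B, S.G 0 (√2 * w) x ∈ S.B := fun x hx =>
    S.toFC.G_mem _ hw' _ fun t => S.σ_B hx t
  have hξ0 : S.ξ ≠ 0 := by
    intro e
    have := S.norm_ξ
    rw [e, norm_zero] at this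
    exact zero_ne_one this
  obtain ⟨p₀, hp₀B, hp₀, hp₀0, -, hbot⟩ := bot S.B (IsStarProjection.one _) (one_mem _) (hB h hh)
    (hsa h sh) (η := S.ξ) rfl hξ0 (c := qf h S.ξ) (by rw [hqξ, S.norm_ξ]; simp) hτ
  obtain ⟨p, hpB, hp, hp0, hle, hcut⟩ := S.q_cut ha hs hcont hp₀ hp₀B hp₀0 L hτ
  obtain ⟨ι, _, v, hvB, hpv, hG, hGξ⟩ := cover_fin (S.factor_B ‹S.Erg›) hp hpB hp0 S.ξ hτ
  have hvM : ∀ i, v i ∈ S.M := fun i => S.B_le (hvB i)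
  have s1 := Finset.sum_le_sum fun i (_ : i ∈ Finset.univ) => S.q_int sk hq hw (hvB i)
  rw [← Finset.mul_sum, ← integral_finsetSum _ fun i _ => S.q_int_sq hw' _ _] at s1
  simp only [← Finset.mul_sum, Finset.sum_add_distrib, ← l2_sq] at s1
  have g1 : l2 (fun i => v i S.ξ) ≤ 1 := by
    rw [q_l2_gram hG]
    exact ((gram v).le_opNorm _).trans (by rw [S.norm_ξ, mul_one]; exact hG.norm_le)
  have g2 : 1 - τ ≤ l2 (fun i => v i S.ξ) := by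
    rw [q_l2_gram hG]
    have := norm_sub_norm_le S.ξ (gram v S.ξ)
    rw [S.norm_ξ, norm_sub_rev] at this
    linarith
  have g0 := l2_nonneg fun i => v i S.ξ
  have g3 : l2 (fun i => v i S.ξ) ^ 2 ≤ 1 := by nlinarith
  have g4 : 1 - 2 * τ ≤ l2 (fun i => v i S.ξ) ^ 2 := by nlinarith
  have b1 : ∑ i, qf (S.G 0 (√2 * w) h) (v i S.ξ) ≤ (qf h S.ξ + τ) * l2 (fun i => v i S.ξ) ^ 2 := by
    rw [l2_sq, Finset.mul_sum]
    refine Finset.sum_le_sum fun i _ => hbot _ ?_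
    rw [← mul_apply_eq_comp, ← hpv i, ← mul_assoc, hle]
  have b2 : ∑ i, qf (S.G 0 (√2 * w) k) (S.J (v i S.ξ)) ≤ qf k S.ξ + ‖k‖ * τ := by
    have k1 := S.near_J hvM hGξ _ (S.B_le (hB k hk))
    have k2 := (Complex.re_le_norm _).trans k1
    rw [Complex.sub_re, Complex.re_sum] at k2
    have k3 : τ * ‖S.G 0 (√2 * w) k‖ ≤ τ * ‖k‖ :=
      mul_le_mul_of_nonneg_left (S.toFC.norm_G_le _ hw' _) hτ.le
    have k4 := hqξ k
    unfold qf at k4 ⊢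
    linarith
  have b3 : |qf h S.ξ| ≤ ‖h‖ := by simpa [S.norm_ξ] using abs_qf_le h S.ξ
  have b4 : (qf h S.ξ + τ) * l2 (fun i => v i S.ξ) ^ 2 ≤ qf h S.ξ + (2 * ‖h‖ + 1) * τ := by
    have := abs_le.1 b3
    nlinarith [mul_nonneg (sub_nonneg.2 g3) (sub_nonneg.2 this.1), norm_nonneg h,
      mul_nonneg (norm_nonneg h) (sub_nonneg.2 g4)]
  have b5 : κ * eps w * l2 (fun i => v i S.ξ) ^ 2 ≤ κ * τ := by
    rw [mul_assoc]
    refine mul_le_mul_of_nonneg_left ?_ hκ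
    nlinarith [le_abs_self (eps w), abs_nonneg (eps w), sq_nonneg (l2 fun i => v i S.ξ)]
  set m := max (c - (‖a‖ + ‖z‖ + 4) * τ) 0 with hm
  have hI : Integrable fun t => kap (√2 * w) t *
      l2 (fun i => (a - S.ρ z) (S.Δ t (v i S.ξ))) ^ 2 := by
    simp only [l2_sq, Finset.mul_sum]
    exact integrable_finsetSum _ fun i _ => S.q_int_sq hw' _ _
  have b6 : (1 - τ) * m ^ 2 ≤
      ∫ t, kap (√2 * w) t * l2 (fun i => (a - S.ρ z) (S.Δ t (v i S.ξ))) ^ 2 := by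
    calc (1 - τ) * m ^ 2 ≤ (∫ t in Set.Icc (-L) L, kap (√2 * w) t) * m ^ 2 := by gcongr
      _ = ∫ t in Set.Icc (-L) L, kap (√2 * w) t * m ^ 2 := (integral_mul_const _ _).symm
      _ ≤ ∫ t in Set.Icc (-L) L,
          kap (√2 * w) t * l2 (fun i => (a - S.ρ z) (S.Δ t (v i S.ξ))) ^ 2 := by
        refine setIntegral_mono_on ((integrable_kap hw').mul_const _).integrableOn hI.integrableOn
          measurableSet_Icc fun t ht => mul_le_mul_of_nonneg_left ?_ (kap_pos hw' t).le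
        obtain ⟨r, hr⟩ := hcut t ht
        exact pow_le_pow_left₀ (le_max_right _ _) (max_le (S.q_low (S.B_le ha) hz haz hc hp
          (S.B_le hpB) hp0 hvM hpv hG hτ1 hGξ hr) (l2_nonneg _)) 2
      _ ≤ _ := setIntegral_le_integral hI (Eventually.of_forall fun t =>
          mul_nonneg (kap_pos hw' t).le (sq_nonneg _))
  have b7 := mul_le_mul_of_nonneg_left b6 hκ'
  nlinarith

/-- Let `A = h + ρ k - κ' T* T`, `T = a - ρ z`. Fix `w` with `κ |eps w|` small; `qineq` (`N = B`)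
and `qf_G` give for `v ∈ B`, with `h' = G 0 (√2 w) h`, `k' = G 0 (√2 w) k`,
`κ' ∫ kap ‖T Δ t v ξ‖² ≤ qf h' (v ξ) + qf k' (J (v ξ)) + κ eps ‖v ξ‖²`.
Take `L` from `kap_tail`, a finite net `t j` of `[-L, L]` for the norm continuous `σ (-t) a`,
`p₀` from `bot` for `h'`, `p ≤ p₀` from `cut_many`, `v i` from `cover_fin` (`factor_B`). For
`|t| ≤ L`, `‖T Δ t v ξ‖ ≥ ‖p (σ (-t) a - ρ (σ (-t) z)) v ξ‖ ≈ ‖v (r - ρ (σ (-t) z)) ξ‖`, and
`l2 (v y' ξ) ≥ ‖y' ξ‖ - ‖y'‖ ‖gram v ξ - ξ‖` for `y'` in the commutant,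
`‖(r - ρ (σ (-t) z)) ξ‖ = ‖r ξ - a ξ‖ ≥ c`. -/
theorem qloc (h : S.Erg) {a z : Op H} (ha : a ∈ S.B) (hs : IsSelfAdjoint a) (hz : z ∈ S.M)
    (haz : a S.ξ = S.ρ z S.ξ) (hcont : Continuous fun t => S.σ t a) {c : ℝ} (hc0 : 0 ≤ c)
    (hc : ∀ r : ℝ, c ≤ ‖r • S.ξ - a S.ξ‖) {h k : Op H} (hh : h ∈ S.B) (hk : k ∈ S.B)
    (sh : IsSelfAdjoint h) (sk : IsSelfAdjoint k) {κ κ' : ℝ} (hκ : 0 ≤ κ) (hκ' : 0 ≤ κ')
    (hq : ∀ x ∈ S.B, ∀ μ : ℝ, 0 < μ → 0 ≤ qf h (x S.ξ) + qf k (S.J (x S.ξ)) +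
      κ * ‖S.D μ x‖ ^ 2 - κ' * ‖(a - S.ρ z) (x S.ξ)‖ ^ 2) :
    0 ≤ qf h S.ξ + qf k S.ξ - κ' * c ^ 2 := by
  have hcts : Continuous fun τ : ℝ => qf h S.ξ + qf k S.ξ + (2 * ‖h‖ + ‖k‖ + κ + 3) * τ -
      κ' * ((1 - τ) * max (c - (‖a‖ + ‖z‖ + 4) * τ) 0 ^ 2) := by fun_prop
  have hlim := (hcts.tendsto 0).mono_left (nhdsWithin_le_nhds (s := Set.Ioi 0))
  have := ge_of_tendsto (b := 0) hlim (by
    filter_upwards [Ioc_mem_nhdsGT (zero_lt_one' ℝ)] with τ hτ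
    exact sub_nonneg.2 (S.q_step ‹S.Erg› ha hs hz haz hcont hc hh hk sh sk hκ hκ' hq hτ.1 hτ.2))
  simpa [max_eq_left hc0] using this

end SF

end Vale.Agent.P132
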