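import Vale.Agent.P132.Cut
import Vale.Agent.P104.QTrace

/-! P132: a quasi-tracial corner below a finite projection. -/

namespace Vale.Agent.P132

open scoped InnerProductSpace BoundedContinuousFunction
open Filter Topology MeasureTheory Vale.Agent.P104

universe u

variable {H : Type u} [NormedAddCommGroup H] [InnerProductSpace ℂ H] [CompleteSpace H]

/-- In the finite case a maximal `PIso` element between equivalent projections is onto. -/
theorem qt_fin_left (M : VonNeumannAlgebra H) {z₀ W V : H →L[ℂ] H} (hz₀ : IsStarProjection z₀)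
    (hN : NoPI M z₀) (hWM : W ∈ M) (hW : PIso W) (hzW : W * z₀ = W) (hVM : V ∈ M)
    (h1 : W * star W * V = V) (h2 : V * (star W * W) = V)
    (h3 : ∀ x ∈ M, (W * star W - V * star V) * x * (star W * W - star V * V) = 0) :
    star V * V = star W * W := by
  have heM : star W * W - star V * V ∈ M :=
    sub_mem (mul_mem (star_mem hWM) hWM) (mul_mem (star_mem hVM) hVM)
  obtain ⟨z, hz, hz1, hz2⟩ := csupp M heM
  have hf := hz2 _ h3
  have hzz : z * z = z := hz.proj.isIdempotentElem.eq
  have hzs : star z = z := hz.proj.isSelfAdjoint.star_eq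
  have cW := hz.comm hWM
  have cW' := hz.comm (star_mem hWM)
  have cV := hz.comm hVM
  have cV' := hz.comm (star_mem hVM)
  have hVz : V * star V * z = W * star W * z := by
    rw [sub_mul, sub_eq_zero] at hf
    exact hf.symm
  have hes : star (star W * W) = star W * W := hW.proj_left.isSelfAdjoint.star_eq
  have heV : star W * W * star V = star V := QTrace.star_left hes h2
  have hproj : IsStarProjection (star W * W * z) :=
    hW.proj_left.mul hz.proj (hz.comm (mul_mem (star_mem hWM) hWM)).symm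
  have hU : star (star V * W * z) * (star V * W * z) = star W * W * z := by
    have e1 : star (star V * W * z) * (star V * W * z) =
        z * star W * (V * star V * z) * W := by
      rw [star_mul, star_mul, star_star, hzs]
      simp only [mul_assoc, cW]
    rw [e1, hVz]
    calc z * star W * (W * star W * z) * W = z * star W * (W * star W * W) * z := by
          simp only [mul_assoc, cW]
      _ = z * (star W * W) * z := by rw [hW]; simp only [mul_assoc]
      _ = star W * W * z := by
          rw [hz.comm (mul_mem (star_mem hWM) hWM), mul_assoc _ z z, hzz]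
  have hfin := finite_eq M hN hproj (mul_mem (mul_mem (star_mem hVM) hWM) hz.mem)
    (by
      rw [← mul_assoc, ← mul_assoc, QTrace.star_left hz₀.isSelfAdjoint.star_eq hzW])
    hU
    (by
      calc star W * W * z * (star V * W * z) = (star W * W * star V) * W * (z * z) := by
            rw [mul_assoc _ z, ← mul_assoc z, hz.comm (mul_mem (star_mem hVM) hWM)]
            simp only [mul_assoc]
        _ = _ := by rw [heV, hzz])
  have h4 : star V * W * z * star (star V * W * z) = star V * V * z := by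
    rw [star_mul, star_mul, star_star, hzs]
    calc star V * W * z * (z * (star W * V)) = star V * W * ((z * z) * (star W * V)) := by
          simp only [mul_assoc]
      _ = star V * (W * star W * V) * z := by
          rw [hzz, hz.comm (mul_mem (star_mem hWM) hVM)]
          simp only [mul_assoc]
      _ = _ := by rw [h1]
  rw [h4] at hfin
  rw [hz.comm heM, sub_mul, hfin, sub_self, eq_comm, sub_eq_zero] at hz1
  exact hz1.symm

/-- A nonzero `PIso` element under which the state increases at most by a fixed factor. -/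
theorem qt_gap (M : VonNeumannAlgebra H) {z₀ W : H →L[ℂ] H} (hz₀ : IsStarProjection z₀)
    (hN : NoPI M z₀) (hWM : W ∈ M) (hW : PIso W) (hzW : z₀ * W = W) (hWz : W * z₀ = W) (ξ : H)
    {c : ℝ} (hc : 0 ≤ c)
    (hgt : c * ‖star W ξ‖ ^ 2 < ‖W ξ‖ ^ 2) :
    ∃ v ∈ M, PIso v ∧ v ≠ 0 ∧ W * star W * v = v ∧ v * (star W * W) = v ∧
      ∀ w ∈ M, PIso w → v * star v * w = w → w * (star v * v) = w →
        c * ‖star w ξ‖ ^ 2 ≤ ‖w ξ‖ ^ 2 := by
  obtain ⟨V, hVM, hV, h1, h2, hmax, hle⟩ := max_piso M hW.proj_left hW.proj_right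
    (fun w => ‖w ξ‖ ^ 2 ≤ c * ‖star w ξ‖ ^ 2)
  have hle' := hle ξ c hc fun w hw => hw
  have hes : star (star W * W) = star W * W := hW.proj_left.isSelfAdjoint.star_eq
  have hfs : star (W * star W) = W * star W := hW.proj_right.isSelfAdjoint.star_eq
  have hex : ∃ x ∈ M, (W * star W - V * star V) * x * (star W * W - star V * V) ≠ 0 := by
    by_contra hno
    push Not at hno
    have e1 := qt_fin_left M hz₀ hN hWM hW hWz hVM h1 h2 hno
    have e2 := qt_fin_left M hz₀ hN (star_mem hWM) hW.star
      (QTrace.star_right hz₀.isSelfAdjoint.star_eq hzW)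
      (star_mem hVM) (by rw [star_star]; exact QTrace.star_left hes h2)
      (by rw [star_star]; exact QTrace.star_right hfs h1)
      (fun x _ => by rw [star_star, star_star, e1, sub_self, zero_mul, zero_mul])
    rw [star_star, star_star] at e2
    rw [QTrace.normsq_left V, QTrace.normsq_right V, e1, e2, ← QTrace.normsq_left,
      ← QTrace.normsq_right] at hle'
    exact absurd hgt (not_lt.2 hle')
  obtain ⟨x, hx, hx0⟩ := hex
  have he' : IsStarProjection (star W * W - star V * V) :=
    QTrace.sub_proj hW.proj_left hV.proj_left (by rw [mul_assoc, h2])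
  have hf' : IsStarProjection (W * star W - V * star V) :=
    QTrace.sub_proj hW.proj_right hV.proj_right (by rw [mul_assoc, QTrace.star_right hfs h1])
  obtain ⟨v, hvM, hv, hv0, k1, k2⟩ := connect M he' hf'
    (sub_mem (mul_mem (star_mem hWM) hWM) (mul_mem (star_mem hVM) hVM))
    (sub_mem (mul_mem hWM (star_mem hWM)) (mul_mem hVM (star_mem hVM))) hx hx0
  refine ⟨v, hvM, hv, hv0, ?_, ?_, fun w hwM hw k3 k4 => ?_⟩
  · have : W * star W * (W * star W - V * star V) = W * star W - V * star V := by
      rw [mul_sub, hW.proj_right.isIdempotentElem.eq, ← mul_assoc, h1]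
    rw [← k1, ← mul_assoc, this]
  · have : (star W * W - star V * V) * (star W * W) = star W * W - star V * V := by
      rw [sub_mul, hW.proj_left.isIdempotentElem.eq, mul_assoc (star V), h2]
    rw [← k2, mul_assoc, this]
  · by_cases hP : ‖w ξ‖ ^ 2 ≤ c * ‖star w ξ‖ ^ 2
    · have := hmax w hwM hw hP (by rw [← k3, ← mul_assoc, ← mul_assoc, k1])
        (by rw [← k4, mul_assoc, mul_assoc, k2])
      rw [this]
      simp
    · exact (not_le.1 hP).le

/-- Copy `P104.QTrace.fin_left`, `QTrace.gap` and `qtrace_local` for a projection `e` which is not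
central: replace the hypothesis `z₀ * W = W` by `e * W = W` and `W * e = W` (centrality of `z₀` is
only used to get the second one); start from `W = e`. -/
theorem qtrace_corner (M : VonNeumannAlgebra H) {ξ : H} (hsep : ∀ x ∈ M, x ξ = 0 → x = 0)
    {e : Op H} (he : IsStarProjection e) (heM : e ∈ M) (h0 : e ≠ 0) (hN : NoPI M e) :
    ∃ p ∈ M, IsStarProjection p ∧ p ≠ 0 ∧
      ∀ x ∈ M, p * x = x → x * p = x → ‖star x ξ‖ ^ 2 ≤ 2 * ‖x ξ‖ ^ 2 := by
  have hss : star e = e := he.isSelfAdjoint.star_eq
  have hs2 : e * e = e := he.isIdempotentElem.eq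
  have heξ : e ξ ≠ 0 := fun h => h0 (hsep e heM h)
  have hpos : 0 < ‖e ξ‖ ^ 2 := by positivity
  obtain ⟨v₁, h1M, h1, h10, a1, a2, a3⟩ := qt_gap M he hN heM (PIso.of_proj he) hs2 hs2 ξ
    (c := 1 / 2) (by norm_num) (by rw [hss]; linarith)
  rw [hss, hs2] at a1 a2
  set S : Set (H →L[ℂ] H) :=
    {w | w ∈ M ∧ PIso w ∧ w ≠ 0 ∧ v₁ * star v₁ * w = w ∧ w * (star v₁ * v₁) = w} with hS
  have hSl : ∀ w ∈ S, 0 < ‖w ξ‖ ^ 2 := by
    rintro w ⟨hwM, -, hw0, -, -⟩
    have : w ξ ≠ 0 := fun h => hw0 (hsep w hwM h)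
    positivity
  have hSr : ∀ w ∈ S, 0 < ‖star w ξ‖ ^ 2 := by
    rintro w ⟨hwM, -, hw0, -, -⟩
    have : star w ξ ≠ 0 := fun h => hw0 (star_eq_zero.1 (hsep _ (star_mem hwM) h))
    positivity
  set R : Set ℝ := (fun w : H →L[ℂ] H => ‖star w ξ‖ ^ 2 / ‖w ξ‖ ^ 2) '' S with hR
  have hv₁S : v₁ ∈ S := ⟨h1M, h1, h10, h1, by rw [← mul_assoc]; exact h1⟩
  have hbdd : BddAbove R := by
    refine ⟨2, ?_⟩
    rintro _ ⟨w, hw, rfl⟩
    have := a3 w hw.1 hw.2.1 hw.2.2.2.1 hw.2.2.2.2
    simp only
    rw [div_le_iff₀ (hSl w hw)]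
    linarith
  set μ := sSup R with hμ
  have hμle : ∀ w ∈ S, ‖star w ξ‖ ^ 2 ≤ μ * ‖w ξ‖ ^ 2 := fun w hw =>
    (div_le_iff₀ (hSl w hw)).1 (le_csSup hbdd ⟨w, hw, rfl⟩)
  have hμpos : 0 < μ :=
    (div_pos (hSr _ hv₁S) (hSl _ hv₁S)).trans_le (le_csSup hbdd ⟨v₁, hv₁S, rfl⟩)
  obtain ⟨_, ⟨w₁, hw₁, rfl⟩, hw₁'⟩ := exists_lt_of_lt_csSup (s := R) ⟨_, v₁, hv₁S, rfl⟩
    (show μ / 2 < sSup R by rw [← hμ]; linarith)
  have hgt := (lt_div_iff₀ (hSl _ hw₁)).1 hw₁'
  obtain ⟨hwM, hw, -, b1, b2⟩ := hw₁
  have he₁ : star (star v₁ * v₁) = star v₁ * v₁ := h1.proj_left.isSelfAdjoint.star_eq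
  have hf₁ : star (v₁ * star v₁) = v₁ * star v₁ := h1.proj_right.isSelfAdjoint.star_eq
  have b2' : star v₁ * v₁ * star w₁ = star w₁ := QTrace.star_left he₁ b2
  have b1' : star w₁ * (v₁ * star v₁) = star w₁ := QTrace.star_right hf₁ b1
  have hse : e * (star v₁ * v₁) = star v₁ * v₁ := by
    rw [← mul_assoc, QTrace.star_left hss a2]
  have hse' : v₁ * star v₁ * e = v₁ * star v₁ := by
    rw [mul_assoc, QTrace.star_right hss a1]
  obtain ⟨v₂, h2M, h2, h20, c1, c2, c3⟩ := qt_gap M he hN (star_mem hwM) hw.star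
    (by rw [← b2', ← mul_assoc, hse]) (by rw [← b1', mul_assoc, hse']) ξ (c := μ / 2) (by linarith)
    (by rw [star_star]; exact hgt)
  rw [star_star] at c1 c2
  have d1 : star v₁ * v₁ * v₂ = v₂ := by
    rw [← c1, ← mul_assoc, ← mul_assoc, b2']
  have d2 : v₂ * (v₁ * star v₁) = v₂ := by
    rw [← c2, mul_assoc, mul_assoc, b1']
  have hp : IsStarProjection (v₂ * star v₂) := h2.proj_right
  refine ⟨v₂ * star v₂, mul_mem h2M (star_mem h2M), hp, ?_, QTrace.of_piso M ξ ?_⟩
  · intro h
    apply h20
    rw [← h2, h, zero_mul]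
  · intro a haM ha k1 k2
    have k2' : v₂ * star v₂ * star a = star a := QTrace.star_left hp.isSelfAdjoint.star_eq k2
    have hq : star a * a * (star a * a) = star a * a := ha.proj_left.isIdempotentElem.eq
    have hl : star (star v₂ * (star a * a)) * (star v₂ * (star a * a)) = star a * a := by
      rw [star_mul, star_star, ha.proj_left.isSelfAdjoint.star_eq]
      calc star a * a * v₂ * (star v₂ * (star a * a))
          = star a * a * (v₂ * star v₂ * star a * a) := by simp only [mul_assoc]
        _ = _ := by rw [k2', hq]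
    have hr : star v₂ * (star a * a) * star (star v₂ * (star a * a)) =
        star (a * v₂) * (a * v₂) := by
      rw [star_mul, star_star, ha.proj_left.isSelfAdjoint.star_eq, star_mul]
      calc star v₂ * (star a * a) * (star a * a * v₂)
          = star v₂ * (star a * a * (star a * a)) * v₂ := by simp only [mul_assoc]
        _ = _ := by rw [hq]; simp only [mul_assoc]
    have hr' : a * v₂ * star (a * v₂) = a * star a := by
      rw [star_mul]
      calc a * v₂ * (star v₂ * star a) = a * (v₂ * star v₂ * star a) := by simp only [mul_assoc]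
        _ = _ := by rw [k2']
    have m1 : ‖star (star v₂ * (star a * a)) ξ‖ ^ 2 ≤ μ * ‖(star v₂ * (star a * a)) ξ‖ ^ 2 := by
      by_cases hw0 : star v₂ * (star a * a) = 0
      · rw [hw0]; simp
      refine hμle _ ⟨mul_mem (star_mem h2M) (mul_mem (star_mem haM) haM),
        PIso.of_idem (by rw [hl]; exact ha.proj_left.isIdempotentElem), hw0, ?_, ?_⟩
      · rw [← mul_assoc, QTrace.star_left hf₁ d2]
      · have : a * (star v₁ * v₁) = a := by
          rw [← k2, mul_assoc, mul_assoc, QTrace.star_right he₁ d1]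
        rw [mul_assoc, mul_assoc, this]
    have m2 := c3 (a * v₂) (mul_mem haM h2M)
      (by
        have := (PIso.of_idem (v := star (a * v₂))
          (by rw [star_star, hr']; exact ha.proj_right.isIdempotentElem)).star
        rwa [star_star] at this)
      (by rw [← mul_assoc, k1]) (by rw [mul_assoc, ← mul_assoc v₂, h2])
    rw [QTrace.normsq_left (star v₂ * (star a * a)), QTrace.normsq_right (star v₂ * (star a * a)),
      hl, hr, ← QTrace.normsq_left, ← QTrace.normsq_left] at m1
    rw [QTrace.normsq_right (a * v₂), hr', ← QTrace.normsq_right] at m2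
    have m3 : μ * ‖star a ξ‖ ^ 2 ≤ μ * (2 * ‖a ξ‖ ^ 2) := by linarith
    exact le_of_mul_le_mul_left m3 hμpos

end Vale.Agent.P132
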