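import Vale.Agent.P132.HB
import Vale.Agent.P132.NL
import Vale.Agent.P132.Erg
import Vale.Agent.P132.Cut

/-! P132: good families. -/

namespace Vale.Agent.P132

open scoped InnerProductSpace BoundedContinuousFunction
open Filter Topology MeasureTheory Vale.Agent.P104

universe u

variable {H : Type u} [NormedAddCommGroup H] [InnerProductSpace ℂ H] [CompleteSpace H]

namespace SF
variable (S : SF H)

/-- `hb` with `a (x, μ) = x ξ`, `b = J (x ξ)`, `p = ‖D μ x‖²`, `q = -‖T (x ξ)‖²`, `q₀ = -c` -/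
theorem hb' (N : VonNeumannAlgebra H) (X : Set (Op H × ℝ))
    (hX : ∀ p ∈ X, ∀ r : ℝ, (r • p.1, p.2) ∈ X) (T : Op H) (c : ℝ)
    (h : ∀ h ∈ N, ∀ k ∈ N, IsSelfAdjoint h → IsSelfAdjoint k → ∀ κ κ' : ℝ, 0 ≤ κ → 0 ≤ κ' →
      (∀ p ∈ X, 0 ≤ qf h (p.1 S.ξ) + qf k (S.J (p.1 S.ξ)) + κ * ‖S.D p.2 p.1‖ ^ 2 -
        κ' * ‖T (p.1 S.ξ)‖ ^ 2) → 0 ≤ qf h S.ξ + qf k S.ξ - κ' * c) {ε : ℝ} (hε : 0 < ε) :
    ∃ (ι : Type) (_ : Fintype ι) (x : ι → Op H) (μ : ι → ℝ), (∀ j, (x j, μ j) ∈ X) ∧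
      S.Bin N x ε ∧ S.Dn x μ ≤ ε ∧ c - ε ≤ l2 (fun j => T (x j S.ξ)) ^ 2 := by
  obtain ⟨ι, _, w, e, hw, h1, h2, h3, h4⟩ := hb N S.ξ (X := X) (fun p => p.1.1 S.ξ)
    (fun p => S.J (p.1.1 S.ξ)) (fun p => ‖S.D p.1.2 p.1.1‖ ^ 2) (fun p => -‖T (p.1.1 S.ξ)‖ ^ 2) (-c)
    (fun a ha b hb sa sb κ κ' h0 h0' H => by
      have h5 := h a ha b hb sa sb κ κ' h0 h0' fun p hp => by linarith [H ⟨p, hp⟩]
      linarith) (lt_min hε (sq_pos_of_pos hε))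
  have hs : ∀ j (v : H), ‖√(w j) • v‖ ^ 2 = w j * ‖v‖ ^ 2 := fun j v => by
    rw [norm_smul, mul_pow, Real.norm_of_nonneg (Real.sqrt_nonneg _), Real.sq_sqrt (hw j)]
  refine ⟨ι, inferInstance, fun j => √(w j) • (e j).1.1, fun j => (e j).1.2,
    fun j => hX _ (e j).2 _, ⟨h1.mono (fun _ h => h) (min_le_left _ _), ?_⟩, ?_, ?_⟩
  · simp only [ContinuousLinearMap.smul_apply, J_rsmul]
    exact h2.mono (fun _ h => h) (min_le_left _ _)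
  · rw [Dn, l2_le_iff hε.le]
    simp only [D_rsmul, hs]
    exact h3.trans (min_le_right _ _)
  · rw [l2_sq]
    simp only [ContinuousLinearMap.smul_apply, ContinuousLinearMap.map_smul_of_tower, hs]
    simp only [mul_neg, Finset.sum_neg_distrib] at h4
    linarith [min_le_left ε (ε ^ 2)]

/-- an element of a corner on which the quadratic forms are negative -/
theorem neg_of_eig {h k e f : Op H} (he : e ∈ S.C) (hf : f ∈ S.C) (pe : IsStarProjection e)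
    (pf : IsStarProjection f) {α β μ κ : ℝ} (hαβ : α + β < 0) (hκ : 0 ≤ κ)
    (h1 : ∀ ζ, e ζ = ζ → qf h ζ ≤ α * ‖ζ‖ ^ 2) (h2 : ∀ ζ, f ζ = ζ → qf k ζ ≤ β * ‖ζ‖ ^ 2)
    (hE : S.Eig μ e f) : ∃ x ∈ S.M, e * x = x ∧ x * f = x ∧
      qf h (x S.ξ) + qf k (S.J (x S.ξ)) + κ * ‖S.D μ x‖ ^ 2 < 0 := by
  have h0 : 0 < -(α + β) / (κ + 1) := div_pos (neg_pos.2 hαβ) (by linarith)
  obtain ⟨x, hx, ex, xf, x0, hD⟩ := hE _ (Real.sqrt_pos.2 h0)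
  refine ⟨x, hx, ex, xf, ?_⟩
  have h3 : 0 < ‖x S.ξ‖ ^ 2 := sq_pos_of_pos (norm_pos_iff.2 fun h => x0 (S.sep hx h))
  have h4 := h1 (x S.ξ) (by rw [← mul_apply_eq_comp, ex])
  have h5 := h2 _ (S.J_right hf pf hx xf)
  have h6 := pow_le_pow_left₀ (norm_nonneg _) hD 2
  rw [S.norm_J] at h5
  rw [mul_pow, Real.sq_sqrt h0.le] at h6
  have h7 : (κ + 1) * (-(α + β) / (κ + 1)) = -(α + β) := mul_div_cancel₀ _ (by linarith)
  have h8 := mul_le_mul_of_nonneg_left h6 hκ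
  have h9 := mul_pos h0 h3
  have h10 : (κ + 1) * (-(α + β) / (κ + 1)) * ‖x S.ξ‖ ^ 2 = -(α + β) * ‖x S.ξ‖ ^ 2 := by rw [h7]
  linarith

theorem w_C_le {e : Op H} (he : e ∈ S.C) : e ∈ S.M := (S.mem_C.1 he).1

theorem w_σ_left {e : Op H} (he : e ∈ S.C) (t : ℝ) (x : Op H) : S.σ t (e * x) = e * S.σ t x := by
  rw [S.σ_mul, (S.mem_C.1 he).2]

theorem w_σ_right {e : Op H} (he : e ∈ S.C) (t : ℝ) (x : Op H) : S.σ t (x * e) = S.σ t x * e := by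
  rw [S.σ_mul, (S.mem_C.1 he).2]

/-- `avg_pair` for an invariant set of operators -/
theorem w_avg {h k : Op H} (hh : h ∈ S.M) (hk : k ∈ S.M) (hs : IsSelfAdjoint h)
    (ks : IsSelfAdjoint k) {P : Op H → Prop} (hP : ∀ x, P x → ∀ t, P (S.σ t x)) {μ κ : ℝ}
    (H0 : ∀ x, P x → 0 ≤ qf h (x S.ξ) + qf k (S.J (x S.ξ)) + κ * ‖S.D μ x‖ ^ 2) :
    ∃ h' ∈ S.C, ∃ k' ∈ S.C, IsSelfAdjoint h' ∧ IsSelfAdjoint k' ∧ qf h' S.ξ = qf h S.ξ ∧
      qf k' S.ξ = qf k S.ξ ∧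
        ∀ x, P x → 0 ≤ qf h' (x S.ξ) + qf k' (S.J (x S.ξ)) + κ * ‖S.D μ x‖ ^ 2 := by
  obtain ⟨h', a1, k', a2, a3, a4, a5, a6, a7⟩ := S.avg_pair hh hk hs ks
  refine ⟨h', a1, k', a2, a3, a4, a5, a6, fun x hx => a7 _ _ fun t => ?_⟩
  have h1 := H0 _ (hP x hx t)
  rwa [S.σ_ξ, S.D_σ, S.norm_Δ] at h1

/-- `bot` for the vector `q ξ` -/
theorem w_bot {q d : Op H} (hq : q ∈ S.C) (pq : IsStarProjection q) (q0 : q ≠ 0) (hd : d ∈ S.C)
    (sd : IsSelfAdjoint d) {τ : ℝ} (hτ : 0 < τ) : ∃ e ∈ S.C, IsStarProjection e ∧ e ≠ 0 ∧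
      q * e = e ∧ ∀ ζ, e ζ = ζ → qf d ζ ≤ (qf d (q S.ξ) / ‖q S.ξ‖ ^ 2 + τ) * ‖ζ‖ ^ 2 := by
  have h0 : q S.ξ ≠ 0 := fun h => q0 (S.sep (S.w_C_le hq) h)
  refine bot S.C pq hq hd sd (by rw [← mul_apply_eq_comp, pq.isIdempotentElem.eq]) h0 ?_ hτ
  rw [div_mul_cancel₀ _ (pow_ne_zero 2 (norm_ne_zero_iff.2 h0))]

theorem w_flip {q e : Op H} (pq : IsStarProjection q) (pe : IsStarProjection e) (h : q * e = e) :
    e * q = e := by
  have h1 := congrArg star h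
  rwa [star_mul, pq.isSelfAdjoint.star_eq, pe.isSelfAdjoint.star_eq] at h1

/-- a corner on which the state of `h + k` is negative contains a bad element -/
theorem w_neg {μ κ : ℝ} (hE : ∀ e ∈ S.C, IsStarProjection e → e ≠ 0 → S.Eig μ e e) (hκ : 0 ≤ κ)
    {q h k : Op H} (hq : q ∈ S.C) (pq : IsStarProjection q) (hh : h ∈ S.C) (hk : k ∈ S.C)
    (sh : IsSelfAdjoint h) (sk : IsSelfAdjoint k) (hn : qf (h + k) (q S.ξ) < 0) :
    ∃ x ∈ S.M, q * x = x * q ∧ qf h (x S.ξ) + qf k (S.J (x S.ξ)) + κ * ‖S.D μ x‖ ^ 2 < 0 := by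
  have h0 : q S.ξ ≠ 0 := fun h0 => by simp [h0, qf] at hn
  have q0 : q ≠ 0 := fun h1 => h0 (by rw [h1]; rfl)
  have hc : qf (h + k) (q S.ξ) / ‖q S.ξ‖ ^ 2 < 0 :=
    div_neg_of_neg_of_pos hn (sq_pos_of_pos (norm_pos_iff.2 h0))
  obtain ⟨e₁, a1, p1, n1, b1, c1⟩ := S.w_bot hq pq q0 (add_mem hh hk) (sh.add sk)
    (half_pos (neg_pos.2 hc))
  generalize qf (h + k) (q S.ξ) / ‖q S.ξ‖ ^ 2 = c at hc c1
  obtain ⟨e₂, a2, p2, n2, b2, c2⟩ := cut_many S.C p1 a1 n1 {()} (fun _ => h) (fun _ => hh)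
    (fun _ => sh) (τ := -c / 8) (by linarith)
  obtain ⟨a, ha⟩ := c2 () (Finset.mem_singleton_self _)
  have key : ∀ ζ, e₂ ζ = ζ → |qf h ζ - a * ‖ζ‖ ^ 2| ≤ -c / 8 * ‖ζ‖ ^ 2 := fun ζ hζ => by
    have h1 := (abs_qf_le (e₂ * h * e₂ - a • e₂) ζ).trans
      (mul_le_mul_of_nonneg_right ha (sq_nonneg _))
    have h2 := qf_conj h e₂ ζ
    have h3 := qf_star_mul_self e₂ ζ
    rw [p2.isSelfAdjoint.star_eq, hζ] at h2 h3
    rw [p2.isIdempotentElem.eq] at h3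
    rwa [qf_sub, qf_rsmul, h2, h3] at h1
  obtain ⟨x, hx, ex, xe, hneg⟩ := S.neg_of_eig (h := h) (k := k) a2 a2 p2 p2 (α := a + -c / 8)
    (β := c / 2 - a + -c / 8) (by linarith) hκ
    (fun ζ hζ => by linarith [(abs_le.1 (key ζ hζ)).2])
    (fun ζ hζ => by
      have h1 := c1 ζ (by rw [← hζ, ← mul_apply_eq_comp, b2])
      rw [qf_add] at h1
      linarith [(abs_le.1 (key ζ hζ)).1]) (hE _ a2 p2 n2)
  have h1 : q * e₂ = e₂ := by rw [← b2, ← mul_assoc, b1]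
  refine ⟨x, hx, ?_, hneg⟩
  rw [← ex, ← mul_assoc, h1, ex, ← xe, mul_assoc, w_flip pq p2 h1]

/-- `hb'` with `N = M`, `X = {(x, μ) | x ∈ M, x e = e x}`, `T = 0`. By `avg_pair` assume
`h, k ∈ C`. If `φ (h + k) < 0` then `qf (h + k) (e₀ ξ) < 0` for `e₀ = e` or `1 - e` (`qf_split`);
`bot` gives `e₁ ≤ e₀` with `h + k ≤ -β`, `cut_many` gives `e₂ ≤ e₁` with `h ≈ α`; `neg_of_eig`.
Then `nl` with `N = inter M {e}` and `Bin.perturb`. -/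
theorem exists_good
    (hE : ∀ e ∈ S.C, IsStarProjection e → e ≠ 0 → ∀ μ : ℝ, 0 < μ → S.Eig μ e e)
    {e : Op H} (he : e ∈ S.C) (hp : IsStarProjection e) {μ ε : ℝ} (hμ : 0 < μ) (hε : 0 < ε) :
    ∃ (ι : Type) (_ : Fintype ι) (x : ι → Op H), S.Good μ ε x ∧ ∀ j, e * x j = x j * e := by
  obtain ⟨ε₁, h1, hn⟩ := S.nl (η := min (ε / 8) 1) (lt_min (by linarith) one_pos)
  obtain ⟨ι, _, x, m, hx, hB, hD, -⟩ := S.hb' S.M
    {p | p.1 ∈ S.M ∧ e * p.1 = p.1 * e ∧ p.2 = μ}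
    (fun p hp r => ⟨vn_rsmul_mem r hp.1, by rw [mul_smul_comm, smul_mul_assoc, hp.2.1], hp.2.2⟩) 0 0
    (fun h hh k hk sh sk κ κ' h0 _ H0 => by
      obtain ⟨h', a1, k', a2, a3, a4, a5, a6, a7⟩ := S.w_avg hh hk sh sk
        (P := fun x => x ∈ S.M ∧ e * x = x * e) (μ := μ) (κ := κ)
        (fun x hx t => ⟨S.σ_M x hx.1 t, by rw [← S.w_σ_left he, ← S.w_σ_right he, hx.2]⟩)
        fun x hx => by simpa using H0 (x, μ) ⟨hx.1, hx.2, rfl⟩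
      rw [mul_zero, sub_zero, ← a5, ← a6, ← qf_add,
        S.qf_split he hp (S.w_C_le (add_mem a1 a2))]
      refine add_nonneg (not_lt.1 fun hn => ?_) (not_lt.1 fun hn => ?_)
      · obtain ⟨x, hx, hc, hlt⟩ := S.w_neg (fun e a b c => hE e a b c μ hμ) h0 he hp a1 a2 a3 a4 hn
        exact hlt.not_ge (a7 x ⟨hx, hc⟩)
      · obtain ⟨x, hx, hc, hlt⟩ := S.w_neg (fun e a b c => hE e a b c μ hμ) h0
          (sub_mem (one_mem _) he) hp.one_sub a1 a2 a3 a4 hn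
        rw [sub_mul, mul_sub, one_mul, mul_one, sub_right_inj] at hc
        exact hlt.not_ge (a7 x ⟨hx, hc⟩))
    (ε := min ε₁ (min (ε / 2) 1)) (lt_min h1 (lt_min (by linarith) one_pos))
  obtain rfl : m = fun _ => μ := funext fun j => (hx j).2.2
  have hN : ∀ z ∈ inter S.M {e}, z ∈ S.M := fun z hz => (mem_inter.1 hz).1
  obtain ⟨y, b1, b2, b3, b4, b5⟩ := hn (inter S.M {e}) hN ι x (fun _ => μ)
    (fun j => mem_inter.2 ⟨(hx j).1, fun a ha => by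
      rw [Set.mem_singleton_iff.1 ha, hp.isSelfAdjoint.star_eq]
      exact ⟨(hx j).2.1, (hx j).2.1⟩⟩) (fun _ => hμ)
    ⟨hB.1.mono hN (min_le_left _ _), hB.2.mono hN (min_le_left _ _)⟩ (hD.trans (min_le_left _ _))
  have b6 := hB.perturb S (le_min h1.le (le_min (by linarith) zero_le_one))
    ((min_le_right _ _).trans (min_le_right _ _)) (min_le_right _ _) b5
  have b7 : min ε₁ (min (ε / 2) 1) + 4 * min (ε / 8) 1 ≤ ε := by
    linarith [(min_le_right ε₁ _).trans (min_le_left (ε / 2) 1), min_le_left (ε / 8) 1]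
  exact ⟨ι, inferInstance, y, ⟨fun j => hN _ (b1 j), b2, b3,
    b4.trans ((min_le_left _ _).trans (by linarith)),
    b6.1.mono (fun _ h => h) b7, b6.2.mono (fun _ h => h) b7⟩,
    fun j => ((mem_inter.1 (b1 j)).2 e rfl).1⟩

theorem w_gram_le {ι : Type*} [Fintype ι] {x : ι → Op H} (h : Col x 1) (ζ : H) :
    ‖gram x ζ‖ ≤ l2 fun k => x k ζ := by
  have h1 := h.sum_star zero_le_one fun k => x k ζ
  rw [one_mul] at h1
  rwa [gram, ContinuousLinearMap.sum_apply]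

theorem w_gram_ξ {μ ε : ℝ} {ι : Type*} [Fintype ι] {x : ι → Op H} (h : S.Good μ ε x) :
    ‖gram x S.ξ - S.ξ‖ ^ 2 ≤ ε := by
  have h0 : 0 ≤ ε := (l2_nonneg _).trans h.dn
  have h1 := (abs_le.1 (h.bin.1.sq (one_mem S.M))).1
  have h2 : ‖(1 : Op H)‖ ^ 2 ≤ 1 := pow_le_one₀ (norm_nonneg _) ContinuousLinearMap.norm_id_le
  have h3 := pow_le_pow_left₀ (norm_nonneg _) (w_gram_le h.col S.ξ) 2
  have h4 : RCLike.re (inner ℂ S.ξ (gram x S.ξ)) = l2 (fun k => x k S.ξ) ^ 2 := qf_gram x S.ξ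
  simp only [one_apply_eq_self, S.norm_ξ] at h1
  rw [norm_sub_rev, @norm_sub_sq ℂ, h4, S.norm_ξ]
  linarith [mul_le_mul_of_nonneg_left h2 h0]

/-- `gram x ξ ≈ ξ`: `‖(1 - G) ξ‖² ≤ φ (1 - G) ≤ ε`; then `ua_one` -/
theorem good_gram (ζ : H) {δ : ℝ} (hδ : 0 < δ) : ∃ ε₀ > 0, ∀ (μ ε : ℝ) (ι : Type) [Fintype ι]
    (x : ι → Op H), ε ≤ ε₀ → S.Good μ ε x →
      ‖gram x ζ - ζ‖ ≤ δ ∧ ‖ζ‖ ≤ l2 (fun k => x k ζ) + δ := by
  obtain ⟨K, hK, h⟩ := S.ua_one ζ (ε := δ / 4) (by linarith)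
  have h0 : 0 < δ / (2 * (K + 1)) := by positivity
  refine ⟨_, sq_pos_of_pos h0, fun μ ε ι _ x hε hx => ?_⟩
  have h1 := h (gram x - 1) (sub_mem (gram_mem hx.mem) (one_mem _))
  have h2 : ‖gram x - 1‖ ≤ 2 := by
    have h3 := hx.col.norm_gram zero_le_one
    have h4 : ‖(1 : Op H)‖ ≤ 1 := ContinuousLinearMap.norm_id_le
    linarith [norm_sub_le (gram x) 1]
  have h3 := le_of_sq_le_sq ((S.w_gram_ξ hx).trans hε) h0.le
  have h4 : (K + 1) * (δ / (2 * (K + 1))) = δ / 2 := by field_simp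
  have h5 : ‖gram x ζ - ζ‖ ≤ δ := by
    simp only [ContinuousLinearMap.sub_apply, one_apply_eq_self] at h1
    nlinarith [mul_le_mul_of_nonneg_left h3 hK]
  refine ⟨h5, ?_⟩
  linarith [w_gram_le hx.col ζ, norm_sub_norm_le ζ (gram x ζ), norm_sub_rev ζ (gram x ζ)]

/-- approximate eigenoperators for some eigenvalue -/
theorem w_eig (hM : IsFactor S.M) {e f : Op H} (he : e ∈ S.C) (hf : f ∈ S.C)
    (pe : IsStarProjection e) (pf : IsStarProjection f) (e0 : e ≠ 0) (f0 : f ≠ 0) {ε : ℝ}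
    (hε : 0 < ε) : ∃ ν > 0, ∃ x ∈ S.M, e * x = x ∧ x * f = x ∧ 1 - ε ≤ ‖x S.ξ‖ ∧
      ‖S.D ν x‖ ≤ ε := by
  have eM := S.w_C_le he
  have fM := S.w_C_le hf
  have pρ : IsStarProjection (S.ρ f) :=
    ⟨by rw [IsIdempotentElem, ← S.ρ_mul, pf.isIdempotentElem.eq],
      by rw [IsSelfAdjoint, S.star_ρ, pf.isSelfAdjoint.star_eq]⟩
  have hP : IsStarProjection (e * S.ρ f) := pe.mul pρ (S.ρ_comm eM fM)
  have hc : ∀ g, e * S.ρ f * S.Θ g = S.Θ g * (e * S.ρ f) := fun g =>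
    (S.comm_of_Δ (fun t => (S.σ_eq_iff t _).1 (by
      rw [S.w_σ_left he, ← S.ρ_σ, (S.mem_C.1 hf).2])) g).symm
  have hPy : ∀ y ∈ S.M, (e * S.ρ f) (y S.ξ) = (e * y * f) S.ξ := fun y hy => by
    simp only [mul_apply_eq_comp]
    rw [← S.ρ_comm_apply hy fM, S.ρ_C hf]
  have hN : ∀ y : Op H, e * (e * y * f) = e * y * f ∧ e * y * f * f = e * y * f := fun y =>
    ⟨by rw [← mul_assoc, ← mul_assoc, pe.isIdempotentElem.eq],
      by rw [mul_assoc, pf.isIdempotentElem.eq]⟩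
  obtain ⟨x₁, h1, n1⟩ := hM.exists_ne fM f0 e0
  have h2 := mul_mem (mul_mem eM h1) fM
  obtain ⟨s, -, hs⟩ := S.sp hP hc (f := 1) (η := (e * x₁ * f) S.ξ)
    (by rw [hPy _ h2, (hN _).1, (hN _).2]) (by
      rw [map_one, one_apply_eq_self]
      exact fun h => n1 (S.sep h2 h))
  obtain ⟨δ, hδ, ha⟩ := S.ae s hε
  obtain ⟨ζ, z1, z2, z3⟩ := hs δ hδ
  obtain ⟨x, hx, b1, b2⟩ := ha {y | y ∈ S.M ∧ e * y = y ∧ y * f = y} ζ (fun y hy => hy.1)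
    (by
      rw [← z2]
      refine map_mem_closure (e * S.ρ f).continuous (S.cyc ζ) ?_
      rintro _ ⟨y, hy, rfl⟩
      exact ⟨_, ⟨mul_mem (mul_mem eM hy) fM, hN y⟩, hPy y hy⟩)
    (fun h => by simp [h] at z1) (by rwa [z1, mul_one])
  rw [z1, mul_one] at b1 b2
  refine ⟨_, Real.exp_pos _, S.G s 1 x, S.G_mem s one_pos x (S.σ_M x hx.1), ?_, ?_, ?_, b2⟩
  · simpa using S.G_conj s one_pos x (a := e) (b := 1) (c := 1) (d := 1) fun t => by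
      rw [← S.w_σ_left he, hx.2.1, one_mul]
  · simpa using S.G_conj s one_pos x (a := 1) (b := f) (c := 1) (d := 1) fun t => by
      rw [one_mul, ← S.w_σ_right hf, hx.2.2, mul_one]
  · linarith [norm_sub_norm_le ζ (S.G s 1 x S.ξ), norm_sub_rev ζ (S.G s 1 x S.ξ)]

/-- There is `x₁ ≠ 0` in `e M f`; `sp` for the projection `e * ρ f` and `f = 1`, density of
`e M f ξ` in its range and `ae` give `x₀ ∈ e M f` with `‖D ν x₀‖ ≤ δ ‖x₀ ξ‖` for some `ν > 0`.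
Multiply on the left by a good family for `ν⁻¹` commuting with `e` (`Dn_prod`, `good_gram`,
`l2_exists_le`). -/
theorem eig_one (hM : IsFactor S.M)
    (hE : ∀ e ∈ S.C, IsStarProjection e → e ≠ 0 → ∀ μ : ℝ, 0 < μ → S.Eig μ e e)
    {e f : Op H} (he : e ∈ S.C) (hf : f ∈ S.C) (pe : IsStarProjection e) (pf : IsStarProjection f)
    (e0 : e ≠ 0) (f0 : f ≠ 0) : S.Eig 1 e f := by
  intro δ hδ
  obtain ⟨ν, hν, x, hx, ex, xf, h1, h2⟩ := S.w_eig hM he hf pe pf e0 f0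
    (ε := min (δ / 8) (1 / 2)) (lt_min (by linarith) one_half_pos)
  obtain ⟨ε₀, h3, hg⟩ := S.good_gram (x S.ξ) (δ := 1 / 4) (by norm_num)
  have h4 : 0 < δ / (8 * (‖ν • S.ρ x‖ + 1)) := by positivity
  obtain ⟨ι, _, y, hy, ey⟩ := S.exists_good hE he pe (inv_pos.2 hν) (lt_min h3 h4)
  have h5 := (hg _ _ ι y (min_le_left _ _) hy).2
  have h6 : 1 / 4 ≤ l2 fun k => y k (x S.ξ) := by linarith [min_le_right (δ / 8) (1 / 2)]
  have h7 : l2 (fun k => S.D 1 (y k * x)) ≤ δ * l2 fun k => (y k * x) S.ξ := by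
    have h8 : ∀ k, S.D 1 (y k * x) = y k (S.D ν x) + (ν • S.ρ x) (S.D ν⁻¹ (y k)) := fun k => by
      rw [← inv_mul_cancel₀ hν.ne', S.D_mul (hy.mem k) hx]
      rfl
    have h9 := mul_le_mul_of_nonneg_left (hy.dn.trans (min_le_right _ _)) (norm_nonneg (ν • S.ρ x))
    have h10 : (‖ν • S.ρ x‖ + 1) * (δ / (8 * (‖ν • S.ρ x‖ + 1))) = δ / 8 := by field_simp
    simp only [h8]
    refine (l2_add_le _ _).trans ((add_le_add (hy.col _) (l2_op_le _ _)).trans ?_)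
    have h11 := mul_le_mul_of_nonneg_left h6 hδ.le
    rw [Dn] at h9
    simp only [mul_apply_eq_comp]
    linarith [min_le_left (δ / 8) (1 / 2)]
  obtain ⟨k, k0, hk⟩ := l2_exists_le hδ.le h7 (lt_of_lt_of_le (by norm_num) h6)
  refine ⟨y k * x, mul_mem (hy.mem k) hx, by rw [← mul_assoc, ey, mul_assoc, ex],
    by rw [mul_assoc, xf], fun h => k0 (by rw [h]; rfl), hk⟩

end SF

end Vale.Agent.P132
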